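import Vale.Agent.P245.PL

/-! The half-line lemma of Lehec's proof of the functional Santalo inequality.

Plan.  `F a = ofReal (exp a) * f (exp a)`, `G b = ofReal (exp b) * g (exp b)`,
`H c = ofReal (exp c * exp (-(exp c) ^ 2 / 2))`.  Then `F a * G b ≤ H ((a + b) / 2) ^ 2`, so
`pl_one` with `t = 1/2` gives `(∫ F) (∫ G) ≤ (∫ H) ^ 2`.  The change of variables `s = exp a`
(`lintegral_image_eq_lintegral_deriv_mul_of_monotoneOn`, `Real.range_exp`) turns the three
integrals into integrals over `Ioi 0`, and `∫_0^∞ exp (-s^2/2) = √(π / (1/2)) / 2`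
(`integral_gaussian_Ioi`), whose square is `π / 2`.  `half_real`: apply `half_line` to
`ofReal ∘ f`, `ofReal (g / c)`.  `half_neg`: reflect `s ↦ -s` (`integral_comp_neg_Ioi`). -/

open MeasureTheory Real Set
open scoped ENNReal

namespace Vale.Agent.P245

theorem bsa_exp (u : ℝ → ℝ≥0∞) :
    ∫⁻ s in Ioi 0, u s = ∫⁻ a, ENNReal.ofReal (exp a) * u (exp a) := by
  have e := lintegral_image_eq_lintegral_deriv_mul_of_monotoneOn (f := exp) (f' := exp)
    MeasurableSet.univ (fun x _ => (hasDerivAt_exp x).hasDerivWithinAt)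
    (exp_monotone.monotoneOn _) u
  rwa [image_univ, Real.range_exp, Measure.restrict_univ] at e

theorem bsa_gauss : (∫⁻ s in Ioi (0 : ℝ), ENNReal.ofReal (exp (-(1 / 2) * s ^ 2))) ^ 2 =
    ENNReal.ofReal (π / 2) := by
  rw [← ofReal_integral_eq_lintegral_ofReal
    (integrable_exp_neg_mul_sq (by norm_num : (0 : ℝ) < 1 / 2)).integrableOn
    (ae_of_all _ fun s => (exp_pos _).le), integral_gaussian_Ioi,
    ← ENNReal.ofReal_pow (by positivity), div_pow, sq_sqrt (by positivity)]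
  congr 1
  ring

theorem bsa_sq (x y : ℝ≥0∞) : (x ^ (1 - 1 / 2 : ℝ) * y ^ (1 / 2 : ℝ)) ^ 2 = x * y := by
  have e : (1 - 1 / 2 : ℝ) = 1 / 2 := by norm_num
  rw [e, ← ENNReal.mul_rpow_of_nonneg _ _ (by norm_num), ← ENNReal.rpow_natCast,
    ← ENNReal.rpow_mul]
  norm_num

theorem half_line {f g : ℝ → ℝ≥0∞} (mf : Measurable f) (mg : Measurable g)
    (H : ∀ s t, 0 < s → 0 < t → f s * g t ≤ ENNReal.ofReal (exp (-(s * t)))) :
    (∫⁻ s in Ioi 0, f s) * (∫⁻ t in Ioi 0, g t) ≤ ENNReal.ofReal (π / 2) := by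
  rw [← bsa_gauss, bsa_exp, bsa_exp, bsa_exp, ← bsa_sq]
  refine pow_le_pow_left' (pl_one (by norm_num) (by norm_num) (by fun_prop) (by fun_prop)
    (by fun_prop) fun a b => ?_) 2
  rw [← ENNReal.pow_le_pow_left_iff two_ne_zero, bsa_sq, mul_mul_mul_comm,
    ← ENNReal.ofReal_mul (exp_pos _).le, ← ENNReal.ofReal_mul (exp_pos _).le,
    ← ENNReal.ofReal_pow (by positivity)]
  refine (mul_le_mul_right (H _ _ (exp_pos a) (exp_pos b)) _).trans (le_of_eq ?_)
  have e : exp ((1 - 1 / 2 : ℝ) • a + (1 / 2 : ℝ) • b) ^ 2 = exp a * exp b := by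
    rw [← exp_nat_mul, ← exp_add]
    congr 1
    simp only [smul_eq_mul]
    push_cast
    ring
  rw [← ENNReal.ofReal_mul (by positivity), mul_pow, e, ← exp_nat_mul]
  congr 3
  push_cast
  ring

theorem half_real {f g : ℝ → ℝ} {c : ℝ} (hc : 0 < c) (mf : Measurable f) (mg : Measurable g)
    (f0 : ∀ s, 0 ≤ f s) (g0 : ∀ s, 0 ≤ g s) (jf : Integrable f) (jg : Integrable g)
    (H : ∀ s t, f s * g t ≤ c * exp (-(s * t))) :
    (∫ s in Ioi 0, f s) * (∫ t in Ioi 0, g t) ≤ c * (π / 2) := by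
  have h := half_line (f := fun s => ENNReal.ofReal (f s)) (g := fun t => ENNReal.ofReal (g t / c))
    (by fun_prop) (by fun_prop) fun s t _ _ => by
      rw [← ENNReal.ofReal_mul (f0 s), ← mul_div_assoc]
      exact ENNReal.ofReal_le_ofReal ((div_le_iff₀' hc).2 (H s t))
  rw [← ofReal_integral_eq_lintegral_ofReal jf.integrableOn (ae_of_all _ f0),
    ← ofReal_integral_eq_lintegral_ofReal (jg.div_const c).integrableOn
      (ae_of_all _ fun t => div_nonneg (g0 t) hc.le),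
    ← ENNReal.ofReal_mul (integral_nonneg f0), ENNReal.ofReal_le_ofReal_iff (by positivity),
    integral_div, ← mul_div_assoc, div_le_iff₀' hc] at h
  exact h

theorem half_neg {f g : ℝ → ℝ} {c : ℝ} (hc : 0 < c) (mf : Measurable f) (mg : Measurable g)
    (f0 : ∀ s, 0 ≤ f s) (g0 : ∀ s, 0 ≤ g s) (jf : Integrable f) (jg : Integrable g)
    (H : ∀ s t, f s * g t ≤ c * exp (-(s * t))) :
    (∫ s in Iic 0, f s) * (∫ t in Iic 0, g t) ≤ c * (π / 2) := by
  have h := half_real (f := fun s => f (-s)) (g := fun t => g (-t)) hc (by fun_prop) (by fun_prop)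
    (fun s => f0 _) (fun s => g0 _) jf.comp_neg jg.comp_neg fun s t => by
      simpa only [neg_mul_neg] using H (-s) (-t)
  rwa [integral_comp_neg_Ioi, integral_comp_neg_Ioi, neg_zero] at h

end Vale.Agent.P245
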