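import Vale.Agent.P245.BSa

/-! Lehec's induction step when the two halves of `g` are already centred.

`BZ n` is the functional Santalo inequality in `E n` when `g` has barycentre zero.
Plan for `bs_centred`.  Put `F₊ x = ∫ s in Ioi 0, f (s, x)`, `G₊ y = ∫ t in Ioi 0, g (t, y)` and
`F₋, G₋` with `Iic 0`.  They are `Nice` (bounded by `C * (2 C)`, measurable by
`StronglyMeasurable.integral_prod_left'` for `volume.restrict _`).  `half_real` with
`c = exp (-⟪x, y⟫)` gives `(2 / π * F₊ x) * G₊ y ≤ exp (-⟪x, y⟫)`, so `BZ n` gives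
`(∫ F₊) * m ≤ π / 2 * (2 π) ^ n`; the same for `F₋` by `half_neg`.  Fubini
(`integral_prod_symm`, `intervalIntegral.integral_Iic_add_Ioi` / `integral_add_compl`):
`∫ f = ∫ F₊ + ∫ F₋` and `∫ g = 2 m`. -/

open MeasureTheory Real Set
open scoped RealInnerProductSpace

namespace Vale.Agent.P245

variable {n : ℕ}

/-- functional Santalo inequality when `g` has barycentre zero -/
def BZ (n : ℕ) : Prop :=
  ∀ f g : E n → ℝ, Nice f → Nice g → (∀ x y, f x * g y ≤ exp (-⟪x, y⟫)) →
    ∫ y, g y • y = 0 → (∫ x, f x) * (∫ y, g y) ≤ (2 * π) ^ n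

theorem Nice.integrable_prod {f : ℝ × E n → ℝ} (h : Nice f) : Integrable f := by
  obtain ⟨hm, C, hC⟩ := h
  refine (integrableOn_iff_integrable_of_support_subset (s := Metric.closedBall 0 C) ?_).1
    (Measure.integrableOn_of_bounded (M := C) measure_closedBall_lt_top.ne
      hm.aestronglyMeasurable (ae_of_all _ fun x => ?_))
  · intro x hx
    by_contra h
    exact hx ((hC x).2.2 (by simpa using h))
  · rw [Real.norm_of_nonneg (hC x).1]
    exact (hC x).2.1


theorem Nice.bsb_nonneg {V : Type} [Norm V] [MeasurableSpace V] {f : V → ℝ} (h : Nice f) (x : V) :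
    0 ≤ f x := (h.2.choose_spec x).1

theorem Nice.bsb_mul {f : E n → ℝ} (h : Nice f) {c : ℝ} (h0 : 0 ≤ c) (h1 : c ≤ 1) :
    Nice fun x => c * f x := by
  obtain ⟨hm, C, hC⟩ := h
  exact ⟨hm.const_mul c, C, fun x => ⟨mul_nonneg h0 (hC x).1,
    (mul_le_of_le_one_left (hC x).1 h1).trans (hC x).2.1,
    fun hx => mul_eq_zero_of_right _ ((hC x).2.2 hx)⟩⟩

theorem Nice.bsb_slice {f : ℝ × E n → ℝ} (h : Nice f) (x : E n) : Integrable fun s => f (s, x) := by
  obtain ⟨hm, C, hC⟩ := h
  refine (integrableOn_iff_integrable_of_support_subset (s := Metric.closedBall 0 C) ?_).1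
    (Measure.integrableOn_of_bounded (M := C) measure_closedBall_lt_top.ne
      (hm.comp measurable_prodMk_right).aestronglyMeasurable (ae_of_all _ fun s => ?_))
  · intro s hs
    by_contra h
    rw [mem_closedBall_zero_iff, not_le] at h
    exact hs ((hC _).2.2 (h.trans_le (norm_fst_le (s, x))))
  · rw [Real.norm_of_nonneg (hC _).1]
    exact (hC _).2.1

theorem Nice.bsb_half {f : ℝ × E n → ℝ} (h : Nice f) (A : Set ℝ) :
    Nice fun x => ∫ s in A, f (s, x) := by
  have hi := h.bsb_slice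
  obtain ⟨hm, C, hC⟩ := h
  have h0 : 0 ≤ C := (hC 0).1.trans (hC 0).2.1
  refine ⟨(hm.stronglyMeasurable.integral_prod_left' (μ := volume.restrict A)).measurable,
    C + C * (2 * C), fun x => ⟨integral_nonneg fun s => (hC _).1, ?_, fun hx => ?_⟩⟩
  · have h1 : ∫ s in Metric.closedBall 0 C, f (s, x) = ∫ s, f (s, x) :=
      setIntegral_eq_integral_of_forall_compl_eq_zero fun s hs => by
        rw [mem_closedBall_zero_iff, not_le] at hs
        exact (hC _).2.2 (hs.trans_le (norm_fst_le (s, x)))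
    have h2 : ‖∫ s in Metric.closedBall 0 C, f (s, x)‖ ≤
        C * volume.real (Metric.closedBall (0 : ℝ) C) :=
      norm_setIntegral_le_of_norm_le_const measure_closedBall_lt_top fun s _ => by
        rw [Real.norm_of_nonneg (hC _).1]
        exact (hC _).2.1
    rw [h1, Real.volume_real_closedBall h0] at h2
    have h3 := setIntegral_le_integral (s := A) (hi x) (ae_of_all _ fun s => (hC (s, x)).1)
    exact h3.trans (((le_abs_self _).trans h2).trans (le_add_of_nonneg_left h0))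
  · have h1 : C < ‖x‖ := (le_add_of_nonneg_right (by positivity)).trans_lt hx
    simp only [fun s => (hC (s, x)).2.2 (h1.trans_le (norm_snd_le (s, x))), integral_zero]

theorem Nice.bsb_fubini {f : ℝ × E n → ℝ} (h : Nice f) :
    ∫ x, f x = (∫ y, ∫ s in Iic 0, f (s, y)) + ∫ y, ∫ s in Ioi 0, f (s, y) := by
  rw [← integral_add (h.bsb_half _).integrable (h.bsb_half _).integrable, Measure.volume_eq_prod,
    integral_prod_symm f h.integrable_prod]
  exact integral_congr_ae (ae_of_all _ fun y => (intervalIntegral.integral_Iic_add_Ioi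
    (h.bsb_slice y).integrableOn (h.bsb_slice y).integrableOn).symm)

theorem bsb_step (hz : BZ n) {F G : E n → ℝ} (hF : Nice F) (hG : Nice G)
    (H : ∀ x y, F x * G y ≤ exp (-⟪x, y⟫) * (π / 2)) (h0 : ∫ y, G y • y = 0) :
    (∫ x, F x) * (∫ y, G y) ≤ π / 2 * (2 * π) ^ n := by
  have h1 : 0 < π / 2 := by positivity
  have h2 := hz _ _ (hF.bsb_mul (c := (π / 2)⁻¹) (by positivity)
    (inv_le_one_of_one_le₀ (by linarith [two_le_pi]))) hG (fun x y => by
      rw [mul_assoc, inv_mul_le_iff₀ h1, mul_comm (π / 2)]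
      exact H x y) h0
  rwa [integral_const_mul, mul_assoc, inv_mul_le_iff₀ h1] at h2

theorem bs_centred (hz : BZ n) {f g : ℝ × E n → ℝ} (hf : Nice f) (hg : Nice g)
    (H : ∀ x y, f x * g y ≤ exp (-(x.1 * y.1 + ⟪x.2, y.2⟫)))
    (heq : ∫ y, ∫ t in Ioi 0, g (t, y) = ∫ y, ∫ t in Iic 0, g (t, y))
    (hp : ∫ y, (∫ t in Ioi 0, g (t, y)) • y = 0) (hm : ∫ y, (∫ t in Iic 0, g (t, y)) • y = 0) :
    (∫ x, f x) * (∫ y, g y) ≤ (2 * π) ^ (n + 1) := by
  have H' : ∀ (x y : E n) (s t : ℝ), f (s, x) * g (t, y) ≤ exp (-⟪x, y⟫) * exp (-(s * t)) :=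
    fun x y s t => (H (s, x) (t, y)).trans_eq (by rw [← exp_add, neg_add, add_comm])
  have h1 := bsb_step hz (hf.bsb_half (Ioi 0)) (hg.bsb_half (Ioi 0)) (fun x y =>
    half_real (exp_pos _) (hf.1.comp measurable_prodMk_right) (hg.1.comp measurable_prodMk_right)
      (fun _ => hf.bsb_nonneg _) (fun _ => hg.bsb_nonneg _) (hf.bsb_slice x) (hg.bsb_slice y)
      (H' x y)) hp
  have h2 := bsb_step hz (hf.bsb_half (Iic 0)) (hg.bsb_half (Iic 0)) (fun x y =>
    half_neg (exp_pos _) (hf.1.comp measurable_prodMk_right) (hg.1.comp measurable_prodMk_right)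
      (fun _ => hf.bsb_nonneg _) (fun _ => hg.bsb_nonneg _) (hf.bsb_slice x) (hg.bsb_slice y)
      (H' x y)) hm
  rw [hf.bsb_fubini, hg.bsb_fubini, heq, pow_succ]
  rw [heq] at h1
  linarith


end Vale.Agent.P245
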