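import Vale.Agent.P245.BSb

/-! Choice of the cutting hyperplane and of the shear in Lehec's induction step.

Plan for `exists_shear` (`0 < ∫ g`).  The function `c ↦ ∫ y in {y | y.1 ≤ c}, g y` is continuous
(it is `∫ t in Iic c, G t` for the bounded marginal `G`), `0` at `-C - 1` and `∫ g` at `C + 1`, so it
takes the value `m = (∫ g) / 2` at some `c₀` (intermediate value theorem).  Let
`σ₊ = ∫_{y.1 > c₀} (y.1 - c₀) g > 0`, `σ₋ = ∫_{y.1 ≤ c₀} (y.1 - c₀) g ≤ 0`,
`M₊ = ∫_{y.1 > c₀} g • y.2`, `M₋` likewise, `v = (σ₊ - σ₋)⁻¹ • (M₊ - M₋)`,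
`c = m⁻¹ • (M₊ - σ₊ • v)` (`= m⁻¹ • (M₋ - σ₋ • v)`).  For `g' (t, y) = g (c₀ + t, c + t • v + y)`
Fubini and translation invariance (`integral_add_left_eq_self` in `y` for fixed `t`, then in `t`)
give the three identities.  `integral_shear` is the same Fubini argument. -/

open MeasureTheory Real Set
open scoped RealInnerProductSpace

namespace Vale.Agent.P245

variable {n : ℕ}

/-- the shear as a measurable equivalence -/
noncomputable def bscE (c₀ : ℝ) (c v : E n) : ℝ × E n ≃ᵐ ℝ × E n where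
  toFun p := (c₀ + p.1, c + p.1 • v + p.2)
  invFun p := (p.1 - c₀, p.2 - c - (p.1 - c₀) • v)
  left_inv p := by
    ext1
    · simp
    · simp only [add_sub_cancel_left]
      abel
  right_inv p := by
    ext1
    · simp
    · simp only
      abel
  measurable_toFun := by
    change Measurable fun p : ℝ × E n => (c₀ + p.1, c + p.1 • v + p.2)
    fun_prop
  measurable_invFun := by
    change Measurable fun p : ℝ × E n => (p.1 - c₀, p.2 - c - (p.1 - c₀) • v)
    fun_prop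

theorem bscE_apply (c₀ : ℝ) (c v : E n) (p : ℝ × E n) :
    bscE c₀ c v p = (c₀ + p.1, c + p.1 • v + p.2) := rfl

theorem bsc_mp (c₀ : ℝ) (c v : E n) : MeasurePreserving (bscE c₀ c v) volume volume :=
  (measurePreserving_add_left volume c₀).skew_product (g := fun t y => c + t • v + y)
    (by fun_prop) (ae_of_all _ fun t => map_add_left_eq_self volume (c + t • v))

theorem nice_shear {g : ℝ × E n → ℝ} (hg : Nice g) (c₀ : ℝ) (c v : E n) :
    Nice fun p : ℝ × E n => g (c₀ + p.1, c + p.1 • v + p.2) := by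
  obtain ⟨hm, C, hC⟩ := hg
  have h0 : 0 ≤ C := (hC 0).1.trans (hC 0).2.1
  have h1 : 0 ≤ (C + |c₀|) * ‖v‖ := by positivity
  refine ⟨hm.comp (bscE c₀ c v).measurable, C + |c₀| + ‖c‖ + (C + |c₀|) * ‖v‖, fun p =>
    ⟨(hC _).1, (hC _).2.1.trans (by linarith [abs_nonneg c₀, norm_nonneg c]), fun hp => ?_⟩⟩
  refine (hC _).2.2 ?_
  by_contra h
  rw [not_lt, norm_prod_le_iff] at h
  obtain ⟨h2, h3⟩ := h
  rw [Real.norm_eq_abs] at h2
  have h4 : |p.1| ≤ C + |c₀| := by
    have := abs_sub (c₀ + p.1) c₀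
    rw [add_sub_cancel_left] at this
    linarith
  have h5 : ‖p.1 • v‖ ≤ (C + |c₀|) * ‖v‖ := by
    rw [norm_smul, Real.norm_eq_abs]
    gcongr
  have h6 : ‖p.2‖ ≤ C + (‖c‖ + (C + |c₀|) * ‖v‖) := by
    have := norm_sub_le (c + p.1 • v + p.2) (c + p.1 • v)
    rw [add_sub_cancel_left] at this
    linarith [norm_add_le c (p.1 • v)]
  refine hp.not_ge (norm_prod_le_iff.2 ⟨?_, ?_⟩)
  · rw [Real.norm_eq_abs]
    linarith [norm_nonneg c]
  · linarith [abs_nonneg c₀]

theorem integral_shear {g : ℝ × E n → ℝ} (hg : Nice g) (c₀ : ℝ) (c v : E n) :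
    ∫ p : ℝ × E n, g (c₀ + p.1, c + p.1 • v + p.2) = ∫ p, g p := by
  have _ := hg
  exact (bsc_mp c₀ c v).integral_comp' g

theorem bsc_int {F : Type} [NormedAddCommGroup F] [NormedSpace ℝ F] [SecondCountableTopology F]
    {g : ℝ × E n → ℝ} (hg : Nice g) {φ : ℝ × E n → F} (hφ : Continuous φ) :
    Integrable fun p => g p • φ p := by
  obtain ⟨hm, C, hC⟩ := hg
  obtain ⟨D, hD⟩ := (isCompact_closedBall (0 : ℝ × E n) C).exists_bound_of_continuousOn
    hφ.continuousOn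
  refine (integrableOn_iff_integrable_of_support_subset (s := Metric.closedBall 0 C) ?_).1
    (Measure.integrableOn_of_bounded (M := C * D) measure_closedBall_lt_top.ne
      (hm.aestronglyMeasurable.smul hφ.aestronglyMeasurable) ?_)
  · intro x hx
    by_contra h
    exact hx (by simp [(hC x).2.2 (by simpa using h)])
  · filter_upwards [ae_restrict_mem measurableSet_closedBall] with x hx
    rw [norm_smul, Real.norm_of_nonneg (hC x).1]
    exact mul_le_mul (hC x).2.1 (hD x hx) (norm_nonneg _) ((hC x).1.trans (hC x).2.1)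

theorem bsc_fub {F : Type} [NormedAddCommGroup F] [NormedSpace ℝ F] {Φ : ℝ × E n → F}
    (h : Integrable Φ) (S : Set ℝ) : ∫ y, ∫ t in S, Φ (t, y) = ∫ p in S ×ˢ univ, Φ p := by
  have h1 : IntegrableOn Φ (S ×ˢ univ) (volume.prod volume) := h.integrableOn
  rw [IntegrableOn, ← Measure.restrict_prod_eq_prod_univ] at h1
  rw [← integral_prod_symm _ h1, Measure.restrict_prod_eq_prod_univ]
  rfl

theorem bsc_key {g : ℝ × E n → ℝ} (hg : Nice g) (c₀ : ℝ) (c v : E n) {S S' : Set ℝ}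
    (hS : ∀ t, t ∈ S ↔ c₀ + t ∈ S') :
    (∫ y, ∫ t in S, g (c₀ + t, c + t • v + y) = ∫ p in S' ×ˢ univ, g p) ∧
    ∫ y, (∫ t in S, g (c₀ + t, c + t • v + y)) • y = (∫ p in S' ×ˢ univ, g p • p.2) -
      (∫ p in S' ×ˢ univ, g p) • c - (∫ p in S' ×ˢ univ, g p • (p.1 - c₀)) • v := by
  have hn := nice_shear hg c₀ c v
  have e : S ×ˢ (univ : Set (E n)) = bscE c₀ c v ⁻¹' (S' ×ˢ univ) := by
    ext p
    simp [bscE_apply, hS]
  have hp := fun {F : Type} [NormedAddCommGroup F] [NormedSpace ℝ F] (Φ : ℝ × E n → F) =>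
    (bsc_mp c₀ c v).setIntegral_preimage_emb (bscE c₀ c v).measurableEmbedding Φ (S' ×ˢ univ)
  refine ⟨?_, ?_⟩
  · rw [bsc_fub hn.integrable_prod S, e]
    exact hp g
  · simp only [← integral_smul_const]
    rw [bsc_fub (bsc_int hn continuous_snd) S, e, ← integral_sub, ← integral_sub, ← hp]
    · refine integral_congr_ae (ae_of_all _ fun p => ?_)
      simp only [bscE_apply, add_sub_cancel_left, smul_add, smul_assoc]
      abel
    · exact ((bsc_int hg continuous_snd).sub (hg.integrable_prod.smul_const c)).integrableOn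
    · exact ((bsc_int hg (φ := fun p => p.1 - c₀) (by fun_prop)).smul_const v).integrableOn
    · exact (bsc_int hg continuous_snd).integrableOn
    · exact (hg.integrable_prod.smul_const c).integrableOn

theorem bsc_split {g : ℝ × E n → ℝ} (hg : Nice g) (c₀ : ℝ) :
    (∫ p in Iic c₀ ×ˢ univ, g p) + ∫ p in Ioi c₀ ×ˢ univ, g p = ∫ p, g p := by
  rw [← integral_add_compl (measurableSet_Iic.prod MeasurableSet.univ) hg.integrable_prod
    (s := Iic c₀ ×ˢ univ)]
  congr 3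
  ext p
  simp

theorem bsc_cut {g : ℝ × E n → ℝ} (hg : Nice g) (h0 : 0 < ∫ y, g y) :
    ∃ c₀ : ℝ, ∫ p in Iic c₀ ×ˢ univ, g p = (∫ y, g y) / 2 := by
  have hi := hg.integrable_prod
  obtain ⟨C, hC⟩ := hg.2
  have hC0 : 0 ≤ C := (hC 0).1.trans (hC 0).2.1
  have e : ∀ c : ℝ, ∫ p in Iic c ×ˢ univ, g p = ∫ t in Iic c, ∫ y, g (t, y) := fun c => by
    have := setIntegral_prod g (μ := volume) (ν := volume) (s := Iic c) (t := univ) hi.integrableOn
    rw [Measure.restrict_univ] at this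
    exact this
  have hc : ContinuousOn (fun c : ℝ => ∫ p in Iic c ×ˢ univ, g p) (Icc (-C - 1) (C + 1)) := by
    simp only [e]
    exact (Integrable.integral_prod_left hi).integrableOn.continuousOn_Iic_primitive_Iic.mono
      Icc_subset_Iic_self
  have h1 : ∫ p in Iic (-C - 1) ×ˢ univ, g p = 0 :=
    setIntegral_eq_zero_of_forall_eq_zero fun p hp => (hC p).2.2
      (lt_of_lt_of_le (by linarith [neg_le_abs p.1, mem_Iic.1 hp.1, Real.norm_eq_abs p.1]) (norm_fst_le p))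
  have h2 : ∫ p in Ioi (C + 1) ×ˢ univ, g p = 0 :=
    setIntegral_eq_zero_of_forall_eq_zero fun p hp => (hC p).2.2
      (lt_of_lt_of_le (by linarith [le_abs_self p.1, mem_Ioi.1 hp.1, Real.norm_eq_abs p.1]) (norm_fst_le p))
  have h3 := bsc_split hg (C + 1)
  obtain ⟨c₀, -, h⟩ := intermediate_value_Icc (by linarith) hc
    (show (∫ y, g y) / 2 ∈ Icc _ _ from ⟨by linarith, by linarith⟩)
  exact ⟨c₀, h⟩

theorem exists_shear {g : ℝ × E n → ℝ} (hg : Nice g) (h0 : 0 < ∫ y, g y) :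
    ∃ (c₀ : ℝ) (c v : E n),
      (∫ y, ∫ t in Ioi 0, g (c₀ + t, c + t • v + y) =
        ∫ y, ∫ t in Iic 0, g (c₀ + t, c + t • v + y)) ∧
      ∫ y, (∫ t in Ioi 0, g (c₀ + t, c + t • v + y)) • y = 0 ∧
      ∫ y, (∫ t in Iic 0, g (c₀ + t, c + t • v + y)) • y = 0 := by
  obtain ⟨c₀, h1⟩ := bsc_cut hg h0
  have h2 : ∫ p in Ioi c₀ ×ˢ univ, g p = (∫ y, g y) / 2 := by linarith [bsc_split hg c₀]
  obtain ⟨C, hC⟩ := hg.2
  have mA : MeasurableSet (Ioi c₀ ×ˢ (univ : Set (E n))) := measurableSet_Ioi.prod .univ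
  have mB : MeasurableSet (Iic c₀ ×ˢ (univ : Set (E n))) := measurableSet_Iic.prod .univ
  have h3 : ∫ p in Iic c₀ ×ˢ univ, g p • (p.1 - c₀) ≤ 0 :=
    setIntegral_nonpos mB fun p hp =>
      mul_nonpos_of_nonneg_of_nonpos (hC p).1 (sub_nonpos.2 hp.1)
  have h4 : 0 < ∫ p in Ioi c₀ ×ˢ univ, g p • (p.1 - c₀) := by
    refine (setIntegral_nonneg mA fun p hp => mul_nonneg (hC p).1 (sub_pos.2 hp.1).le).lt_of_ne' ?_
    intro h
    have hi : Integrable fun p : ℝ × E n => g p * (p.1 - c₀) :=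
      bsc_int hg (φ := fun p => p.1 - c₀) (by fun_prop)
    rw [setIntegral_eq_zero_iff_of_nonneg_ae ?_ hi.integrableOn] at h
    · have h5 : ∫ p in Ioi c₀ ×ˢ univ, g p = 0 := by
        refine integral_eq_zero_of_ae ?_
        filter_upwards [h, ae_restrict_mem mA] with p hp hp'
        exact (mul_eq_zero.1 hp).resolve_right (sub_pos.2 hp'.1).ne'
      linarith
    · filter_upwards [ae_restrict_mem mA] with p hp
      exact mul_nonneg (hC p).1 (sub_pos.2 hp.1).le
  have kA := fun c v => bsc_key hg c₀ c v (S := Ioi 0) (S' := Ioi c₀) fun t => by simp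
  have kB := fun c v => bsc_key hg c₀ c v (S := Iic 0) (S' := Iic c₀) fun t => by simp
  simp only [h1, h2] at kA kB
  generalize ∫ p in Iic c₀ ×ˢ univ, g p • (p.1 - c₀) = s at h3 kB
  generalize ∫ p in Ioi c₀ ×ˢ univ, g p • (p.1 - c₀) = s' at h4 kA
  generalize ∫ p in Iic c₀ ×ˢ univ, g p • p.2 = N at kB
  generalize ∫ p in Ioi c₀ ×ˢ univ, g p • p.2 = N' at kA
  have h5 : (∫ y, g y) / 2 ≠ 0 := (half_pos h0).ne'
  have h6 : s' - s ≠ 0 := by linarith
  refine ⟨c₀, ((∫ y, g y) / 2)⁻¹ • (N' - s' • (s' - s)⁻¹ • (N' - N)), (s' - s)⁻¹ • (N' - N),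
    by rw [(kA _ _).1, (kB _ _).1], ?_, ?_⟩
  · rw [(kA _ _).2, smul_inv_smul₀ h5]
    abel
  · rw [(kB _ _).2, smul_inv_smul₀ h5]
    have h7 := smul_inv_smul₀ h6 (N' - N)
    rw [sub_smul] at h7
    linear_combination (norm := module) h7

end Vale.Agent.P245
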