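import Vale.Agent.P245.BSc

/-! The functional Santalo inequality (Lehec's induction).

Plan.
* `bs_step`: if `∫ g = 0` trivial.  Otherwise take `c₀, c, v` from `exists_shear`,
  `g' p = g (c₀ + p.1, c + p.1 • v + p.2)`, and `f' (s, x) = F (s - ⟪x, v⟫, x)` where
  `F x = f x * exp (x.1 * c₀ + ⟪x.2, c⟫)`.  Then `f' x * g' y ≤ exp (-(x.1 y.1 + ⟪x.2, y.2⟫))`,
  `f'` is `Nice`, `∫ f' = ∫ F` (Fubini, `integral_sub_right_eq_self` in `s`), `∫ g' = ∫ g`
  (`integral_shear`); apply `bs_centred`.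
* `bz_of`: with the roles of `f, g` exchanged, `∫ g * exp ⟪y, b⟫ ≥ ∫ g * (1 + ⟪y, b⟫) = ∫ g`.
* `bs`: induction on `n`.  `n = 0`: `E 0` is a point of mass one (`PiLp.volume_preserving_toLp`,
  `Measure.volume_pi_eq_dirac`/`integral_unique`).  Step: transfer along the volume preserving
  `ℝ × E n ≃ᵐ E (n+1)` built from `volume_preserving_piFinSuccAbove _ 0` and
  `PiLp.volume_preserving_toLp`, `PiLp.volume_preserving_ofLp`; the inner product splits by
  `Fin.sum_univ_succ`. -/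

open MeasureTheory Real Set
open scoped RealInnerProductSpace

namespace Vale.Agent.P245

variable {n : ℕ}

theorem bsd_comp {V W : Type} [NormedAddCommGroup V] [NormedAddCommGroup W] [MeasurableSpace V]
    [MeasurableSpace W] {f : W → ℝ} (hf : Nice f) {e : V → W} (me : Measurable e) {K : ℝ}
    (hK : 1 ≤ K) (he : ∀ x, ‖x‖ ≤ K * ‖e x‖) : Nice fun x => f (e x) := by
  obtain ⟨hm, C, hC⟩ := hf
  have h0 : 0 ≤ C := (hC 0).1.trans (hC 0).2.1
  refine ⟨hm.comp me, K * C, fun x => ⟨(hC _).1, (hC _).2.1.trans (by nlinarith), fun h => ?_⟩⟩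
  exact (hC _).2.2 (lt_of_mul_lt_mul_left (h.trans_le (he x)) (by linarith))

theorem bsd_mul {V : Type} [NormedAddCommGroup V] [ProperSpace V] [MeasurableSpace V] [BorelSpace V]
    {f : V → ℝ} (hf : Nice f) {φ : V → ℝ} (hφ : Continuous φ) (h0 : ∀ x, 0 ≤ φ x) :
    Nice fun x => f x * φ x := by
  obtain ⟨hm, C, hC⟩ := hf
  obtain ⟨D, hD⟩ := (isCompact_closedBall (0 : V) C).exists_bound_of_continuousOn hφ.continuousOn
  have c0 : 0 ≤ C := (hC 0).1.trans (hC 0).2.1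
  have d0 : 0 ≤ D := (norm_nonneg _).trans (hD 0 (by simpa using c0))
  refine ⟨hm.mul hφ.measurable, C * (D + 1), fun x => ⟨mul_nonneg (hC x).1 (h0 x), ?_, fun h => ?_⟩⟩
  · by_cases hx : C < ‖x‖
    · simp only [(hC x).2.2 hx, zero_mul]
      positivity
    · have h1 := hD x (by simpa using hx)
      rw [Real.norm_of_nonneg (h0 x)] at h1
      exact mul_le_mul (hC x).2.1 (by linarith) (h0 x) c0
  · simp only [(hC x).2.2 (by nlinarith), zero_mul]

theorem bsd_int_smul {g : E n → ℝ} (hg : Nice g) : Integrable fun y => g y • y := by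
  refine (bsd_mul hg continuous_norm fun x => norm_nonneg x).integrable.mono'
    (hg.1.smul measurable_id).aestronglyMeasurable (ae_of_all _ fun x => ?_)
  rw [norm_smul, Real.norm_of_nonneg (hg.2.choose_spec x).1]

theorem bs_step (hz : BZ n) {f g : ℝ × E n → ℝ} (hf : Nice f) (hg : Nice g)
    (H : ∀ x y, f x * g y ≤ exp (-(x.1 * y.1 + ⟪x.2, y.2⟫))) :
    ∃ b : ℝ × E n, (∫ x, f x * exp (x.1 * b.1 + ⟪x.2, b.2⟫)) * (∫ y, g y) ≤ (2 * π) ^ (n + 1) := by
  have g0 : 0 ≤ ∫ y, g y := integral_nonneg fun y => (hg.2.choose_spec y).1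
  rcases g0.eq_or_lt with h0 | h0
  · refine ⟨0, ?_⟩
    rw [← h0, mul_zero]
    positivity
  obtain ⟨c₀, c, v, h1, h2, h3⟩ := exists_shear hg h0
  refine ⟨(c₀, c), ?_⟩
  have hF : Nice fun x : ℝ × E n => f x * exp (x.1 * c₀ + ⟪x.2, c⟫) :=
    bsd_mul hf (by fun_prop) fun x => (exp_pos _).le
  have hf' := bsd_comp hF (e := fun p : ℝ × E n => (p.1 - ⟪p.2, v⟫, p.2)) (by fun_prop)
    (K := 1 + ‖v‖) (by simp) fun p => by
      have a1 : |p.1 - ⟪p.2, v⟫| ≤ ‖((p.1 - ⟪p.2, v⟫, p.2) : ℝ × E n)‖ := norm_fst_le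
        ((p.1 - ⟪p.2, v⟫, p.2) : ℝ × E n)
      have a2 : ‖p.2‖ ≤ ‖((p.1 - ⟪p.2, v⟫, p.2) : ℝ × E n)‖ := norm_snd_le
        ((p.1 - ⟪p.2, v⟫, p.2) : ℝ × E n)
      have a3 := abs_real_inner_le_norm p.2 v
      have a4 : |p.1| ≤ |p.1 - ⟪p.2, v⟫| + |⟪p.2, v⟫| := by
        simpa using abs_add_le (p.1 - ⟪p.2, v⟫) ⟪p.2, v⟫
      have a5 := mul_le_mul_of_nonneg_right a2 (norm_nonneg v)
      have a6 := mul_nonneg (norm_nonneg v) (norm_nonneg ((p.1 - ⟪p.2, v⟫, p.2) : ℝ × E n))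
      refine norm_prod_le_iff.2 ⟨?_, ?_⟩
      · rw [Real.norm_eq_abs]
        linarith
      · linarith
  have key := bs_centred hz hf' (nice_shear hg c₀ c v) (fun x y => by
    have a1 := mul_le_mul_of_nonneg_right
      (H (x.1 - ⟪x.2, v⟫, x.2) (c₀ + y.1, c + y.1 • v + y.2))
      (exp_pos ((x.1 - ⟪x.2, v⟫) * c₀ + ⟪x.2, c⟫)).le
    rw [← exp_add] at a1
    refine le_of_eq_of_le (mul_right_comm _ _ _) (a1.trans_eq ?_)
    simp only [inner_add_right, real_inner_smul_right]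
    congr 1
    ring) h1 h2 h3
  rw [integral_shear hg] at key
  refine le_of_eq_of_le ?_ key
  congr 1
  have i1 := hF.integrable_prod
  have i2 := hf'.integrable_prod
  rw [Measure.volume_eq_prod] at i1 i2 ⊢
  rw [integral_prod_symm _ i1, integral_prod_symm _ i2]
  refine integral_congr_ae (ae_of_all _ fun x => ?_)
  exact (integral_sub_right_eq_self (fun s => f (s, x) * exp (s * c₀ + ⟪x, c⟫)) ⟪x, v⟫).symm

theorem bz_of (h : ∀ f g : E n → ℝ, Nice f → Nice g → (∀ x y, f x * g y ≤ exp (-⟪x, y⟫)) →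
    ∃ b : E n, (∫ x, f x * exp ⟪x, b⟫) * (∫ y, g y) ≤ (2 * π) ^ n) : BZ n := by
  intro f g hf hg H h0
  obtain ⟨b, hb⟩ := h g f hg hf fun x y => by rw [mul_comm, real_inner_comm]; exact H y x
  refine le_trans ?_ hb
  rw [mul_comm]
  refine mul_le_mul_of_nonneg_right ?_ (integral_nonneg fun y => (hf.2.choose_spec y).1)
  have i1 := bsd_int_smul hg
  have i2 : Integrable fun y => ⟪b, g y • y⟫ := i1.const_inner b
  have e : ∫ y, g y = ∫ y, (g y + ⟪b, g y • y⟫) := by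
    rw [integral_add hg.integrable i2, integral_inner i1, h0, inner_zero_right, add_zero]
  rw [e]
  refine integral_mono (hg.integrable.add i2)
    (bsd_mul hg (by fun_prop) fun x => (exp_pos _).le).integrable fun y => ?_
  have a1 := mul_le_mul_of_nonneg_left (add_one_le_exp ⟪y, b⟫) (hg.2.choose_spec y).1
  simp only [real_inner_smul_right]
  rw [real_inner_comm]
  linarith

/-- splitting off the first coordinate -/
noncomputable def bsdE (n : ℕ) : E (n + 1) ≃ᵐ ℝ × E n :=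
  (MeasurableEquiv.toLp 2 _).symm.trans ((MeasurableEquiv.piFinSuccAbove (fun _ => ℝ) 0).trans
    ((MeasurableEquiv.refl ℝ).prodCongr (MeasurableEquiv.toLp 2 _)))

theorem bsdE_mp : MeasurePreserving (bsdE n) :=
  ((MeasurePreserving.id volume).prod (PiLp.volume_preserving_toLp (Fin n))).comp
    ((volume_preserving_piFinSuccAbove (fun _ : Fin (n + 1) => ℝ) 0).comp
      (PiLp.volume_preserving_ofLp (Fin (n + 1))))

theorem bsdE_inner (x y : E (n + 1)) :
    ⟪x, y⟫ = (bsdE n x).1 * (bsdE n y).1 + ⟪(bsdE n x).2, (bsdE n y).2⟫ := by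
  rw [PiLp.inner_apply, PiLp.inner_apply, Fin.sum_univ_succ, mul_comm]
  rfl

theorem bsdE_norm (p : ℝ × E n) : ‖p‖ ≤ 1 * ‖(bsdE n).symm p‖ := by
  have h := bsdE_inner ((bsdE n).symm p) ((bsdE n).symm p)
  rw [MeasurableEquiv.apply_symm_apply, real_inner_self_eq_norm_sq, real_inner_self_eq_norm_sq] at h
  rw [one_mul]
  refine norm_prod_le_iff.2 ⟨?_, ?_⟩
  · refine abs_le_of_sq_le_sq' ?_ (norm_nonneg _) |>.2
    rw [Real.norm_eq_abs, sq_abs]
    nlinarith [sq_nonneg ‖p.2‖]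
  · refine abs_le_of_sq_le_sq' ?_ (norm_nonneg _) |>.2
    nlinarith [mul_self_nonneg p.1]

theorem bs {f g : E n → ℝ} (hf : Nice f) (hg : Nice g) (H : ∀ x y, f x * g y ≤ exp (-⟪x, y⟫)) :
    ∃ b : E n, (∫ x, f x * exp ⟪x, b⟫) * (∫ y, g y) ≤ (2 * π) ^ n := by
  induction n with
  | zero =>
    refine ⟨0, ?_⟩
    have h := H 0 0
    rw [volume_euclideanSpace_eq_dirac, integral_dirac, integral_dirac]
    simpa using h
  | succ n ih =>
    have hz : BZ n := bz_of fun f g hf hg H => ih hf hg H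
    obtain ⟨b, hb⟩ := bs_step hz (bsd_comp hf (bsdE n).symm.measurable le_rfl bsdE_norm)
      (bsd_comp hg (bsdE n).symm.measurable le_rfl bsdE_norm) fun x y => by
        have h := H ((bsdE n).symm x) ((bsdE n).symm y)
        rwa [bsdE_inner, MeasurableEquiv.apply_symm_apply, MeasurableEquiv.apply_symm_apply] at h
    refine ⟨(bsdE n).symm b, le_of_eq_of_le ?_ hb⟩
    rw [← (bsdE_mp.symm _).integral_comp' g,
      ← (bsdE_mp.symm _).integral_comp' fun x => f x * exp ⟪x, (bsdE n).symm b⟫]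
    simp only [bsdE_inner, MeasurableEquiv.apply_symm_apply]

end Vale.Agent.P245
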