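import Vale.Agent.P245.Sm

/-! Concentration for `μ * γ` gives concentration for `μ`.

Plan.  `q = sm ρ`, `qS x = ∫ u in S, gau (x - u) ∂mea ρ ≤ q x`.
* `piece_le`: `pl_half` for `1_S ρ gau (x - ·)`, `1_T ρ gau (y - ·)` and
  `ρ gau (mid x y - ·) * exp (-D/16 + ‖x-y‖²/8)`, using
  `‖x-u‖² + ‖y-u'‖² = 2 ‖mid x y - mid u u'‖² + ‖(x-y) - (u-u')‖²/2` and
  `‖(x-y) - (u-u')‖² ≥ ‖u-u'‖²/2 - ‖x-y‖²`; then `Good.sm_sc`.
* `exists_core`: `S' = {x | s/2 * q x ≤ qS x}` is measurable and
  `s = ∫ qS ≤ ∫_{S'} q + s/2` (`Good.sm_piece`, `Good.sm_int`); intersect with a large ball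
  (`tendsto_setIntegral_of_monotone` or dominated convergence), `mea_real`.
* `Good.back`: if `s t > 0`, for `x ∈ S'`, `y ∈ T'`: `s t / 4 ≤ exp (‖x-y‖²/2 - D/8)`, so
  `D' = D/4 + 2 log (s t / 4) ≤ ‖x-y‖²` and `s t / 16 ≤ exp ((B - D') / A)`; take logarithms
  (`log 4 ≤ 3/2`). -/

open MeasureTheory Real Set
open scoped RealInnerProductSpace

namespace Vale.Agent.P245

variable {n : ℕ} {ρ : E n → ℝ} {R : ℝ}

theorem back_int (h : Good ρ R) {φ : E n → ℝ} (mφ : Measurable φ) {C : ℝ}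
    (h0 : ∀ x, 0 ≤ φ x) (h1 : ∀ x, φ x ≤ C) : Integrable fun u => ρ u * φ u :=
  h.nice.integrable.mul_bdd (c := C) mφ.aestronglyMeasurable
    (ae_of_all _ fun x => by rw [Real.norm_of_nonneg (h0 x)]; exact h1 x)

theorem back_gau (x y u u' : E n) {D : ℝ} (hD : D ≤ ‖u - u'‖ ^ 2) :
    gau (x - u) * gau (y - u') ≤
      (gau (mid x y - mid u u') * exp (‖x - y‖ ^ 2 / 8 - D / 16)) ^ 2 := by
  have e1 : mid x y - mid u u' = (1 / 2 : ℝ) • ((x - u) + (y - u')) := by
    unfold mid
    module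
  have e2 := parallelogram_law_with_norm ℝ (x - u) (y - u')
  have e3 : ‖u - u'‖ ≤ ‖x - y‖ + ‖(x - u) - (y - u')‖ := by
    have : u - u' = (x - y) - ((x - u) - (y - u')) := by abel
    rw [this]
    exact norm_sub_le _ _
  have e4 : ‖u - u'‖ ^ 2 ≤ 2 * ‖x - y‖ ^ 2 + 2 * ‖(x - u) - (y - u')‖ ^ 2 := by
    have := pow_le_pow_left₀ (norm_nonneg _) e3 2
    nlinarith [sq_nonneg (‖x - y‖ - ‖(x - u) - (y - u')‖)]
  have hc := cn_pos n
  rw [e1]
  unfold gau
  rw [div_mul_div_comm, ← exp_add, div_mul_eq_mul_div, ← exp_add, div_pow, ← exp_nat_mul, sq (cn n)]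
  refine div_le_div_of_nonneg_right (exp_le_exp.2 ?_) (by positivity)
  rw [norm_smul, Real.norm_of_nonneg (by norm_num : (0 : ℝ) ≤ 1 / 2)]
  push_cast
  nlinarith

theorem piece_le (h : Good ρ R) {S T : Set (E n)} (mS : MeasurableSet S) (mT : MeasurableSet T)
    {D : ℝ} (hD : ∀ u ∈ S, ∀ u' ∈ T, D ≤ ‖u - u'‖ ^ 2) (x y : E n) :
    (∫ u in S, gau (x - u) ∂mea ρ) * (∫ u in T, gau (y - u) ∂mea ρ) ≤
      sm ρ x * sm ρ y * exp (‖x - y‖ ^ 2 / 2 - D / 8) := by
  have mg : ∀ z : E n, Measurable fun u => gau (z - u) := fun z => by fun_prop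
  have e : ∀ (U : Set (E n)) (z : E n), MeasurableSet U → ∫ u in U, gau (z - u) ∂mea ρ =
      ∫ u, ρ u * U.indicator (fun u => gau (z - u)) u := fun U z mU => by
    rw [← integral_indicator mU, integral_mea h.nice.1 h.nonneg]
  have i0 : ∀ (U : Set (E n)) (z u : E n), 0 ≤ U.indicator (fun u => gau (z - u)) u :=
    fun U z u => indicator_nonneg (fun _ _ => (gau_pos _).le) u
  have i1 : ∀ (U : Set (E n)) (z : E n), MeasurableSet U →
      Integrable fun u => ρ u * U.indicator (fun u => gau (z - u)) u := fun U z mU =>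
    back_int h ((mg z).indicator mU) (i0 U z) fun u =>
      (indicator_le_self' (fun _ _ => (gau_pos _).le) u).trans (gau_le _)
  have key := pl_half (f := fun u => ρ u * S.indicator (fun u => gau (x - u)) u)
    (g := fun u => ρ u * T.indicator (fun u => gau (y - u)) u)
    (h := fun u => ρ u * gau (mid x y - u) * exp (‖x - y‖ ^ 2 / 8 - D / 16))
    (h.nice.1.mul ((mg x).indicator mS)) (h.nice.1.mul ((mg y).indicator mT))
    ((h.nice.1.mul (mg _)).mul_const _) (fun u => mul_nonneg (h.nonneg u) (i0 _ _ _))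
    (fun u => mul_nonneg (h.nonneg u) (i0 _ _ _))
    (fun u => mul_nonneg (mul_nonneg (h.nonneg u) (gau_pos _).le) (exp_pos _).le)
    (i1 S x mS) (i1 T y mT)
    ((back_int h (mg _) (fun _ => (gau_pos _).le) fun _ => gau_le _).mul_const _) fun u u' => by
      by_cases hu : u ∈ S
      swap
      · simp only [indicator_of_notMem hu, mul_zero, zero_mul]
        exact sq_nonneg _
      by_cases hu' : u' ∈ T
      swap
      · simp only [indicator_of_notMem hu', mul_zero]
        exact sq_nonneg _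
      simp only [indicator_of_mem hu, indicator_of_mem hu']
      rw [mul_mul_mul_comm, mul_assoc (ρ (mid u u')), mul_pow]
      exact mul_le_mul (h.mid_lc u u') (back_gau x y u u' (hD u hu u' hu'))
        (mul_pos (gau_pos _) (gau_pos _)).le (sq_nonneg _)
  rw [e S x mS, e T y mT]
  refine key.trans ?_
  rw [integral_mul_const, ← integral_mea h.nice.1 h.nonneg, mul_pow]
  refine (mul_le_mul_of_nonneg_right (h.sm_sc x y) (sq_nonneg _)).trans (le_of_eq ?_)
  rw [mul_assoc, ← exp_nat_mul, ← exp_add]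
  congr 2
  push_cast
  ring

theorem exists_core (h : Good ρ R) {S : Set (E n)} (hs : 0 < (mea ρ).real S) :
    ∃ (S' : Set (E n)) (r : ℝ), MeasurableSet S' ∧ (∀ x ∈ S', ‖x‖ ≤ r) ∧
      (mea ρ).real S / 4 ≤ (mea (sm ρ)).real S' ∧
      ∀ x ∈ S', (mea ρ).real S / 2 * sm ρ x ≤ ∫ u in S, gau (x - u) ∂mea ρ := by
  have := h.prob
  set s := (mea ρ).real S with hs'
  let q : E n → ℝ := fun x => ∫ u in S, gau (x - u) ∂mea ρ
  have mq : Measurable q := by
    have h1 : StronglyMeasurable fun p : E n × E n => gau (p.1 - p.2) :=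
      (by fun_prop : Continuous _).stronglyMeasurable
    exact (h1.integral_prod_right' (ν := (mea ρ).restrict S)).measurable
  have q1 : ∀ x, q x ≤ sm ρ x := fun x =>
    setIntegral_le_integral (h.integrable (by fun_prop)) (ae_of_all _ fun u => (gau_pos _).le)
  obtain ⟨iq, hq⟩ := h.sm_piece S
  have ms := h.sm_cont.measurable
  let U : Set (E n) := {x | s / 2 * sm ρ x ≤ q x}
  have mU : MeasurableSet U := measurableSet_le (ms.const_mul _) mq
  have b1 : ∫ x in U, q x ≤ ∫ x in U, sm ρ x :=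
    setIntegral_mono iq.integrableOn h.sm_integrable.integrableOn q1
  have b2 : ∫ x in Uᶜ, q x ≤ ∫ x in Uᶜ, s / 2 * sm ρ x :=
    setIntegral_mono_on iq.integrableOn (h.sm_integrable.const_mul _).integrableOn mU.compl
      fun x hx => (not_le.1 (show ¬ s / 2 * sm ρ x ≤ q x from hx)).le
  have b3 : ∫ x in Uᶜ, s / 2 * sm ρ x ≤ ∫ x, s / 2 * sm ρ x :=
    setIntegral_le_integral (h.sm_integrable.const_mul _)
      (ae_of_all _ fun x => mul_nonneg (by linarith) (h.sm_pos x).le)
  rw [integral_const_mul (s / 2) (μ := volume), h.sm_int] at b3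
  have b4 : (∫ x in U, q x) + ∫ x in Uᶜ, q x = s := (integral_add_compl mU iq).trans hq
  have b5 : s / 4 < ∫ x in U, sm ρ x := by linarith
  have mB : ∀ k : ℕ, MeasurableSet (U ∩ Metric.closedBall 0 (k : ℝ)) := fun k =>
    mU.inter measurableSet_closedBall
  have hU : ⋃ k : ℕ, U ∩ Metric.closedBall 0 (k : ℝ) = U := by
    rw [← inter_iUnion, Metric.iUnion_closedBall_nat, inter_univ]
  have lim := tendsto_setIntegral_of_monotone (μ := volume) (f := sm ρ) mB
    (fun a b hab => inter_subset_inter_right _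
      (Metric.closedBall_subset_closedBall (Nat.cast_le.2 hab))) h.sm_integrable.integrableOn
  rw [hU] at lim
  obtain ⟨k, hk⟩ := (lim.eventually (lt_mem_nhds b5)).exists
  refine ⟨_, k, mB k, fun x hx => by simpa using hx.2, ?_, fun x hx => hx.1⟩
  rw [mea_real ms (fun x => (h.sm_pos x).le) (mB k)]
  exact hk.le

theorem Good.back (h : Good ρ R) {A B : ℝ} (hA : 0 < A) (hc : CIb (mea (sm ρ)) A B) :
    CI (mea ρ) (4 * A + 8) (4 * B + 12 * A + 12) := by
  intro S T mS mT D hD
  rcases (measureReal_nonneg (μ := mea ρ) (s := S)).eq_or_lt with hs | hs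
  · rw [← hs, zero_mul]
    exact (exp_pos _).le
  rcases (measureReal_nonneg (μ := mea ρ) (s := T)).eq_or_lt with ht | ht
  · rw [← ht, mul_zero]
    exact (exp_pos _).le
  obtain ⟨S', r, mS', bS, aS, cS⟩ := exists_core h hs
  obtain ⟨T', r', mT', bT, aT, cT⟩ := exists_core h ht
  set s := (mea ρ).real S
  set t := (mea ρ).real T
  have hst := mul_pos hs ht
  have l4 : log 4 ≤ 3 / 2 := by
    rw [show (4 : ℝ) = 2 ^ 2 by norm_num, log_pow]
    have := log_two_lt_d9
    push_cast
    linarith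
  have key := hc S' T' mS' mT' (max r r') (fun x hx => (bS x hx).trans (le_max_left _ _))
    (fun x hx => (bT x hx).trans (le_max_right _ _)) (D / 4 + 2 * (log (s * t) - log 4))
    fun x hx y hy => by
      have px := h.sm_pos x
      have py := h.sm_pos y
      have a1 := (mul_le_mul (cS x hx) (cT y hy) (by positivity)
        (le_trans (by positivity) (cS x hx))).trans (piece_le h mS mT hD x y)
      have a2 : s * t / 4 ≤ exp (‖x - y‖ ^ 2 / 2 - D / 8) :=
        le_of_mul_le_mul_left (le_of_eq_of_le (by ring) a1) (mul_pos px py)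
      have a3 := (log_le_iff_le_exp (by positivity)).2 a2
      rw [log_div hst.ne' (by norm_num)] at a3
      linarith
  have a1 : s * t / 4 ^ 2 ≤ exp ((B - (D / 4 + 2 * (log (s * t) - log 4))) / A) :=
    le_of_eq_of_le (by ring)
      ((mul_le_mul aS aT (by positivity) measureReal_nonneg).trans key)
  have a2 := (log_le_iff_le_exp (by positivity)).2 a1
  rw [log_div hst.ne' (by norm_num), log_pow, le_div_iff₀ hA] at a2
  rw [← log_le_iff_le_exp hst, le_div_iff₀ (by linarith)]
  push_cast at a2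
  nlinarith

end Vale.Agent.P245
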