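import Vale.Agent.P245.Gauss

/-! The starting point: concentration with a defect of order `n`.

Plan.  `exp (‖x‖²/8) = ∫ gau g * exp ⟪x/2, g⟫ dg` (`integral_gau_exp` with `u = 0`), Fubini
(`x` lives in the ball of radius `R`, so `exp ⟪x/2, g⟫ ≤ exp (R ‖g‖ / 2)`; or use `lintegral`),
`Good.mgf` with `ξ = g/2` and `integral_gau_sq` give `∫ exp (‖x‖²/8) dμ ≤ 4 exp n`.
For `x ∈ S`, `y ∈ T`: `D ≤ 2‖x‖² + 2‖y‖²`, so `1 ≤ exp (-D/16) exp (‖x‖²/8) exp (‖y‖²/8)`;
integrate over `S` in `x`, then over `T` in `y`; `16 ≤ exp 3`.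
`CI.mono`: if `D ≤ B'` the right side is `≥ 1`; otherwise compare the exponents. -/

open MeasureTheory Real Set
open scoped RealInnerProductSpace

namespace Vale.Agent.P245

variable {n : ℕ} {ρ : E n → ℝ} {R : ℝ}

private theorem exp_sq_eq (x : E n) :
    ∫ g, gau g * exp ⟪(1 / 2 : ℝ) • x, g⟫ = exp (‖x‖ ^ 2 / 8) := by
  have h := integral_gau_exp (0 : E n) ((1 / 2 : ℝ) • x)
  simp only [sub_zero, inner_zero_right, exp_zero, mul_one] at h
  rw [h, norm_smul, Real.norm_of_nonneg (by norm_num)]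
  congr 1
  ring

theorem Good.exp_sq (h : Good ρ R) : ∫ x, exp (‖x‖ ^ 2 / 8) ∂mea ρ ≤ 4 * exp n := by
  have := h.prob
  have i1 : Integrable (fun x : E n => exp (‖x‖ ^ 2 / 8)) (mea ρ) := h.integrable (by fun_prop)
  have e1 : ∀ x : E n, ENNReal.ofReal (exp (‖x‖ ^ 2 / 8)) =
      ∫⁻ g, ENNReal.ofReal (gau g * exp ⟪(1 / 2 : ℝ) • x, g⟫) := fun x => by
    rw [← exp_sq_eq x]
    refine ofReal_integral_eq_lintegral_ofReal (Integrable.of_integral_ne_zero ?_)
      (ae_of_all _ fun g => mul_nonneg (gau_pos g).le (exp_pos _).le)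
    rw [exp_sq_eq x]
    exact (exp_pos _).ne'
  have e2 : ∀ g : E n, ∫⁻ x, ENNReal.ofReal (gau g * exp ⟪(1 / 2 : ℝ) • x, g⟫) ∂mea ρ ≤
      ENNReal.ofReal (4 * (gau g * exp (‖g‖ ^ 2 / 16))) := fun g => by
    rw [← ofReal_integral_eq_lintegral_ofReal (h.integrable (by fun_prop))
      (ae_of_all _ fun x => mul_nonneg (gau_pos g).le (exp_pos _).le), integral_const_mul]
    refine ENNReal.ofReal_le_ofReal ?_
    have h1 := h.mgf ((1 / 2 : ℝ) • g)
    have h2 : ‖(1 / 2 : ℝ) • g‖ ^ 2 / 4 = ‖g‖ ^ 2 / 16 := by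
      rw [norm_smul, Real.norm_of_nonneg (by norm_num)]
      ring
    have h3 : ∀ x : E n, ⟪(1 / 2 : ℝ) • x, g⟫ = ⟪(1 / 2 : ℝ) • g, x⟫ := fun x => by
      rw [real_inner_smul_left, real_inner_smul_left, real_inner_comm]
    rw [h2] at h1
    simp only [h3]
    nlinarith [mul_le_mul_of_nonneg_left h1 (gau_pos g).le]
  have hm : Measurable (Function.uncurry fun (x g : E n) =>
      ENNReal.ofReal (gau g * exp ⟪(1 / 2 : ℝ) • x, g⟫)) := by
    refine Measurable.ennreal_ofReal (Continuous.measurable ?_)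
    fun_prop
  rw [← ENNReal.ofReal_le_ofReal_iff (by positivity),
    ofReal_integral_eq_lintegral_ofReal i1 (ae_of_all _ fun x => (exp_pos _).le)]
  simp only [e1]
  rw [lintegral_lintegral_swap hm.aemeasurable]
  refine (lintegral_mono e2).trans ?_
  rw [← ofReal_integral_eq_lintegral_ofReal (integrable_gau_sq.const_mul 4)
    (ae_of_all _ fun g => mul_nonneg (by norm_num) (mul_nonneg (gau_pos g).le (exp_pos _).le)),
    integral_const_mul]
  exact ENNReal.ofReal_le_ofReal (by linarith [integral_gau_sq (n := n)])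

private theorem markov {μ : Measure (E n)} [IsFiniteMeasure μ] {S : Set (E n)}
    (mS : MeasurableSet S) {f : E n → ℝ} (hf : Integrable f μ) (h0 : ∀ x, 0 ≤ f x) {c : ℝ}
    (hc : ∀ x ∈ S, c ≤ f x) : μ.real S * c ≤ ∫ x, f x ∂μ := by
  rw [← smul_eq_mul, ← integral_indicator_const c mS]
  refine integral_mono ((integrable_const c).indicator mS) hf fun x => ?_
  by_cases hx : x ∈ S
  · rw [indicator_of_mem hx]
    exact hc x hx
  · rw [indicator_of_notMem hx]
    exact h0 x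

theorem Good.base (h : Good ρ R) : CI (mea ρ) 16 (16 * (2 * n + 3)) := by
  have := h.prob
  intro S T mS mT D hD
  have i1 : Integrable (fun x : E n => exp (‖x‖ ^ 2 / 8)) (mea ρ) := h.integrable (by fun_prop)
  have hI := h.exp_sq
  set I := ∫ x, exp (‖x‖ ^ 2 / 8) ∂mea ρ with hIdef
  have hI0 : 0 ≤ I := integral_nonneg fun x => (exp_pos _).le
  have h1 : ∀ y ∈ T, (mea ρ).real S * exp (D / 16) ≤ I * exp (‖y‖ ^ 2 / 8) := fun y hy => by
    rw [hIdef, ← integral_mul_const]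
    refine markov mS (i1.mul_const _) (fun x => by positivity) fun x hx => ?_
    rw [← exp_add, exp_le_exp]
    have h2 := hD x hx y hy
    have h3 : ‖x - y‖ ^ 2 ≤ (‖x‖ + ‖y‖) ^ 2 :=
      pow_le_pow_left₀ (norm_nonneg _) (norm_sub_le x y) 2
    nlinarith [sq_nonneg (‖x‖ - ‖y‖)]
  have h2 : (mea ρ).real T * ((mea ρ).real S * exp (D / 16)) ≤ I * I := by
    have := markov mT (i1.const_mul I) (fun y => by positivity) h1
    rwa [integral_const_mul] at this
  have h3 : (16 : ℝ) ≤ exp 3 := by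
    have h4 : exp (3 : ℝ) = exp 1 ^ 3 := by rw [← exp_nat_mul]; norm_num
    have h5 : (2.7 : ℝ) ≤ exp 1 := by linarith [exp_one_gt_d9]
    rw [h4]
    exact le_trans (by norm_num) (pow_le_pow_left₀ (by norm_num) h5 3)
  have h4 : I * I ≤ exp ((16 * (2 * n + 3) - D) / 16) * exp (D / 16) := by
    have h5 : exp ((16 * (2 * n + 3) - D) / 16) * exp (D / 16) = exp 3 * (exp n * exp n) := by
      rw [← exp_add, ← exp_add, ← exp_add]
      congr 1
      ring
    rw [h5]
    have h6 : I * I ≤ 4 * exp n * (4 * exp n) := mul_le_mul hI hI hI0 (by positivity)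
    nlinarith [mul_pos (exp_pos (n : ℝ)) (exp_pos (n : ℝ))]
  refine le_of_mul_le_mul_right ?_ (exp_pos (D / 16))
  linarith

theorem CI.mono {μ : Measure (E n)} [IsProbabilityMeasure μ] {A B A' B' : ℝ} (h : CI μ A B)
    (hA : 0 < A) (hA' : A ≤ A') (hB : B ≤ B') : CI μ A' B' := by
  intro S T mS mT D hD
  have hA0 : 0 < A' := hA.trans_le hA'
  by_cases hc : D ≤ B'
  · refine le_trans ?_ (one_le_exp (div_nonneg (sub_nonneg.2 hc) hA0.le))
    exact mul_le_one₀ measureReal_le_one measureReal_nonneg measureReal_le_one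
  · refine (h S T mS mT D hD).trans (exp_le_exp.2 ?_)
    rw [div_le_div_iff₀ hA hA0]
    have h1 : B' - D ≤ 0 := by linarith [not_le.1 hc]
    nlinarith [mul_le_mul_of_nonneg_left hA' (neg_nonneg.2 h1),
      mul_le_mul_of_nonneg_right hB hA0.le]

end Vale.Agent.P245
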