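import Vale.Agent.P245.Defs

/-! Working definitions for the bound `K_n ≤ exp (C √(log n))`.

Outline.  `CI μ A B` is Gaussian concentration with a defect `B`.  One round
`CI (A, B) → LS → CIb for μ * γ → CI (c A, c B / A + c A)` divides the defect by `A` and costs a
constant factor; the start is `CI (16, O(n))`, so `√(log n)` rounds remove the defect. -/

open MeasureTheory Real Set
open scoped RealInnerProductSpace

namespace Vale.Agent.P245

abbrev E (n : ℕ) := EuclideanSpace ℝ (Fin n)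

variable {n : ℕ} {α : Type} [MeasurableSpace α]

/-- bounded measurable -/
def BM (f : α → ℝ) : Prop := Measurable f ∧ ∃ C, ∀ x, |f x| ≤ C

/-- measurable, between two positive constants -/
def PB (f : α → ℝ) : Prop := Measurable f ∧ ∃ c C, 0 < c ∧ ∀ x, c ≤ f x ∧ f x ≤ C

/-- nonnegative, bounded, measurable, bounded support -/
def Nice {V : Type} [Norm V] [MeasurableSpace V] (f : V → ℝ) : Prop :=
  Measurable f ∧ ∃ C, ∀ x, 0 ≤ f x ∧ f x ≤ C ∧ (C < ‖x‖ → f x = 0)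

noncomputable def mea (ρ : E n → ℝ) : Measure (E n) :=
  volume.withDensity fun x => ENNReal.ofReal (ρ x)

/-- bounded log-concave probability density supported in the ball of radius `R`, subgaussian -/
structure Good (ρ : E n → ℝ) (R : ℝ) : Prop where
  nice : Nice ρ
  pos : 0 < R
  supp : ∀ x, R < ‖x‖ → ρ x = 0
  int : ∫ x, ρ x = 1
  lc : ∀ (x y : E n) (t : ℝ), 0 < t → t < 1 → ρ x ^ (1 - t) * ρ y ^ t ≤ ρ ((1 - t) • x + t • y)
  mgf : ∀ ξ : E n, ∫ x, exp ⟪ξ, x⟫ ∂mea ρ ≤ 4 * exp (‖ξ‖ ^ 2 / 4)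

noncomputable def cn (n : ℕ) : ℝ := √(2 * π) ^ n

noncomputable def gau (x : E n) : ℝ := exp (-‖x‖ ^ 2 / 2) / cn n

/-- density of `mea ρ * γ` -/
noncomputable def sm (ρ : E n → ℝ) (x : E n) : ℝ := ∫ u, gau (x - u) ∂mea ρ

noncomputable def mid (x y : E n) : E n := (1 / 2 : ℝ) • (x + y)

/-- concentration with defect -/
def CI (μ : Measure (E n)) (A B : ℝ) : Prop :=
  ∀ S T : Set (E n), MeasurableSet S → MeasurableSet T → ∀ D : ℝ,
    (∀ x ∈ S, ∀ y ∈ T, D ≤ ‖x - y‖ ^ 2) → μ.real S * μ.real T ≤ exp ((B - D) / A)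

/-- concentration with defect, bounded sets only -/
def CIb (μ : Measure (E n)) (A B : ℝ) : Prop :=
  ∀ S T : Set (E n), MeasurableSet S → MeasurableSet T → ∀ r : ℝ, (∀ x ∈ S, ‖x‖ ≤ r) →
    (∀ y ∈ T, ‖y‖ ≤ r) → ∀ D : ℝ,
    (∀ x ∈ S, ∀ y ∈ T, D ≤ ‖x - y‖ ^ 2) → μ.real S * μ.real T ≤ exp ((B - D) / A)

/-- defective log-Sobolev inequality for densities with semiconvex logarithm; `v` plays the role
of the gradient of `log g` -/
def LS (μ : Measure (E n)) (R A B : ℝ) : Prop :=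
  ∀ (g : E n → ℝ) (v : E n → E n) (Λ : ℝ), Continuous g → (∀ x, 0 < g x) → Measurable v →
    (∃ C, ∀ x, ‖x‖ ≤ R → ‖v x‖ ≤ C) →
    (∀ x y, ‖x‖ ≤ R → ‖y‖ ≤ R → log (g x) + ⟪v x, y - x⟫ - Λ * ‖y - x‖ ^ 2 ≤ log (g y)) →
    ent μ g ≤ A * ∫ x, ‖v x‖ ^ 2 * g x ∂μ + B * ∫ x, g x ∂μ

/-- optimal coupling of the normalised restrictions of `q dx` to `S` and `T`, with potentials -/
structure Cpl (q : E n → ℝ) where
  P : Measure (E n)
  X : E n → E n
  Y : E n → E n
  Φ : E n → ℝ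
  Ψ : E n → ℝ
  S : Set (E n)
  T : Set (E n)
  a : ℝ
  b : ℝ
  r : ℝ
  prob : IsProbabilityMeasure P
  mX : Measurable X
  mY : Measurable Y
  mS : MeasurableSet S
  mT : MeasurableSet T
  memX : ∀ w, X w ∈ S
  memY : ∀ w, Y w ∈ T
  bS : ∀ x ∈ S, ‖x‖ ≤ r
  bT : ∀ y ∈ T, ‖y‖ ≤ r
  ha : 0 < a
  hb : 0 < b
  lawX : ∀ h : E n → ℝ, Measurable h → ∫ w, h (X w) ∂P = a * ∫ x in S, h x * q x
  lawY : ∀ h : E n → ℝ, Measurable h → ∫ w, h (Y w) ∂P = b * ∫ y in T, h y * q y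
  cΦ : Continuous Φ
  cΨ : Continuous Ψ
  dual : ∀ x ∈ S, ∀ y ∈ T, ⟪x, y⟫ ≤ Φ x + Ψ y
  sat : ∀ᵐ w ∂P, Φ (X w) + Ψ (Y w) = ⟪X w, Y w⟫

/-- the kernel: density with respect to `mea ρ` of the posterior given the midpoint -/
noncomputable def Cpl.k {ρ : E n → ℝ} (c : Cpl (sm ρ)) (w y : E n) : ℝ :=
  gau (mid (c.X w) (c.Y w) - y) / sm ρ (mid (c.X w) (c.Y w))

/-- coordinates of a quarter of the displacement -/
noncomputable def Cpl.u {q : E n → ℝ} (c : Cpl q) (i : Fin n) (w : E n) : ℝ :=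
  (c.Y w i - c.X w i) / 4

noncomputable def Cpl.L {q : E n → ℝ} (c : Cpl q) : ℝ := log c.a + log c.b

noncomputable def el (μ : Measure α) (g : α → ℝ) : ℝ := ∫ x, g x * log (g x) ∂μ

/-- a test function `f` with gradient `G` and a uniform second order Taylor bound -/
def SD (f : E n → ℝ) (G : E n → E n) : Prop :=
  Continuous f ∧ Measurable G ∧ ∃ K, ∀ x, |f x| ≤ K ∧ ‖G x‖ ≤ K ∧
    ∀ y, |f y - f x - ⟪G x, y - x⟫| ≤ K * ‖y - x‖ ^ 2

/-- defective log-Sobolev inequality for convex functions of `f`; `w` is the squared gradient -/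
def LSc (μ : Measure α) (f w : α → ℝ) (A B : ℝ) : Prop :=
  ∀ χ χ' ω : ℝ → ℝ, Continuous χ → Measurable χ' → Measurable ω → (∀ a, 0 ≤ χ a) →
    (∀ a b, χ a + χ' a * (b - a) ≤ χ b) → (∀ a, χ' a ^ 2 ≤ 4 * χ a * ω a) →
    (∀ a, 0 ≤ ω a ∧ ω a ≤ 1) →
    ent μ (fun x => χ (f x)) ≤ 4 * A * ∫ x, ω (f x) * w x ∂μ + B * ∫ x, χ (f x) ∂μ

/-- a finite substitute for the Gaussian channel `p ↦ N(p, I)`: `f z p` is the density of the
output with respect to the weights `γ`, and `ζ z` the observed vector -/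
structure Chan {Z ι : Type} [Fintype Z] [Fintype ι] (r : ℝ) (γ : Z → ℝ) (f : Z → (ι → ℝ) → ℝ)
    (ζ : Z → ι → ℝ) : Prop where
  nonneg : ∀ z, 0 ≤ γ z
  one : ∑ z, γ z = 1
  cont : ∀ z, Continuous (f z)
  pos : ∀ z p, (∀ i, |p i| ≤ r) → 0 < f z p
  mass : ∀ p, ∑ z, γ z * f z p = 1
  two : ∀ p p', (∀ i, |p i| ≤ r) → (∀ i, |p' i| ≤ r) →
    ∑ z, γ z * (f z p * f z p') ≤ exp (∑ i, p i * p' i)
  mean : ∀ p i, ∑ z, γ z * ζ z i * f z p = p i
  mgf : ∀ ξ : ι → ℝ, ∑ z, γ z * exp (∑ i, ξ i * ζ z i) ≤ exp ((∑ i, ξ i ^ 2) / 2)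

section chain

variable {Ω U : Type} [MeasurableSpace Ω] [MeasurableSpace U]

structure Ker (μ : Measure U) (k : Ω → U → ℝ) : Prop where
  meas : Measurable (Function.uncurry k)
  pos : ∀ w y, 0 < k w y
  bdd : ∃ C, ∀ w y, k w y ≤ C
  one : ∀ w, ∫ y, k w y ∂μ = 1

noncomputable def gg (P : Measure Ω) (k : Ω → U → ℝ) (F : Ω → ℝ) (y : U) : ℝ :=
  ∫ w, F w * k w y ∂P

/-- the reversible Markov operator of the two-block Gibbs sampler -/
noncomputable def Pk (P : Measure Ω) (μ : Measure U) (k : Ω → U → ℝ) (F : Ω → ℝ) (w : Ω) : ℝ :=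
  ∫ y, k w y * (gg P k F y / gg P k (fun _ => 1) y) ∂μ

end chain

theorem BM.integrable {μ : Measure α} [IsFiniteMeasure μ] {f : α → ℝ} (h : BM f) :
    Integrable f μ := by
  obtain ⟨hm, C, hC⟩ := h
  exact Integrable.of_bound hm.aestronglyMeasurable C (ae_of_all _ hC)

theorem PB.bm {f : α → ℝ} (h : PB f) : BM f := by
  obtain ⟨hm, c, C, hc, hC⟩ := h
  exact ⟨hm, C, fun x => by rw [abs_of_pos (hc.trans_le (hC x).1)]; exact (hC x).2⟩

theorem PB.pos {f : α → ℝ} (h : PB f) (x : α) : 0 < f x := by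
  obtain ⟨-, c, C, hc, hC⟩ := h
  exact hc.trans_le (hC x).1

theorem BM.const (c : ℝ) : BM fun _ : α => c := ⟨measurable_const, |c|, fun _ => le_rfl⟩

theorem BM.add {f g : α → ℝ} (hf : BM f) (hg : BM g) : BM fun x => f x + g x := by
  obtain ⟨hm, C, hC⟩ := hf
  obtain ⟨hm', C', hC'⟩ := hg
  exact ⟨hm.add hm', C + C', fun x => (abs_add_le _ _).trans (add_le_add (hC x) (hC' x))⟩

theorem BM.mul {f g : α → ℝ} (hf : BM f) (hg : BM g) : BM fun x => f x * g x := by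
  obtain ⟨hm, C, hC⟩ := hf
  obtain ⟨hm', C', hC'⟩ := hg
  exact ⟨hm.mul hm', C * C', fun x => by
    rw [abs_mul]
    exact mul_le_mul (hC x) (hC' x) (abs_nonneg _) ((abs_nonneg _).trans (hC x))⟩

theorem BM.sub {f g : α → ℝ} (hf : BM f) (hg : BM g) : BM fun x => f x - g x := by
  simpa [sub_eq_add_neg] using hf.add ((BM.const (-1)).mul hg)

theorem BM.exp {f : α → ℝ} (hf : BM f) : PB fun x => exp (f x) := by
  obtain ⟨hm, C, hC⟩ := hf
  exact ⟨hm.exp, Real.exp (-C), Real.exp C, exp_pos _, fun x =>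
    ⟨exp_le_exp.2 (abs_le.1 (hC x)).1, exp_le_exp.2 (abs_le.1 (hC x)).2⟩⟩

theorem PB.log {f : α → ℝ} (hf : PB f) : BM fun x => log (f x) := by
  obtain ⟨hm, c, C, hc, hC⟩ := hf
  refine ⟨hm.log, |Real.log c| + |Real.log C|, fun x => abs_le.2 ⟨?_, ?_⟩⟩
  · linarith [log_le_log hc (hC x).1, neg_abs_le (Real.log c), abs_nonneg (Real.log C)]
  · linarith [log_le_log (hc.trans_le (hC x).1) (hC x).2, le_abs_self (Real.log C),
      abs_nonneg (Real.log c)]

/-- Jensen for `exp` under the probability density `κ`. -/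
theorem jensen_exp {μ : Measure α} {κ a : α → ℝ} (h0 : ∀ᵐ x ∂μ, 0 ≤ κ x) (h1 : ∫ x, κ x ∂μ = 1)
    (i1 : Integrable (fun x => κ x * a x) μ) (i2 : Integrable (fun x => κ x * exp (a x)) μ) :
    exp (∫ x, κ x * a x ∂μ) ≤ ∫ x, κ x * exp (a x) ∂μ := by
  have i0 : Integrable κ μ := Integrable.of_integral_ne_zero (by rw [h1]; exact one_ne_zero)
  set c := ∫ x, κ x * a x ∂μ with hc
  have h2 : ∫ x, exp c * ((1 - c) * κ x + κ x * a x) ∂μ ≤ ∫ x, κ x * exp (a x) ∂μ := by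
    refine integral_mono_ae (((i0.const_mul _).add i1).const_mul _) i2 ?_
    filter_upwards [h0] with x hx
    have h3 : exp c * (a x - c + 1) ≤ exp (a x) := by
      rw [show exp (a x) = exp c * exp (a x - c) by rw [← exp_add]; ring_nf]
      exact mul_le_mul_of_nonneg_left (add_one_le_exp _) (exp_pos _).le
    nlinarith [mul_le_mul_of_nonneg_left h3 hx]
  rw [integral_const_mul, integral_add (i0.const_mul _) i1, integral_const_mul, h1] at h2
  rw [← hc] at h2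
  linarith

theorem integral_mea {ρ : E n → ℝ} (hm : Measurable ρ) (h0 : ∀ x, 0 ≤ ρ x) (h : E n → ℝ) :
    ∫ x, h x ∂mea ρ = ∫ x, ρ x * h x := by
  rw [mea, integral_withDensity_eq_integral_toReal_smul hm.ennreal_ofReal (by simp)]
  simp [h0]

theorem mea_real {ρ : E n → ℝ} (hm : Measurable ρ) (h0 : ∀ x, 0 ≤ ρ x) {S : Set (E n)}
    (mS : MeasurableSet S) : (mea ρ).real S = ∫ x in S, ρ x := by
  rw [← integral_indicator_one mS, integral_mea hm h0, ← integral_indicator mS]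
  congr 1
  ext x
  by_cases hx : x ∈ S <;> simp [hx]

theorem bm_comp {V : Type} [NormedAddCommGroup V] [ProperSpace V] [MeasurableSpace V] [BorelSpace V]
    {X : α → V} (mX : Measurable X) {r : ℝ} (hX : ∀ w, ‖X w‖ ≤ r) {φ : V → ℝ}
    (hφ : Continuous φ) : BM fun w => φ (X w) := by
  obtain ⟨C, hC⟩ := (isCompact_closedBall (0 : V) r).exists_bound_of_continuousOn hφ.continuousOn
  exact ⟨hφ.measurable.comp mX, C, fun w => hC _ (by simpa using hX w)⟩

theorem Cpl.bm {q : E n → ℝ} (c : Cpl q) {φ : E n × E n → ℝ} (hφ : Continuous φ) :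
    BM fun w => φ (c.X w, c.Y w) :=
  bm_comp (c.mX.prodMk c.mY) (r := c.r)
    (fun w => norm_prod_le_iff.2 ⟨c.bS _ (c.memX w), c.bT _ (c.memY w)⟩) hφ

theorem Nice.integrable {f : E n → ℝ} (h : Nice f) : Integrable f := by
  obtain ⟨hm, C, hC⟩ := h
  refine (integrableOn_iff_integrable_of_support_subset (s := Metric.closedBall 0 C) ?_).1
    (Measure.integrableOn_of_bounded (M := C) measure_closedBall_lt_top.ne
      hm.aestronglyMeasurable (ae_of_all _ fun x => ?_))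
  · intro x hx
    by_contra h
    exact hx ((hC x).2.2 (by simpa using h))
  · rw [Real.norm_of_nonneg (hC x).1]
    exact (hC x).2.1

theorem Good.nonneg {ρ : E n → ℝ} {R : ℝ} (h : Good ρ R) (x : E n) : 0 ≤ ρ x :=
  (h.nice.2.choose_spec x).1

theorem Good.prob {ρ : E n → ℝ} {R : ℝ} (h : Good ρ R) : IsProbabilityMeasure (mea ρ) :=
  ⟨by rw [mea, withDensity_apply _ MeasurableSet.univ, Measure.restrict_univ,
    ← ofReal_integral_eq_lintegral_ofReal h.nice.integrable (ae_of_all _ h.nonneg), h.int,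
    ENNReal.ofReal_one]⟩

theorem Good.ae {ρ : E n → ℝ} {R : ℝ} (h : Good ρ R) : ∀ᵐ x ∂mea ρ, ‖x‖ ≤ R := by
  rw [mea, ae_withDensity_iff h.nice.1.ennreal_ofReal]
  refine ae_of_all _ fun x hx => ?_
  by_contra h'
  exact hx (by simp [h.supp x (not_le.1 h')])

/-- continuous functions are integrable for the compactly supported measure `mea ρ` -/
theorem Good.integrable {ρ : E n → ℝ} {R : ℝ} (h : Good ρ R) {F : Type} [NormedAddCommGroup F]
    {g : E n → F} (hg : Continuous g) : Integrable g (mea ρ) := by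
  have := h.prob
  obtain ⟨C, hC⟩ := (isCompact_closedBall (0 : E n) R).exists_bound_of_continuousOn hg.continuousOn
  refine Integrable.of_bound hg.aestronglyMeasurable C ?_
  filter_upwards [h.ae] with x hx using hC x (by simpa using hx)

end Vale.Agent.P245
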