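import Vale.Agent.P245.Basic
import Vale.Agent.P074.Brenier

/-! Brenier maps, in the two forms used later.

Plan.  `P074.brenier` (two probability measures carried by compact sets, the first one `≪ volume`)
gives `ψ, T` with `P074.OptPair Y σ μ ψ T`; take `Φ = P074.cj Y ψ`, `Ψ = ψ` (`continuous_cj`,
`le_cj`).  `exists_br`: `σ = (mea ρ).withDensity (ofReal ∘ p)`, `Y = closedBall 0 R`;
`integral_map`, `integral_withDensity_eq_integral_toReal_smul`, `ae_withDensity_iff`.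
`exists_cpl`: `σ = mea (indicator S (a q))`, `μ = mea (indicator T (b q))`, both carried by
`closedBall 0 r`; `P = σ`, `X w = if w ∈ S then w else x₀`, `Y w = if T w ∈ T then T w else y₀`
(`x₀ ∈ S`, `y₀ ∈ T`; these agree with `w`, `T w` almost everywhere). -/

open MeasureTheory Real Set
open scoped RealInnerProductSpace

namespace Vale.Agent.P245

variable {n : ℕ} {ρ : E n → ℝ} {R : ℝ}

/-- transport data from `p μ` to `μ = mea ρ` -/
structure Br (ρ : E n → ℝ) (R : ℝ) (p : E n → ℝ) (T : E n → E n) (Φ Ψ : E n → ℝ) : Prop where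
  mT : Measurable T
  cΦ : Continuous Φ
  cΨ : Continuous Ψ
  law : ∀ f : E n → ℝ, Measurable f → ∫ x, f (T x) * p x ∂mea ρ = ∫ y, f y ∂mea ρ
  dual : ∀ x y, ‖x‖ ≤ R → ‖y‖ ≤ R → ⟪x, y⟫ ≤ Φ x + Ψ y
  sat : ∀ᵐ x ∂mea ρ, ‖T x‖ ≤ R ∧ Φ x + Ψ (T x) = ⟪x, T x⟫

theorem mea_prob {α : E n → ℝ} (h0 : ∀ x, 0 ≤ α x) (h1 : ∫ x, α x = 1) :
    IsProbabilityMeasure (mea α) :=
  ⟨by rw [mea, withDensity_apply _ MeasurableSet.univ, Measure.restrict_univ,
    ← ofReal_integral_eq_lintegral_ofReal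
      (Integrable.of_integral_ne_zero (by rw [h1]; exact one_ne_zero)) (ae_of_all _ h0), h1,
    ENNReal.ofReal_one]⟩

theorem ae_mea {α : E n → ℝ} (hm : Measurable α) {p : E n → Prop} :
    (∀ᵐ x ∂mea α, p x) ↔ ∀ᵐ x, 0 < α x → p x := by
  rw [mea, ae_withDensity_iff hm.ennreal_ofReal]
  simp

theorem exists_map {α β : E n → ℝ} {r : ℝ} (hr : 0 ≤ r) (mα : Measurable α) (mβ : Measurable β)
    (α0 : ∀ x, 0 ≤ α x) (β0 : ∀ x, 0 ≤ β x) (α1 : ∫ x, α x = 1) (β1 : ∫ x, β x = 1)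
    (sα : ∀ x, 0 < α x → ‖x‖ ≤ r) (sβ : ∀ x, 0 < β x → ‖x‖ ≤ r) :
    ∃ (T : E n → E n) (Φ Ψ : E n → ℝ), Measurable T ∧ Continuous Φ ∧ Continuous Ψ ∧
      (mea α).map T = mea β ∧ (∀ x y, ‖y‖ ≤ r → ⟪x, y⟫ ≤ Φ x + Ψ y) ∧
      ∀ᵐ x ∂mea α, ‖T x‖ ≤ r ∧ Φ x + Ψ (T x) = ⟪x, T x⟫ := by
  have := mea_prob α0 α1
  have := mea_prob β0 β1
  have hK := isCompact_closedBall (0 : E n) r
  have hne : (Metric.closedBall (0 : E n) r).Nonempty := Metric.nonempty_closedBall.2 hr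
  obtain ⟨ψ, T, -, h⟩ := P074.brenier hK hne hK hne (R := ⟨r, hr⟩) (fun x hx => mem_closedBall_zero_iff.1 hx)
    (σ := mea α) (μ := mea β) (withDensity_absolutelyContinuous _ _)
    ((ae_mea mα).2 (ae_of_all _ fun x hx => by simpa using sα x hx))
    ((ae_mea mβ).2 (ae_of_all _ fun x hx => by simpa using sβ x hx))
  refine ⟨T, _, ψ, h.meas, P074.continuous_cj hK hne h.cont, h.cont, h.map, fun x y hy => ?_, ?_⟩
  · linarith [P074.le_cj hK h.cont x (y := y) (by simpa using hy)]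
  · filter_upwards [h.sat] with x hx
    exact ⟨by simpa using hx.1, by linarith [hx.2]⟩

theorem exists_br (h : Good ρ R) {p : E n → ℝ} (cp : Continuous p) (p0 : ∀ x, 0 < p x)
    (p1 : ∫ x, p x ∂mea ρ = 1) : ∃ T Φ Ψ, Br ρ R p T Φ Ψ := by
  have hs : ∀ x, 0 < ρ x → ‖x‖ ≤ R := fun x hx => not_lt.1 fun h' => hx.ne' (h.supp x h')
  have mα : Measurable fun x => ρ x * p x := h.nice.1.mul cp.measurable
  have α0 : ∀ x, 0 ≤ ρ x * p x := fun x => mul_nonneg (h.nonneg x) (p0 x).le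
  obtain ⟨T, Φ, Ψ, h1, h2, h3, h4, h5, h6⟩ := exists_map h.pos.le mα h.nice.1 α0 h.nonneg
    (by rw [← integral_mea h.nice.1 h.nonneg, p1]) h.int
    (fun x hx => hs x ((mul_pos_iff_of_pos_right (p0 x)).1 hx)) hs
  refine ⟨T, Φ, Ψ, h1, h2, h3, fun f hf => ?_, fun x y _ hy => h5 x y hy, ?_⟩
  · conv_rhs => rw [← h4]
    rw [integral_map h1.aemeasurable hf.aestronglyMeasurable, integral_mea mα α0,
      integral_mea h.nice.1 h.nonneg]
    exact integral_congr_ae (ae_of_all _ fun x => by ring)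
  · rw [ae_mea h.nice.1]
    filter_upwards [(ae_mea mα).1 h6] with x hx hx' using hx (mul_pos hx' (p0 x))

theorem integral_mea_ind {q : E n → ℝ} (mq : Measurable q) (q0 : ∀ x, 0 < q x) {S : Set (E n)}
    (mS : MeasurableSet S) {a : ℝ} (ha : 0 < a) (h : E n → ℝ) :
    ∫ x, h x ∂mea (S.indicator fun x => a * q x) = a * ∫ x in S, h x * q x := by
  rw [integral_mea ((mq.const_mul a).indicator mS)
    (indicator_nonneg fun x _ => (mul_pos ha (q0 x)).le), ← integral_const_mul,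
    ← integral_indicator mS]
  refine integral_congr_ae (ae_of_all _ fun x => ?_)
  by_cases hx : x ∈ S
  · simp only [indicator_of_mem hx]
    ring
  · simp [hx]

open Classical in
theorem exists_cpl {q : E n → ℝ} (cq : Continuous q) (q0 : ∀ x, 0 < q x) {S T : Set (E n)}
    (mS : MeasurableSet S) (mT : MeasurableSet T) {r : ℝ} (bS : ∀ x ∈ S, ‖x‖ ≤ r)
    (bT : ∀ y ∈ T, ‖y‖ ≤ r) (hS : 0 < ∫ x in S, q x) (hT : 0 < ∫ x in T, q x) :
    ∃ c : Cpl q, c.S = S ∧ c.T = T ∧ c.a = (∫ x in S, q x)⁻¹ ∧ c.b = (∫ x in T, q x)⁻¹ := by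
  have ne : ∀ {S : Set (E n)}, 0 < ∫ x in S, q x → S.Nonempty := fun {S} hS => by
    rcases S.eq_empty_or_nonempty with rfl | h
    · simp at hS
    · exact h
  obtain ⟨x₀, hx₀⟩ := ne hS
  obtain ⟨y₀, hy₀⟩ := ne hT
  have ms : ∀ {S : Set (E n)}, MeasurableSet S →
      Measurable (S.indicator fun x => (∫ x in S, q x)⁻¹ * q x) := fun mS =>
    (cq.measurable.const_mul _).indicator mS
  have nn : ∀ {S : Set (E n)}, 0 < ∫ x in S, q x →
      ∀ x, 0 ≤ S.indicator (fun x => (∫ x in S, q x)⁻¹ * q x) x := fun hS =>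
    indicator_nonneg fun x _ => (mul_pos (inv_pos.2 hS) (q0 x)).le
  have one : ∀ {S : Set (E n)}, MeasurableSet S → 0 < ∫ x in S, q x →
      ∫ x, S.indicator (fun x => (∫ x in S, q x)⁻¹ * q x) x = 1 := fun mS hS => by
    rw [integral_indicator mS, integral_const_mul, inv_mul_cancel₀ hS.ne']
  have mem : ∀ {S : Set (E n)} x, 0 < S.indicator (fun x => (∫ x in S, q x)⁻¹ * q x) x → x ∈ S :=
    fun x hx => mem_of_indicator_ne_zero hx.ne'
  obtain ⟨τ, Φ, Ψ, h1, h2, h3, h4, h5, h6⟩ := exists_map ((norm_nonneg _).trans (bS _ hx₀))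
    (ms mS) (ms mT) (nn hS) (nn hT) (one mS hS) (one mT hT) (fun x hx => bS x (mem x hx))
    (fun x hx => bT x (mem x hx))
  set P := mea (S.indicator fun x => (∫ x in S, q x)⁻¹ * q x) with hP
  have aX : ∀ᵐ w ∂P, (if w ∈ S then w else x₀) = w := by
    filter_upwards [(ae_mea (ms mS)).2 (ae_of_all _ mem)] with w hw using if_pos hw
  have aY : ∀ᵐ w ∂P, (if τ w ∈ T then τ w else y₀) = τ w := by
    have h7 : ∀ᵐ y ∂P.map τ, y ∈ T := by
      rw [h4]
      exact (ae_mea (ms mT)).2 (ae_of_all _ mem)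
    filter_upwards [ae_of_ae_map h1.aemeasurable h7] with w hw using if_pos hw
  refine ⟨⟨P, fun w => if w ∈ S then w else x₀, fun w => if τ w ∈ T then τ w else y₀, Φ, Ψ, S, T,
    _, _, r, mea_prob (nn hS) (one mS hS), Measurable.ite mS measurable_id measurable_const,
    Measurable.ite (h1 mT) h1 measurable_const, mS, mT, fun w => ?_, fun w => ?_, bS, bT,
    inv_pos.2 hS, inv_pos.2 hT, fun h mh => ?_, fun h mh => ?_, h2, h3,
    fun x _ y hy => h5 x y (bT y hy), ?_⟩, rfl, rfl, rfl, rfl⟩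
  · split_ifs with hw
    exacts [hw, hx₀]
  · split_ifs with hw
    exacts [hw, hy₀]
  · rw [← integral_mea_ind cq.measurable q0 mS (inv_pos.2 hS)]
    refine integral_congr_ae ?_
    filter_upwards [aX] with w hw
    rw [hw]
  · rw [← integral_mea_ind cq.measurable q0 mT (inv_pos.2 hT), ← h4,
      integral_map h1.aemeasurable mh.aestronglyMeasurable]
    refine integral_congr_ae ?_
    filter_upwards [aY] with w hw
    rw [hw]
  · filter_upwards [aX, aY, h6] with w hw hw' hw''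
    rw [hw, hw', hw''.2]

end Vale.Agent.P245
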