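import Vale.Agent.P245.Basic

/-! A finite Rademacher channel.

Plan.  `M` with `r < √M` (for instance `M = ⌈r²⌉₊ + 1`), `Z = Fin M × ι → Bool`, `γ z = ∏ _j, 1/2`,
`σ true = 1`, `σ false = -1`, `f z p = ∏ j, (1 + σ (z j) * p j.2 / √M)`,
`ζ z i = ∑ j : Fin M, σ (z (j, i)) / √M`.  Every sum over `z` factorises by
`Finset.prod_univ_sum` / `Fintype.piFinset_univ`: `∑ z, ∏ j, a j (z j) = ∏ j, ∑ b, a j b`.
`two`: `1 + x ≤ exp x`; `mean`: write `σ (z j₀) * ∏ j, ..` as a product with an `if j = j₀`;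
`mgf`: `Real.cosh_le_exp_half_sq`. -/

open Real

namespace Vale.Agent.P245

/-- the sign of a bit -/
def chS (b : Bool) : ℝ := if b then 1 else -1

theorem ch_sum {J : Type} [Fintype J] [DecidableEq J] (a : J → Bool → ℝ) :
    ∑ z : J → Bool, (∏ _j : J, (1 / 2 : ℝ)) * ∏ j, a j (z j) =
      ∏ j, (a j true + a j false) / 2 := by
  have h := Finset.prod_univ_sum (fun _ : J => (Finset.univ : Finset Bool))
    fun j b => 1 / 2 * a j b
  rw [Fintype.piFinset_univ] at h
  simp only [← Finset.prod_mul_distrib]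
  rw [← h]
  refine Finset.prod_congr rfl fun j _ => ?_
  rw [Fintype.sum_bool]
  ring

theorem ch_mean {J : Type} [Fintype J] [DecidableEq J] (c : J → ℝ) (j0 : J) :
    ∑ z : J → Bool, (∏ _j : J, (1 / 2 : ℝ)) * (chS (z j0) * ∏ j, (1 + chS (z j) * c j)) = c j0 := by
  have h := ch_sum fun j b => (if j = j0 then chS b else 1) * (1 + chS b * c j)
  simp only [Finset.prod_mul_distrib, Finset.prod_ite_eq', Finset.mem_univ, if_true] at h
  rw [h, Finset.prod_eq_single j0 (fun j _ hj => ?_) (by simp)]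
  · simp only [chS, if_true, Bool.false_eq_true, if_false]
    ring
  · simp only [chS, if_true, Bool.false_eq_true, if_false, if_neg hj]
    ring

theorem exists_chan (ι : Type) [Fintype ι] [DecidableEq ι] (r : ℝ) :
    ∃ (M : ℕ) (γ : (Fin M × ι → Bool) → ℝ) (f : (Fin M × ι → Bool) → (ι → ℝ) → ℝ)
      (ζ : (Fin M × ι → Bool) → ι → ℝ), Chan r γ f ζ := by
  obtain ⟨M, hM0, hM⟩ : ∃ M : ℕ, (0 : ℝ) < M ∧ r < √M := by
    refine ⟨⌈r ^ 2⌉₊ + 1, by positivity, lt_sqrt_of_sq_lt ?_⟩
    push_cast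
    linarith [Nat.le_ceil (r ^ 2)]
  have hs : 0 < √(M : ℝ) := sqrt_pos.2 hM0
  have hq : √(M : ℝ) * √M = M := mul_self_sqrt hM0.le
  have hc : ∀ p : ι → ℝ, (∀ i, |p i| ≤ r) → ∀ i, |p i / √M| < 1 := fun p hp i => by
    rw [abs_div, abs_of_pos hs, div_lt_one hs]
    exact (hp i).trans_lt hM
  have hsum : ∀ g : ι → ℝ, ∑ j : Fin M × ι, g j.2 / M = ∑ i, g i := fun g => by
    rw [Fintype.sum_prod_type]
    dsimp only
    rw [Finset.sum_const, Finset.card_univ, Fintype.card_fin, nsmul_eq_mul,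
      ← Finset.sum_div, mul_div_cancel₀ _ hM0.ne']
  refine ⟨M, fun _ => ∏ _j : Fin M × ι, (1 / 2 : ℝ),
    fun z p => ∏ j, (1 + chS (z j) * (p j.2 / √M)), fun z i => ∑ j : Fin M, chS (z (j, i)) / √M,
    fun _ => by positivity, ?_, fun z => by fun_prop, fun z p hp => ?_, fun p => ?_,
    fun p p' hp hp' => ?_, fun p i => ?_, fun ξ => ?_⟩
  · simp
  · refine Finset.prod_pos fun j _ => ?_
    have h := abs_lt.1 (hc p hp j.2)
    unfold chS
    split_ifs <;> linarith [h.1, h.2]
  · rw [ch_sum fun (j : Fin M × ι) b => 1 + chS b * (p j.2 / √M)]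
    exact Finset.prod_eq_one fun j _ => by
      simp only [chS, if_true, Bool.false_eq_true, if_false]
      ring
  · rw [Finset.sum_congr rfl fun z _ => congrArg (_ * ·) (Finset.prod_mul_distrib ..).symm,
      ch_sum fun (j : Fin M × ι) b => (1 + chS b * (p j.2 / √M)) * (1 + chS b * (p' j.2 / √M)),
      ← hsum, exp_sum]
    have e : ∀ j : Fin M × ι, ((1 + chS true * (p j.2 / √M)) * (1 + chS true * (p' j.2 / √M)) +
        (1 + chS false * (p j.2 / √M)) * (1 + chS false * (p' j.2 / √M))) / 2 =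
        p j.2 / √M * (p' j.2 / √M) + 1 := fun j => by
      simp only [chS, if_true, Bool.false_eq_true, if_false]
      ring
    refine Finset.prod_le_prod (fun j _ => ?_) fun j _ => ?_ <;> rw [e]
    · have h := abs_lt.1 (hc p hp j.2)
      have h' := abs_lt.1 (hc p' hp' j.2)
      nlinarith [h.1, h.2, h'.1, h'.2]
    · rw [div_mul_div_comm, hq]
      exact add_one_le_exp _
  · have e : ∀ z : Fin M × ι → Bool, (∏ _j : Fin M × ι, (1 / 2 : ℝ)) *
        (∑ j : Fin M, chS (z (j, i)) / √M) * ∏ j, (1 + chS (z j) * (p j.2 / √M)) =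
        ∑ j : Fin M, (∏ _j : Fin M × ι, (1 / 2 : ℝ)) *
          (chS (z (j, i)) * ∏ j, (1 + chS (z j) * (p j.2 / √M))) / √M := fun z => by
      rw [Finset.mul_sum, Finset.sum_mul]
      exact Finset.sum_congr rfl fun j _ => by ring
    simp only [e]
    rw [Finset.sum_comm]
    simp only [← Finset.sum_div, ch_mean fun j : Fin M × ι => p j.2 / √M]
    rw [Finset.sum_const, Finset.card_univ, Fintype.card_fin, nsmul_eq_mul]
    field_simp
    rw [sq, hq, mul_comm]
  · have e : ∀ z : Fin M × ι → Bool, exp (∑ i, ξ i * ∑ j : Fin M, chS (z (j, i)) / √M) =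
        ∏ j : Fin M × ι, exp (chS (z j) * (ξ j.2 / √M)) := fun z => by
      rw [← exp_sum, Fintype.sum_prod_type, Finset.sum_comm]
      congr 1
      refine Finset.sum_congr rfl fun i _ => ?_
      rw [Finset.mul_sum]
      exact Finset.sum_congr rfl fun j _ => by ring
    simp only [e]
    rw [ch_sum fun (j : Fin M × ι) b => exp (chS b * (ξ j.2 / √M)), Finset.sum_div, ← hsum, exp_sum]
    refine Finset.prod_le_prod (fun j _ => by positivity) fun j _ => ?_
    have h := cosh_le_exp_half_sq (ξ j.2 / √M)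
    rw [cosh_eq, div_pow, sq_sqrt hM0.le, div_right_comm] at h
    simpa [chS] using h

end Vale.Agent.P245
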