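import Vale.Agent.P245.Mark

/-! Information bounds for the channel.

Plan.  `pb`: `f z` is continuous and positive on the compact cube (`isCompact_univ_pi`,
`IsCompact.exists_isMinOn`).  Finite Jensen: if `∑ γ F = 1`, `F ≥ 0`, `G > 0` then
`∑ γ F log G ≤ log (∑ γ F G)` (from `log x ≤ x - 1` applied to `G / ∑ γ F G`).
`j0_le`: pointwise `∑ γ F log F ≤ log ∑ γ F² ≤ ∑ p²` (`two`).
`dz_le`: `∑ γ m log m = ∫ ∑ γ F_z w log m_z dP ≤ ∫ log (∑ γ F_z w m_z)` and
`∑ γ F_z w m_z = ∫ ∑ γ F_z w F_z w' dP w' ≤ ∫ exp (∑ p w * p w')`.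
`gibbs`: `∑ γ F (a - log F) ≤ log ∑ γ exp a` with `a = ∑ ξ ζ`, and `mgf`. -/

open MeasureTheory Real Set

namespace Vale.Agent.P245

variable {Ω Z ι : Type} [MeasurableSpace Ω] [Fintype Z] [Fintype ι] {P : Measure Ω}
  [IsProbabilityMeasure P] {r : ℝ} {γ : Z → ℝ} {f : Z → (ι → ℝ) → ℝ} {ζ : Z → ι → ℝ}
  {u : ι → Ω → ℝ}

theorem dz_jensen {γ F G : Z → ℝ} (hγ : ∀ z, 0 ≤ γ z) (hF : ∀ z, 0 ≤ F z)
    (h1 : ∑ z, γ z * F z = 1) (hG : ∀ z, 0 < G z) {S : ℝ}
    (hS : ∑ z, γ z * (F z * G z) ≤ exp S) : ∑ z, γ z * (F z * log (G z)) ≤ S := by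
  have h2 : ∀ z, γ z * (F z * log (G z)) ≤
      (S - 1) * (γ z * F z) + exp (-S) * (γ z * (F z * G z)) := by
    intro z
    have h3 : log (G z * exp (-S)) ≤ G z * exp (-S) - 1 :=
      log_le_sub_one_of_pos (mul_pos (hG z) (exp_pos _))
    rw [log_mul (hG z).ne' (exp_pos _).ne', log_exp] at h3
    have h4 := mul_le_mul_of_nonneg_left h3 (mul_nonneg (hγ z) (hF z))
    nlinarith
  have h5 := Finset.sum_le_sum fun z (_ : z ∈ Finset.univ) => h2 z
  rw [Finset.sum_add_distrib, ← Finset.mul_sum, ← Finset.mul_sum, h1] at h5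
  have h6 := mul_le_mul_of_nonneg_left hS (exp_pos (-S)).le
  rw [← exp_add, neg_add_cancel, exp_zero] at h6
  linarith

theorem dz_bm_sum {κ : Type} [Fintype κ] {g : κ → Ω → ℝ} (hg : ∀ i, BM (g i)) :
    BM fun w => ∑ i, g i w := by
  choose C hC using fun i => (hg i).2
  refine ⟨Finset.measurable_sum _ fun i _ => (hg i).1, ∑ i, C i, fun w => ?_⟩
  exact (Finset.abs_sum_le_sum_abs _ _).trans (Finset.sum_le_sum fun i _ => hC i w)

omit [Fintype ι] in
theorem dz_bm_u (mu : ∀ i, Measurable (u i)) (hu : ∀ i w, |u i w| ≤ r) (i : ι) : BM (u i) :=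
  ⟨mu i, r, hu i⟩

omit [Fintype ι] in
theorem dz_bm_sq (mu : ∀ i, Measurable (u i)) (hu : ∀ i w, |u i w| ≤ r) (i : ι) :
    BM fun w => u i w ^ 2 := by
  simpa only [sq] using (dz_bm_u mu hu i).mul (dz_bm_u mu hu i)

theorem Chan.pb (hc : Chan r γ f ζ) (mu : ∀ i, Measurable (u i)) (hu : ∀ i w, |u i w| ≤ r) (z : Z) :
    PB fun w => f z fun i => u i w := by
  have hm : Measurable fun w => f z fun i => u i w :=
    (hc.cont z).measurable.comp (measurable_pi_lambda _ mu)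
  have hK : IsCompact (Set.pi univ fun _ : ι => Icc (-r) r) :=
    isCompact_univ_pi fun _ => isCompact_Icc
  have hmem : ∀ w, (fun i => u i w) ∈ Set.pi univ fun _ : ι => Icc (-r) r :=
    fun w i _ => abs_le.1 (hu i w)
  rcases (Set.pi univ fun _ : ι => Icc (-r) r).eq_empty_or_nonempty with he | hne
  · refine ⟨hm, 1, 1, one_pos, fun w => ?_⟩
    have := hmem w
    rw [he] at this
    exact this.elim
  · obtain ⟨p, hp, hpm⟩ := hK.exists_isMinOn hne (hc.cont z).continuousOn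
    obtain ⟨q, -, hqm⟩ := hK.exists_isMaxOn hne (hc.cont z).continuousOn
    exact ⟨hm, f z p, f z q, hc.pos z p fun i => abs_le.2 (hp i (mem_univ i)),
      fun w => ⟨hpm (hmem w), hqm (hmem w)⟩⟩

theorem Chan.j0_le (hc : Chan r γ f ζ) (mu : ∀ i, Measurable (u i)) (hu : ∀ i w, |u i w| ≤ r) :
    ∑ z, γ z * el P (fun w => f z fun i => u i w) ≤ ∑ i, ∫ w, u i w ^ 2 ∂P := by
  have hF := hc.pb mu hu
  have hi : ∀ z, BM fun w => γ z * ((f z fun i => u i w) * log (f z fun i => u i w)) :=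
    fun z => (BM.const _).mul ((hF z).bm.mul (hF z).log)
  simp only [el, ← integral_const_mul]
  rw [← integral_finsetSum _ fun z _ => (hi z).integrable,
    ← integral_finsetSum _ fun i _ => (dz_bm_sq mu hu i).integrable]
  refine integral_mono (dz_bm_sum hi).integrable (dz_bm_sum (dz_bm_sq mu hu)).integrable
    fun w => ?_
  refine dz_jensen hc.nonneg (fun z => ((hF z).pos w).le) (hc.mass _) (fun z => (hF z).pos w) ?_
  simpa only [sq] using hc.two _ _ (fun i => hu i w) (fun i => hu i w)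

theorem Chan.dz_le (hc : Chan r γ f ζ) (mu : ∀ i, Measurable (u i)) (hu : ∀ i w, |u i w| ≤ r)
    {κ c : ℝ} (h3 : ∀ ξ : ι → ℝ, ∫ w, exp (∑ i, ξ i * u i w) ∂P ≤ exp (κ + c * ∑ i, ξ i ^ 2)) :
    ∑ z, γ z * ((∫ w, f z (fun i => u i w) ∂P) * log (∫ w, f z (fun i => u i w) ∂P)) ≤
      κ + c * ∑ i, ∫ w, u i w ^ 2 ∂P := by
  have hF := hc.pb mu hu
  have hm : ∀ z, 0 < ∫ w, f z (fun i => u i w) ∂P := by
    intro z
    obtain ⟨-, a, C, ha, hC⟩ := hF z
    have h4 : ∫ _ : Ω, a ∂P ≤ ∫ w, f z (fun i => u i w) ∂P :=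
      integral_mono (integrable_const a) (hF z).bm.integrable fun w => (hC w).1
    rw [integral_const, probReal_univ, one_smul] at h4
    exact ha.trans_le h4
  have hi : ∀ z, BM fun w =>
      γ z * ((f z fun i => u i w) * log (∫ w, f z (fun i => u i w) ∂P)) :=
    fun z => (BM.const _).mul ((hF z).bm.mul (BM.const _))
  have e1 : ∑ z, γ z * ((∫ w, f z (fun i => u i w) ∂P) * log (∫ w, f z (fun i => u i w) ∂P)) =
      ∫ w, ∑ z, γ z * ((f z fun i => u i w) * log (∫ w, f z (fun i => u i w) ∂P)) ∂P := by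
    rw [integral_finsetSum _ fun z _ => (hi z).integrable]
    refine Finset.sum_congr rfl fun z _ => ?_
    rw [integral_const_mul, integral_mul_const]
  have hs := dz_bm_sum (dz_bm_sq mu hu)
  have e2 : κ + c * ∑ i, ∫ w, u i w ^ 2 ∂P = ∫ w, (κ + c * ∑ i, u i w ^ 2) ∂P := by
    rw [integral_add (integrable_const _) (hs.integrable.const_mul c), integral_const_mul,
      integral_finsetSum _ fun i _ => (dz_bm_sq mu hu i).integrable, integral_const,
      probReal_univ, one_smul]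
  rw [e1, e2]
  refine integral_mono (dz_bm_sum hi).integrable
    ((BM.const κ).add ((BM.const c).mul hs)).integrable fun w => ?_
  refine dz_jensen hc.nonneg (fun z => ((hF z).pos w).le) (hc.mass _) hm ?_
  refine le_trans ?_ (h3 fun i => u i w)
  have hj : ∀ z, BM fun w' => γ z * ((f z fun i => u i w) * f z fun i => u i w') :=
    fun z => (BM.const _).mul ((BM.const _).mul (hF z).bm)
  have e3 : ∑ z, γ z * ((f z fun i => u i w) * ∫ w, f z (fun i => u i w) ∂P) =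
      ∫ w', ∑ z, γ z * ((f z fun i => u i w) * f z fun i => u i w') ∂P := by
    rw [integral_finsetSum _ fun z _ => (hj z).integrable]
    refine Finset.sum_congr rfl fun z _ => ?_
    rw [integral_const_mul, integral_const_mul]
  rw [e3]
  refine integral_mono (dz_bm_sum hj).integrable
    (dz_bm_sum fun i => (BM.const (u i w)).mul (dz_bm_u mu hu i)).exp.bm.integrable fun w' => ?_
  exact hc.two _ _ (fun i => hu i w) (fun i => hu i w')

theorem Chan.gibbs (hc : Chan r γ f ζ) {F : Z → ℝ} (h0 : ∀ z, 0 < F z) (h1 : ∑ z, γ z * F z = 1)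
    (ξ : ι → ℝ) :
    ∑ i, ξ i * ∑ z, γ z * ζ z i * F z - (∑ i, ξ i ^ 2) / 2 ≤ ∑ z, γ z * (F z * log (F z)) := by
  have e1 : ∑ i, ξ i * ∑ z, γ z * ζ z i * F z = ∑ z, γ z * (F z * ∑ i, ξ i * ζ z i) := by
    simp only [Finset.mul_sum]
    rw [Finset.sum_comm]
    exact Finset.sum_congr rfl fun z _ => Finset.sum_congr rfl fun i _ => by ring
  have h2 := dz_jensen (G := fun z => exp (∑ i, ξ i * ζ z i) / F z) (S := (∑ i, ξ i ^ 2) / 2)
    hc.nonneg (fun z => (h0 z).le) h1 (fun z => div_pos (exp_pos _) (h0 z)) (by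
      refine le_of_eq_of_le (Finset.sum_congr rfl fun z _ => ?_) (hc.mgf ξ)
      rw [mul_div_cancel₀ _ (h0 z).ne'])
  have e2 : ∑ z, γ z * (F z * log (exp (∑ i, ξ i * ζ z i) / F z)) =
      ∑ z, γ z * (F z * ∑ i, ξ i * ζ z i) - ∑ z, γ z * (F z * log (F z)) := by
    rw [← Finset.sum_sub_distrib]
    refine Finset.sum_congr rfl fun z _ => ?_
    rw [log_div (exp_pos _).ne' (h0 z).ne', log_exp]
    ring
  rw [e2] at h2
  rw [e1]
  linarith

end Vale.Agent.P245
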