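import Vale.Agent.P245.Op
import Vale.Agent.P245.DZ
import Vale.Agent.P245.Chan

/-! The information chain.

Plan.  `F z w = f z (u · w)`, `F j z = Pk^[j] (F z)`, `J j = ∑ γ z * el P (F j z)`,
`H j = ∑ γ z * el μ (gg (F j z))`, `D = ∑ γ m log m` with `m z = ∫ F z` (`iter_mass`, `gg_mass`).
`∑ γ z * F j z = 1` (`iter_sum`, `Chan.mass`, `iter_one`), `∑ γ z ζ z i * F j z = Pk^[j] (u i)`
(`Chan.mean`), `∑ γ m = 1`.
* `J (j+1) ≤ H j` (`ent_step`, `gg_sum`, `el_r`) and `H j - D ≤ A (2 (J j - H j) + L) + B` (`h1`),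
  hence `J (j+1) - (D + A L + B) ≤ 2 A (J j - J (j+1))`; `J N ≥ 0` (`gibbs` with `ξ = 0`).
  Summing over `j < N`, some `1 ≤ j ≤ N` has `J j ≤ D + A L + B + 2 A J 0 / N`.
* `gibbs` with `ξ = u · w`, integrated, and `iter_lower`, `dir_nonneg`:
  `R2 / 2 - N * V ≤ J j`. -/

open MeasureTheory Real Set

namespace Vale.Agent.P245

variable {Ω U Z ι : Type} [MeasurableSpace Ω] [MeasurableSpace U] [Fintype Z] [Fintype ι]
  {P : Measure Ω} {μ : Measure U} [IsProbabilityMeasure P] [IsProbabilityMeasure μ]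
  {k : Ω → U → ℝ} {r : ℝ} {γ : Z → ℝ} {f : Z → (ι → ℝ) → ℝ} {ζ : Z → ι → ℝ} {u : ι → Ω → ℝ}

theorem chain (hk : Ker μ k) (hc : Chan r γ f ζ) (mu : ∀ i, Measurable (u i))
    (hu : ∀ i w, |u i w| ≤ r) {A B L : ℝ} (hA : 0 ≤ A)
    (h1 : ∀ F, PB F → ent μ (gg P k F) ≤
      A * (2 * (el P F - el μ (gg P k F)) + L * ∫ w, F w ∂P) + B * ∫ w, F w ∂P)
    {N : ℕ} (hN : 1 ≤ N) :
    (∑ i, ∫ w, u i w ^ 2 ∂P) / 2 ≤ N * ∑ i, dir P μ k (u i) +
      ∑ z, γ z * ((∫ w, f z (fun i => u i w) ∂P) * log (∫ w, f z (fun i => u i w) ∂P)) +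
      A * (2 * (∑ z, γ z * el P (fun w => f z fun i => u i w)) / N + L) + B := by
  have ubm : ∀ i, BM (u i) := fun i => ⟨mu i, r, hu i⟩
  set F0 : Z → Ω → ℝ := fun z w => f z fun i => u i w with hF0
  have pb0 : ∀ z, PB (F0 z) := fun z => hc.pb mu hu z
  set Fj : ℕ → Z → Ω → ℝ := fun j z => (Pk P μ k)^[j] (F0 z) with hFj
  have pbj : ∀ j z, PB (Fj j z) := fun j z => hk.iter_pb (pb0 z) j
  set J : ℕ → ℝ := fun j => ∑ z, γ z * el P (Fj j z) with hJ
  set H : ℕ → ℝ := fun j => ∑ z, γ z * el μ (gg P k (Fj j z)) with hH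
  set m : Z → ℝ := fun z => ∫ w, F0 z w ∂P with hm
  set D : ℝ := ∑ z, γ z * (m z * log (m z)) with hD
  set V : ℝ := ∑ i, dir P μ k (u i) with hV
  set R2 : ℝ := ∑ i, ∫ w, u i w ^ 2 ∂P with hR2
  have sum1 : ∀ j, (fun w => ∑ z, γ z * Fj j z w) = fun _ => 1 := by
    intro j
    have e := hk.iter_sum (P := P) γ (fun z => (pb0 z).bm) j
    have e0 : (fun w => ∑ z, γ z * F0 z w) = fun _ => 1 := funext fun w => hc.mass _
    rw [e0, hk.iter_one] at e
    exact e.symm
  have summean : ∀ j i w, ∑ z, γ z * ζ z i * Fj j z w = (Pk P μ k)^[j] (u i) w := by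
    intro j i w
    have e := hk.iter_sum (P := P) (fun z => γ z * ζ z i) (fun z => (pb0 z).bm) j
    have e0 : (fun w => ∑ z, γ z * ζ z i * F0 z w) = u i := funext fun w => hc.mean _ i
    rw [e0] at e
    exact (congrFun e w).symm
  have summ : ∑ z, γ z * m z = 1 := by
    have e : ∑ z, γ z * m z = ∫ w, ∑ z, γ z * F0 z w ∂P := by
      rw [integral_finsetSum _ fun z _ => (pb0 z).bm.integrable.const_mul _]
      exact Finset.sum_congr rfl fun z _ => (integral_const_mul _ _).symm
    have e0 : (fun w => ∑ z, γ z * F0 z w) = fun _ => 1 := funext fun w => hc.mass _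
    rw [e, e0]
    simp
  have step1 : ∀ j, J (j + 1) ≤ H j := by
    intro j
    have e1 : ∀ z, el P (Fj (j + 1) z) ≤ el μ (gg P k (Fj j z)) -
        ∫ y, gg P k (Fj j z) y * log (gg P k (fun _ => 1) y) ∂μ := by
      intro z
      have : Fj (j + 1) z = Pk P μ k (Fj j z) := Function.iterate_succ_apply' _ _ _
      rw [this]
      exact (hk.ent_step (pbj j z)).2
    have e2 : ∑ z, γ z * ∫ y, gg P k (Fj j z) y * log (gg P k (fun _ => 1) y) ∂μ =
        el μ (gg P k fun _ => 1) := by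
      have : ∑ z, γ z * ∫ y, gg P k (Fj j z) y * log (gg P k (fun _ => 1) y) ∂μ =
          ∫ y, ∑ z, γ z * (gg P k (Fj j z) y * log (gg P k (fun _ => 1) y)) ∂μ := by
        rw [integral_finsetSum _ fun z _ => (hk.ent_step (pbj j z)).1.const_mul _]
        exact Finset.sum_congr rfl fun z _ => (integral_const_mul _ _).symm
      rw [this, el]
      refine integral_congr_ae (ae_of_all _ fun y => ?_)
      have e3 := hk.gg_sum (P := P) γ (fun z => (pbj j z).bm) y
      rw [sum1 j] at e3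
      simp only
      conv_rhs => rw [e3]
      rw [← e3]
      conv_rhs => enter [1]; rw [e3]
      rw [Finset.sum_mul]
      exact Finset.sum_congr rfl fun z _ => by ring
    have e4 : J (j + 1) ≤ ∑ z, γ z * (el μ (gg P k (Fj j z)) -
        ∫ y, gg P k (Fj j z) y * log (gg P k (fun _ => 1) y) ∂μ) :=
      Finset.sum_le_sum fun z _ => mul_le_mul_of_nonneg_left (e1 z) (hc.nonneg z)
    simp only [mul_sub, Finset.sum_sub_distrib] at e4
    rw [e2] at e4
    have e5 := hk.el_r (P := P)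
    have e6 : H j = ∑ z, γ z * el μ (gg P k (Fj j z)) := rfl
    linarith
  have step2 : ∀ j, H j - D ≤ A * (2 * (J j - H j) + L) + B := by
    intro j
    have e1 : ∀ z, el μ (gg P k (Fj j z)) - m z * log (m z) ≤
        A * (2 * (el P (Fj j z) - el μ (gg P k (Fj j z))) + L * m z) + B * m z := by
      intro z
      have e := h1 (Fj j z) (pbj j z)
      have em : ∫ w, Fj j z w ∂P = m z := hk.iter_mass (pb0 z).bm j
      rw [ent, hk.gg_mass (pbj j z).bm, em] at e
      exact e
    have e2 := Finset.sum_le_sum (s := Finset.univ)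
      fun z _ => mul_le_mul_of_nonneg_left (e1 z) (hc.nonneg z)
    have e3 : ∑ z, γ z * (el μ (gg P k (Fj j z)) - m z * log (m z)) = H j - D := by
      simp only [mul_sub, Finset.sum_sub_distrib]
      rfl
    have e4 : ∑ z, γ z * (A * (2 * (el P (Fj j z) - el μ (gg P k (Fj j z))) + L * m z) + B * m z) =
        A * (2 * (J j - H j) + L * ∑ z, γ z * m z) + B * ∑ z, γ z * m z := by
      simp only [hJ, hH, Finset.mul_sum, ← Finset.sum_sub_distrib, ← Finset.sum_add_distrib]
      exact Finset.sum_congr rfl fun z _ => by ring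
    rw [e3, e4, summ] at e2
    linarith
  have Jint : ∀ j, J j = ∫ w, ∑ z, γ z * (Fj j z w * log (Fj j z w)) ∂P := by
    intro j
    rw [integral_finsetSum _ fun z _ => (bm_mul_log (pbj j z).bm).integrable.const_mul _]
    exact Finset.sum_congr rfl fun z _ => (integral_const_mul _ _).symm
  have Jsum : ∀ j, Integrable (fun w => ∑ z, γ z * (Fj j z w * log (Fj j z w))) P := fun j =>
    integrable_finsetSum _ fun z _ => (bm_mul_log (pbj j z).bm).integrable.const_mul _
  have J0 : ∀ j, 0 ≤ J j := by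
    intro j
    rw [Jint]
    refine integral_nonneg fun w => ?_
    have e := hc.gibbs (F := fun z => Fj j z w) (fun z => (pbj j z).pos w)
      (congrFun (sum1 j) w) (fun _ => 0)
    simpa using e
  have V0 : 0 ≤ V := Finset.sum_nonneg fun i _ => hk.dir_nonneg (ubm i)
  have low : ∀ j : ℕ, R2 / 2 - j * V ≤ J j := by
    intro j
    have i1 : ∀ i, Integrable (fun w => u i w * (Pk P μ k)^[j] (u i) w) P := fun i =>
      ((ubm i).mul (hk.iter_bm (ubm i) j)).integrable
    have i2 : ∀ i, Integrable (fun w => u i w ^ 2) P := fun i => by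
      simpa [sq] using ((ubm i).mul (ubm i)).integrable (μ := P)
    have e1 : ∫ w, (∑ i, u i w * (Pk P μ k)^[j] (u i) w - (∑ i, u i w ^ 2) / 2) ∂P ≤ J j := by
      rw [Jint]
      refine integral_mono ((integrable_finsetSum _ fun i _ => i1 i).sub
        ((integrable_finsetSum _ fun i _ => i2 i).div_const 2)) (Jsum j) fun w => ?_
      have e := hc.gibbs (F := fun z => Fj j z w) (fun z => (pbj j z).pos w)
        (congrFun (sum1 j) w) (fun i => u i w)
      simp only [summean] at e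
      exact e
    rw [integral_sub (integrable_finsetSum _ fun i _ => i1 i)
      ((integrable_finsetSum _ fun i _ => i2 i).div_const 2), integral_div,
      integral_finsetSum _ fun i _ => i1 i, integral_finsetSum _ fun i _ => i2 i] at e1
    have e2 : ∑ i, (∫ w, u i w ^ 2 ∂P - j * dir P μ k (u i)) ≤
        ∑ i, ∫ w, u i w * (Pk P μ k)^[j] (u i) w ∂P :=
      Finset.sum_le_sum fun i _ => hk.iter_lower (ubm i) j
    rw [Finset.sum_sub_distrib, ← Finset.mul_sum] at e2
    linarith
  have tel : ∀ j : ℕ, j ≤ N → j * (R2 / 2 - N * V - (D + A * L + B)) ≤ 2 * A * (J 0 - J j) := by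
    intro j hj
    induction j with
    | zero => simp
    | succ j ih =>
      have a1 := ih (by omega)
      have a2 := step1 j
      have a3 := step2 j
      have a4 := low (j + 1)
      have a5 : ((j + 1 : ℕ) : ℝ) * V ≤ N * V :=
        mul_le_mul_of_nonneg_right (by exact_mod_cast hj) V0
      have a6 : A * J (j + 1) ≤ A * H j := mul_le_mul_of_nonneg_left a2 hA
      push_cast at a4 a5 ⊢
      nlinarith
  have hNpos : (0 : ℝ) < N := by exact_mod_cast hN
  have fin := tel N le_rfl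
  have a7 : 0 ≤ A * J N := mul_nonneg hA (J0 N)
  have a8 : R2 / 2 - N * V - (D + A * L + B) ≤ 2 * A * J 0 / N := by
    rw [le_div_iff₀ hNpos]
    nlinarith
  have a9 : J 0 = ∑ z, γ z * el P (F0 z) := rfl
  have a10 : A * (2 * J 0 / N + L) = 2 * A * J 0 / N + A * L := by ring
  change R2 / 2 ≤ N * V + D + A * (2 * J 0 / N + L) + B
  linarith

end Vale.Agent.P245
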