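import Vale.Agent.P245.Sm

/-! Basic facts on the coupling `Cpl`.

Plan.  `jensenX`: `∫_S exp φ = a ∫_S (exp φ / (a q)) q = ∫ exp (φ X) / (a q X) dP` (`lawX`), and this is
`∫ κ exp (φ X - log κ - log (a q X))`; `jensen_exp`, integrability by `Cpl.bm`, `PB.log`, `BM.exp`.
`ker`: `q (mid X Y)` is bounded below (`Cpl.bm` for `(sm ρ (mid x y))⁻¹`), `gau_le`.
`L_nonneg`: `lawX` with `h = 1` gives `1 = a ∫_S q ≤ a`.
`h3`: with `η = toLp (ξ / 2)`, `exp ⟪η, (Y - X)/2⟫ ≤ (λ exp ⟪η, Y⟫ + exp ⟪-η, X⟫ / λ) / 2` with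
`λ = √(a / b)`, `lawX`, `lawY`, `Good.sm_mgf`; `√(a b) = exp (L / 2)`. -/

open MeasureTheory Real Set
open scoped RealInnerProductSpace

namespace Vale.Agent.P245

variable {n : ℕ} {ρ q : E n → ℝ} {R : ℝ}

theorem cj_jensen {P : Measure (E n)} [IsProbabilityMeasure P] {X : E n → E n} (mX : Measurable X)
    {r a : ℝ} (hX : ∀ w, ‖X w‖ ≤ r) {S : Set (E n)} (ha : 0 < a)
    (law : ∀ h : E n → ℝ, Measurable h → ∫ w, h (X w) ∂P = a * ∫ x in S, h x * q x)
    (cq : Continuous q) (q0 : ∀ x, 0 < q x) {κ : E n → ℝ} (hκ : PB κ)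
    (h1 : ∫ w, κ w ∂P = 1) {φ : E n → ℝ} (cφ : Continuous φ) :
    exp (∫ w, κ w * (φ (X w) - log (κ w) - log (a * q (X w))) ∂P) ≤ ∫ x in S, exp (φ x) := by
  have cl : Continuous fun x => log (a * q x) :=
    (continuous_const.mul cq).log fun x => (mul_pos ha (q0 x)).ne'
  have b1 : BM fun w => φ (X w) - log (κ w) - log (a * q (X w)) :=
    ((bm_comp mX hX cφ).sub hκ.log).sub (bm_comp mX hX cl)
  refine (jensen_exp (ae_of_all _ fun w => (hκ.pos w).le) h1 (hκ.bm.mul b1).integrable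
    (hκ.bm.mul b1.exp.bm).integrable).trans (le_of_eq ?_)
  have e1 : ∀ w, κ w * exp (φ (X w) - log (κ w) - log (a * q (X w))) =
      exp (φ (X w)) / (a * q (X w)) := fun w => by
    have := (hκ.pos w).ne'
    rw [exp_sub, exp_sub, exp_log (hκ.pos w), exp_log (mul_pos ha (q0 _))]
    field_simp
  simp only [e1]
  rw [law (fun x => exp (φ x) / (a * q x))
    (cφ.rexp.measurable.div (continuous_const.mul cq).measurable), ← integral_const_mul]
  refine integral_congr_ae (ae_of_all _ fun x => ?_)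
  have := (q0 x).ne'
  field_simp

theorem Cpl.jensenX (c : Cpl q) (cq : Continuous q) (q0 : ∀ x, 0 < q x) {κ : E n → ℝ} (hκ : PB κ)
    (h1 : ∫ w, κ w ∂c.P = 1) {φ : E n → ℝ} (cφ : Continuous φ) :
    exp (∫ w, κ w * (φ (c.X w) - log (κ w) - log (c.a * q (c.X w))) ∂c.P) ≤
      ∫ x in c.S, exp (φ x) := by
  have := c.prob
  exact cj_jensen c.mX (fun w => c.bS _ (c.memX w)) c.ha c.lawX cq q0 hκ h1 cφ

theorem Cpl.jensenY (c : Cpl q) (cq : Continuous q) (q0 : ∀ x, 0 < q x) {κ : E n → ℝ} (hκ : PB κ)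
    (h1 : ∫ w, κ w ∂c.P = 1) {φ : E n → ℝ} (cφ : Continuous φ) :
    exp (∫ w, κ w * (φ (c.Y w) - log (κ w) - log (c.b * q (c.Y w))) ∂c.P) ≤
      ∫ y in c.T, exp (φ y) := by
  have := c.prob
  exact cj_jensen c.mY (fun w => c.bT _ (c.memY w)) c.hb c.lawY cq q0 hκ h1 cφ

theorem cj_mid : Continuous fun p : E n × E n => mid p.1 p.2 := by
  unfold mid
  fun_prop

theorem Cpl.ker (h : Good ρ R) (c : Cpl (sm ρ)) : Ker (mea ρ) c.k := by
  have m1 : Measurable fun w => mid (c.X w) (c.Y w) := cj_mid.measurable.comp (c.mX.prodMk c.mY)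
  refine ⟨?_, fun w y => div_pos (gau_pos _) (h.sm_pos _), ?_, fun w => ?_⟩
  · exact (continuous_gau.measurable.comp ((m1.comp measurable_fst).sub measurable_snd)).div
      (h.sm_cont.measurable.comp (m1.comp measurable_fst))
  · obtain ⟨-, C, hC⟩ := c.bm (φ := fun p => (sm ρ (mid p.1 p.2))⁻¹)
      ((h.sm_cont.comp cj_mid).inv₀ fun p => (h.sm_pos _).ne')
    refine ⟨(cn n)⁻¹ * C, fun w y => ?_⟩
    rw [Cpl.k, div_eq_mul_inv]
    exact mul_le_mul (gau_le _) ((le_abs_self _).trans (hC w)) (inv_pos.2 (h.sm_pos _)).le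
      (inv_pos.2 (cn_pos n)).le
  · simp only [Cpl.k]
    rw [integral_div]
    exact div_self (h.sm_pos _).ne'

theorem Cpl.k_pb (h : Good ρ R) (c : Cpl (sm ρ)) (y : E n) : PB fun w => c.k w y := by
  have h1 := (c.bm (φ := fun p => log (gau (mid p.1 p.2 - y) / sm ρ (mid p.1 p.2)))
    (((continuous_gau.comp (cj_mid.sub continuous_const)).div (h.sm_cont.comp cj_mid)
      fun p => (h.sm_pos _).ne').log fun p => (div_pos (gau_pos _) (h.sm_pos _)).ne')).exp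
  simp only [exp_log (div_pos (gau_pos _) (h.sm_pos _))] at h1
  exact h1

theorem Cpl.log_k (h : Good ρ R) (c : Cpl (sm ρ)) (w y : E n) : log (c.k w y) =
    -‖mid (c.X w) (c.Y w) - y‖ ^ 2 / 2 - log (cn n) - log (sm ρ (mid (c.X w) (c.Y w))) := by
  rw [Cpl.k, log_div (gau_pos _).ne' (h.sm_pos _).ne', gau, log_div (exp_pos _).ne' (cn_pos n).ne',
    log_exp]

/-- log-concavity of `sm ρ` along the coupling -/
theorem Cpl.log_q (h : Good ρ R) (c : Cpl (sm ρ)) (w : E n) :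
    log (c.a * sm ρ (c.X w)) + log (c.b * sm ρ (c.Y w)) ≤
      c.L + 2 * log (sm ρ (mid (c.X w) (c.Y w))) := by
  have h1 := log_le_log (mul_pos (h.sm_pos _) (h.sm_pos _)) (h.sm_lc (c.X w) (c.Y w))
  rw [log_mul (h.sm_pos _).ne' (h.sm_pos _).ne', log_pow, Nat.cast_ofNat] at h1
  rw [log_mul c.ha.ne' (h.sm_pos _).ne', log_mul c.hb.ne' (h.sm_pos _).ne', Cpl.L]
  linarith

theorem Cpl.u_bm (c : Cpl q) (i : Fin n) : BM (c.u i) :=
  c.bm (φ := fun p => (p.2 i - p.1 i) / 4) (by fun_prop)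

theorem cj_log (h : Good ρ R) {P : Measure (E n)} [IsProbabilityMeasure P] {X : E n → E n}
    {a : ℝ} {S : Set (E n)} (ha : 0 < a)
    (law : ∀ g : E n → ℝ, Measurable g → ∫ w, g (X w) ∂P = a * ∫ x in S, g x * sm ρ x) :
    0 ≤ log a := by
  have h1 := law (fun _ => 1) measurable_const
  simp only [one_mul, integral_const, probReal_univ, smul_eq_mul] at h1
  have h2 : ∫ x in S, sm ρ x ≤ 1 :=
    (setIntegral_le_integral h.sm_integrable (ae_of_all _ fun x => (h.sm_pos x).le)).trans_eq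
      h.sm_int
  exact log_nonneg (h1.trans_le (mul_le_of_le_one_right ha.le h2))

theorem Cpl.L_nonneg (h : Good ρ R) (c : Cpl (sm ρ)) : 0 ≤ c.L := by
  have := c.prob
  exact add_nonneg (cj_log h c.ha c.lawX) (cj_log h c.hb c.lawY)

theorem cj_mgf (h : Good ρ R) {P : Measure (E n)} {X : E n → E n} {a : ℝ} {S : Set (E n)}
    (ha : 0 < a)
    (law : ∀ g : E n → ℝ, Measurable g → ∫ w, g (X w) ∂P = a * ∫ x in S, g x * sm ρ x) (η : E n) :
    ∫ w, exp ⟪η, X w⟫ ∂P ≤ a * (4 * exp (3 / 4 * ‖η‖ ^ 2)) := by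
  rw [law (fun x => exp ⟪η, x⟫) (by fun_prop)]
  exact mul_le_mul_of_nonneg_left ((setIntegral_le_integral (h.sm_mgf η).1
    (ae_of_all _ fun x => (mul_pos (exp_pos _) (h.sm_pos x)).le)).trans (h.sm_mgf η).2) ha.le

theorem cj_amgm (s t m : ℝ) : exp ((s + t) / 2) ≤ (exp m * exp s + exp (-m) * exp t) / 2 := by
  have e1 : exp ((s + t) / 2) = exp ((m + s) / 2) * exp ((-m + t) / 2) := by
    rw [← exp_add]; ring_nf
  have e2 : exp m * exp s = exp ((m + s) / 2) ^ 2 := by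
    rw [← exp_add, sq, ← exp_add, add_halves]
  have e3 : exp (-m) * exp t = exp ((-m + t) / 2) ^ 2 := by
    rw [← exp_add, sq, ← exp_add, add_halves]
  rw [e1, e2, e3]
  nlinarith [sq_nonneg (exp ((m + s) / 2) - exp ((-m + t) / 2))]

theorem Cpl.h3 (h : Good ρ R) (c : Cpl (sm ρ)) (ξ : Fin n → ℝ) :
    ∫ w, exp (∑ i, ξ i * c.u i w) ∂c.P ≤ exp (c.L / 2 + log 4 + 3 / 16 * ∑ i, ξ i ^ 2) := by
  have := c.prob
  obtain ⟨η, hη⟩ : ∃ η : E n, ∀ i, η i = ξ i / 2 := ⟨WithLp.toLp 2 fun i => ξ i / 2, fun _ => rfl⟩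
  have e1 : ∀ w, ∑ i, ξ i * c.u i w = (⟪η, c.Y w⟫ + ⟪-η, c.X w⟫) / 2 := fun w => by
    rw [inner_neg_left, PiLp.inner_apply, PiLp.inner_apply, ← sub_eq_add_neg,
      ← Finset.sum_sub_distrib, Finset.sum_div]
    refine Finset.sum_congr rfl fun i _ => ?_
    simp only [Cpl.u, hη, RCLike.inner_apply, conj_trivial]
    ring
  have e2 : 3 / 4 * ‖η‖ ^ 2 = 3 / 16 * ∑ i, ξ i ^ 2 := by
    rw [EuclideanSpace.real_norm_sq_eq, Finset.mul_sum, Finset.mul_sum]
    refine Finset.sum_congr rfl fun i _ => ?_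
    rw [hη]
    ring
  have iY : Integrable (fun w => exp ⟪η, c.Y w⟫) c.P :=
    (c.bm (φ := fun p => exp ⟪η, p.2⟫) (by fun_prop)).integrable
  have iX : Integrable (fun w => exp ⟪-η, c.X w⟫) c.P :=
    (c.bm (φ := fun p => exp ⟪-η, p.1⟫) (by fun_prop)).integrable
  have hY := cj_mgf h c.hb c.lawY η
  have hX := cj_mgf h c.ha c.lawX (-η)
  rw [norm_neg] at hX
  rw [e2] at hX hY
  obtain ⟨m, hm⟩ : ∃ m, m = (log c.a - log c.b) / 2 := ⟨_, rfl⟩
  have e3 : exp m * c.b = exp (c.L / 2) := by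
    conv_lhs => rw [← exp_log c.hb]
    rw [← exp_add, hm, Cpl.L]
    ring_nf
  have e4 : exp (-m) * c.a = exp (c.L / 2) := by
    conv_lhs => rw [← exp_log c.ha]
    rw [← exp_add, hm, Cpl.L]
    ring_nf
  simp only [e1]
  refine (integral_mono_of_nonneg (ae_of_all _ fun w => (exp_pos _).le)
    (((iY.const_mul (exp m)).add (iX.const_mul (exp (-m)))).div_const 2)
    (ae_of_all _ fun w => cj_amgm _ _ m)).trans ?_
  simp only [Pi.add_apply]
  rw [integral_div, integral_add (iY.const_mul _) (iX.const_mul _), integral_const_mul,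
    integral_const_mul, exp_add, exp_add, exp_log (by norm_num)]
  have h1 := mul_le_mul_of_nonneg_left hY (exp_pos m).le
  have h2 := mul_le_mul_of_nonneg_left hX (exp_pos (-m)).le
  rw [← mul_assoc, e3] at h1
  rw [← mul_assoc, e4] at h2
  linarith

end Vale.Agent.P245
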