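import Vale.Agent.P245.Basic

/-! Gaussian integrals on `E n`.

Plan.  `GaussianFourier.integral_rexp_neg_mul_sq_norm` gives
`∫ exp (-b ‖v‖^2) = (π / b) ^ (finrank / 2)`; integrability from a nonzero integral
(`Integrable.of_integral_ne_zero`).  Complete the square:
`-‖x-u‖²/2 + ⟪v, x-u⟫ = -‖x-(u+v)‖²/2 + ‖v‖²/2`, then `integral_sub_right_eq_self`.
`integral_gau_scale`: substitute `η = z + s • g` (`integral_add_left_eq_self`,
`Measure.integral_comp_smul`). -/

open MeasureTheory Real Set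
open scoped RealInnerProductSpace

namespace Vale.Agent.P245

variable {n : ℕ}

theorem gauss_base {b : ℝ} (hb : 0 < b) : ∫ x : E n, exp (-b * ‖x‖ ^ 2) = √(π / b) ^ n := by
  rw [GaussianFourier.integral_rexp_neg_mul_sq_norm hb, finrank_euclideanSpace_fin,
    sqrt_eq_rpow, ← rpow_natCast, ← rpow_mul (by positivity)]
  congr 1
  ring

theorem gauss_half : ∫ x : E n, exp (-‖x‖ ^ 2 / 2) = cn n := by
  have h := gauss_base (n := n) (b := 1 / 2) (by norm_num)
  rw [show π / (1 / 2) = 2 * π by ring] at h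
  rw [cn, ← h]
  congr 1
  ext x
  congr 1
  ring

theorem cn_pos (n : ℕ) : 0 < cn n := by
  unfold cn
  positivity

theorem cn_sq (n : ℕ) : cn n ^ 2 = (2 * π) ^ n := by
  rw [cn, ← pow_mul, mul_comm n, pow_mul, sq_sqrt (by positivity)]

theorem gau_pos (x : E n) : 0 < gau x := by
  exact div_pos (exp_pos _) (cn_pos n)

theorem gau_le (x : E n) : gau x ≤ (cn n)⁻¹ := by
  rw [gau, ← one_div]
  refine div_le_div_of_nonneg_right (exp_le_one_iff.2 ?_) (cn_pos n).le
  linarith [sq_nonneg ‖x‖]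

@[fun_prop]
theorem continuous_gau : Continuous (gau : E n → ℝ) := by
  unfold gau
  fun_prop

theorem integral_gauss (u v : E n) :
    ∫ x, exp (-‖x - u‖ ^ 2 / 2 + ⟪v, x - u⟫) = cn n * exp (‖v‖ ^ 2 / 2) := by
  have h : ∀ x : E n, exp (-‖x - u‖ ^ 2 / 2 + ⟪v, x - u⟫) =
      exp (-‖x - (u + v)‖ ^ 2 / 2) * exp (‖v‖ ^ 2 / 2) := by
    intro x
    rw [← exp_add, ← sub_sub, norm_sub_sq_real (x - u), real_inner_comm]
    congr 1
    ring
  simp only [h]
  rw [integral_mul_const, integral_sub_right_eq_self (fun x : E n => exp (-‖x‖ ^ 2 / 2)),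
    gauss_half]

theorem integrable_gauss (u v : E n) :
    Integrable fun x : E n => exp (-‖x - u‖ ^ 2 / 2 + ⟪v, x - u⟫) := by
  refine Integrable.of_integral_ne_zero ?_
  rw [integral_gauss]
  exact (mul_pos (cn_pos n) (exp_pos _)).ne'

theorem integral_gau (u : E n) : ∫ x, gau (x - u) = 1 := by
  rw [integral_sub_right_eq_self]
  unfold gau
  rw [integral_div, gauss_half, div_self (cn_pos n).ne']

theorem integrable_gau (u : E n) : Integrable fun x : E n => gau (x - u) := by
  exact Integrable.of_integral_ne_zero (by rw [integral_gau]; exact one_ne_zero)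

theorem integral_gau_exp (u ξ : E n) :
    ∫ x, gau (x - u) * exp ⟪ξ, x⟫ = exp (‖ξ‖ ^ 2 / 2) * exp ⟪ξ, u⟫ := by
  have h : ∀ x : E n, gau (x - u) * exp ⟪ξ, x⟫ =
      exp (-‖x - u‖ ^ 2 / 2 + ⟪ξ, x - u⟫) * (exp ⟪ξ, u⟫ / cn n) := by
    intro x
    rw [gau, inner_sub_right, exp_add, exp_sub]
    field_simp
  have := (cn_pos n).ne'
  simp only [h]
  rw [integral_mul_const, integral_gauss]
  field_simp

theorem gauss_sq : ∫ g : E n, gau g * exp (‖g‖ ^ 2 / 16) = √(π / (7 / 16)) ^ n / cn n := by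
  rw [← gauss_base (by norm_num), ← integral_div]
  congr 1
  ext x
  rw [gau, div_mul_eq_mul_div, ← exp_add]
  congr 2
  ring

theorem integrable_gau_sq : Integrable fun g : E n => gau g * exp (‖g‖ ^ 2 / 16) := by
  refine Integrable.of_integral_ne_zero ?_
  rw [gauss_sq]
  exact (div_pos (by positivity) (cn_pos n)).ne'

theorem integral_gau_sq : ∫ g : E n, gau g * exp (‖g‖ ^ 2 / 16) ≤ exp n := by
  rw [gauss_sq, cn, ← div_pow, ← mul_one (n : ℝ), exp_nat_mul]
  refine pow_le_pow_left₀ (by positivity) ?_ n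
  rw [← sqrt_div (by positivity)]
  refine (sqrt_le_iff.2 ⟨zero_le_two, ?_⟩).trans (by linarith [add_one_le_exp 1])
  rw [div_le_iff₀ (by positivity), div_le_iff₀ (by positivity)]
  linarith [pi_pos]

theorem integral_gau_scale {s : ℝ} (hs : 0 < s) (H : E n → ℝ) (z : E n) :
    ∫ η, H η * exp (-‖z - η‖ ^ 2 / (2 * s ^ 2)) = s ^ n * cn n * ∫ g, H (z + s • g) * gau g := by
  have h1 := Measure.integral_comp_smul (volume : Measure (E n))
    (fun η => H (z + η) * exp (-‖η‖ ^ 2 / (2 * s ^ 2))) s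
  rw [finrank_euclideanSpace_fin, abs_of_pos (by positivity), smul_eq_mul] at h1
  have h2 : ∀ g : E n, H (z + s • g) * gau g =
      H (z + s • g) * exp (-‖s • g‖ ^ 2 / (2 * s ^ 2)) / cn n := by
    intro g
    rw [gau, mul_div_assoc, norm_smul, mul_pow, Real.norm_eq_abs, sq_abs]
    congr 3
    field_simp
  have := (cn_pos n).ne'
  simp only [h2]
  rw [integral_div, h1, ← integral_add_left_eq_self _ z]
  simp only [sub_add_cancel_left, norm_neg]
  field_simp

end Vale.Agent.P245
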