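import Vale.Agent.P245.Basic
import Vale.Agent.P074.Quantile

/-! The Prekopa-Leindler inequality with a general weight `t`.

Plan.
* `pl_one`: if both integrals are finite and nonzero, normalise `α = f / ∫ f`, `β = g / ∫ g`, take
  the quantile maps `X, X'` of `P074.exists_quantile`, `Z = (1-t) X + t X'` is monotone with
  derivative `(1-t)/α + t/β ≥ α^(-(1-t)) β^(-t)` (weighted AM-GM); copy the proof of
  `P074.apl_real` (file `Vale/Agent/P074/APL.lean`,
  `lintegral_image_eq_lintegral_deriv_mul_of_monotoneOn`).  Infinite integrals: truncate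
  `f_k = min f k * 1_{|x| ≤ k}` and use `lintegral_iSup` (monotone convergence).
* `pl_lin`: induction over `Fin d → ℝ` with Fubini as in `apl_prod`, `apl_equiv`, `apl_pi`,
  `apl_euclidean` (the sections may have infinite integrals, which `pl_one` allows).
* `pl`, `pl_half`: `ofReal_integral_eq_lintegral_ofReal`, `ENNReal.ofReal_rpow_of_nonneg`. -/

open MeasureTheory Real Set
open scoped RealInnerProductSpace ENNReal

namespace Vale.Agent.P245

variable {n : ℕ}

theorem pl_amgm {t : ℝ} (h0 : 0 < t) (h1 : t < 1) {p q : ℝ≥0∞} (p0 : p ≠ 0) (p1 : p ≠ ∞)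
    (q0 : q ≠ 0) (q1 : q ≠ ∞) :
    1 ≤ ENNReal.ofReal ((1 - t) * p.toReal⁻¹ + t * q.toReal⁻¹) * (p ^ (1 - t) * q ^ t) := by
  have hP : 0 < p.toReal := ENNReal.toReal_pos p0 p1
  have hQ : 0 < q.toReal := ENNReal.toReal_pos q0 q1
  have ht : 0 < 1 - t := sub_pos.2 h1
  have key := Real.geom_mean_le_arith_mean2_weighted ht.le h0.le (inv_pos.2 hP).le
    (inv_pos.2 hQ).le (sub_add_cancel 1 t)
  have e1 : p = ENNReal.ofReal p.toReal := (ENNReal.ofReal_toReal p1).symm
  have e2 : q = ENNReal.ofReal q.toReal := (ENNReal.ofReal_toReal q1).symm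
  generalize p.toReal = P at *
  generalize q.toReal = Q at *
  rw [e1, e2, ENNReal.ofReal_rpow_of_pos hP, ENNReal.ofReal_rpow_of_pos hQ,
    ← ENNReal.ofReal_mul (by positivity), ← ENNReal.ofReal_mul (by positivity),
    ENNReal.one_le_ofReal]
  refine le_trans (le_of_eq ?_) (mul_le_mul_of_nonneg_right key (by positivity))
  rw [Real.inv_rpow hP.le, Real.inv_rpow hQ.le]
  have := (Real.rpow_pos_of_pos hP (1 - t)).ne'
  have := (Real.rpow_pos_of_pos hQ t).ne'
  field_simp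

theorem pl_fin {t : ℝ} (h0 : 0 < t) (h1 : t < 1) {f g h : ℝ → ℝ≥0∞} (mf : Measurable f)
    (mg : Measurable g) (jf : ∫⁻ x, f x ≠ ∞) (jg : ∫⁻ x, g x ≠ ∞)
    (H : ∀ x y, f x ^ (1 - t) * g y ^ t ≤ h ((1 - t) • x + t • y)) :
    (∫⁻ x, f x) ^ (1 - t) * (∫⁻ x, g x) ^ t ≤ ∫⁻ x, h x := by
  have ht : 0 < 1 - t := sub_pos.2 h1
  set a := ∫⁻ x, f x with ha
  set b := ∫⁻ x, g x with hb
  by_cases a0 : a = 0
  · simp [a0, ENNReal.zero_rpow_of_pos ht]
  by_cases b0 : b = 0
  · simp [b0, ENNReal.zero_rpow_of_pos h0]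
  obtain ⟨X, hXm, -, hXd⟩ := P074.exists_quantile (fun x => f x * a⁻¹) (mf.mul_const _)
    (by rw [lintegral_mul_const _ mf, ENNReal.mul_inv_cancel a0 jf])
  obtain ⟨Y, hYm, -, hYd⟩ := P074.exists_quantile (fun x => g x * b⁻¹) (mg.mul_const _)
    (by rw [lintegral_mul_const _ mg, ENNReal.mul_inv_cancel b0 jg])
  have hall := hXd.and hYd
  rw [ae_restrict_iff' measurableSet_Ioo] at hall
  obtain ⟨N, hNsub, hNm, hN0⟩ := exists_measurable_superset_of_null hall
  set S : Set ℝ := Ioo 0 1 \ N with hS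
  have hSm : MeasurableSet S := measurableSet_Ioo.diff hNm
  have good := fun s (hs : s ∈ S) => of_not_not (mt (@hNsub s) hs.2) hs.1
  have hSeq : volume.restrict S = volume.restrict (Ioo (0 : ℝ) 1) :=
    Measure.restrict_congr_set (sdiff_null_ae_eq_self hN0)
  have e3 := lintegral_image_eq_lintegral_deriv_mul_of_monotoneOn hSm
    (f := fun s => (1 - t) * X s + t * Y s)
    (f' := fun s => (1 - t) * (f (X s) * a⁻¹).toReal⁻¹ + t * (g (Y s) * b⁻¹).toReal⁻¹)
    (fun s hs => (((good s hs).1.2.2.const_mul _).add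
      ((good s hs).2.2.2.const_mul _)).hasDerivWithinAt)
    (fun s hs s' hs' hss => add_le_add (mul_le_mul_of_nonneg_left (hXm hs.1 hs'.1 hss) ht.le)
      (mul_le_mul_of_nonneg_left (hYm hs.1 hs'.1 hss) h0.le)) h
  calc a ^ (1 - t) * b ^ t = ∫⁻ _ in S, a ^ (1 - t) * b ^ t := by
        rw [lintegral_const, hSeq]
        simp
    _ ≤ _ := by
        refine setLIntegral_mono' hSm fun s hs => ?_
        obtain ⟨⟨p0, p1, -⟩, q0, q1, -⟩ := good s hs
        refine le_trans ?_ (mul_le_mul_right (H (X s) (Y s)) _)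
        have e1 : f (X s) = f (X s) * a⁻¹ * a := by
          rw [mul_assoc, ENNReal.inv_mul_cancel a0 jf, mul_one]
        have e2 : g (Y s) = g (Y s) * b⁻¹ * b := by
          rw [mul_assoc, ENNReal.inv_mul_cancel b0 jg, mul_one]
        have key := mul_le_mul_left (pl_amgm h0 h1 p0 p1 q0 q1) (a ^ (1 - t) * b ^ t)
        generalize f (X s) * a⁻¹ = p at *
        generalize g (Y s) * b⁻¹ = q at *
        rw [e1, e2, ENNReal.mul_rpow_of_nonneg _ _ ht.le, ENNReal.mul_rpow_of_nonneg _ _ h0.le,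
          mul_mul_mul_comm, ← mul_assoc]
        rwa [one_mul] at key
    _ ≤ ∫⁻ x, h x := e3.symm.le.trans (setLIntegral_le_lintegral _ _)

theorem pl_trunc {f : ℝ → ℝ≥0∞} (mf : Measurable f) : ∃ F : ℕ → ℝ → ℝ≥0∞,
    (∀ k, Measurable (F k)) ∧ (∀ k x, F k x ≤ f x) ∧ (∀ k, ∫⁻ x, F k x ≠ ∞) ∧
      ∫⁻ x, f x = ⨆ k, ∫⁻ x, F k x := by
  have hm : ∀ k : ℕ, Measurable ((Icc (-k : ℝ) k).indicator fun x => min (f x) k) := fun k =>
    (mf.min measurable_const).indicator measurableSet_Icc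
  have hle : ∀ (k : ℕ) x, (Icc (-k : ℝ) k).indicator (fun x => min (f x) k) x ≤ f x :=
    fun k x => (indicator_le_self _ _ x).trans (min_le_left _ _)
  refine ⟨fun k => (Icc (-k : ℝ) k).indicator fun x => min (f x) k, hm, hle, fun k => ?_, ?_⟩
  · rw [lintegral_indicator measurableSet_Icc]
    refine ne_top_of_le_ne_top ?_ (lintegral_mono fun x => min_le_right (f x) k)
    rw [setLIntegral_const]
    exact ENNReal.mul_ne_top (ENNReal.natCast_ne_top k) measure_Icc_lt_top.ne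
  · rw [← lintegral_iSup hm fun k l hkl => ?_]
    · refine lintegral_congr fun x => le_antisymm (le_of_forall_lt fun c hc => ?_)
        (iSup_le fun k => hle k x)
      obtain ⟨k, hk⟩ := ENNReal.exists_nat_gt hc.ne_top
      obtain ⟨l, hl⟩ := exists_nat_ge |x|
      refine lt_of_lt_of_le ?_ (le_iSup _ (k + l))
      have h1 : |x| ≤ ((k + l : ℕ) : ℝ) := hl.trans (Nat.cast_le.2 (Nat.le_add_left l k))
      rw [indicator_of_mem (mem_Icc.2 (abs_le.1 h1))]
      exact lt_min hc (hk.trans_le (Nat.cast_le.2 (Nat.le_add_right k l)))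
    · have h1 : (k : ℝ) ≤ l := Nat.cast_le.2 hkl
      exact indicator_le_indicator_of_subset (Icc_subset_Icc (neg_le_neg h1) h1)
        (fun _ => zero_le) |>.trans fun x =>
          indicator_le_indicator (min_le_min_left _ (Nat.cast_le.2 hkl))

theorem pl_one {t : ℝ} (h0 : 0 < t) (h1 : t < 1) {f g h : ℝ → ℝ≥0∞} (mf : Measurable f)
    (mg : Measurable g) (mh : Measurable h)
    (H : ∀ x y, f x ^ (1 - t) * g y ^ t ≤ h ((1 - t) • x + t • y)) :
    (∫⁻ x, f x) ^ (1 - t) * (∫⁻ x, g x) ^ t ≤ ∫⁻ x, h x := by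
  have _ := mh
  have ht : 0 < 1 - t := sub_pos.2 h1
  obtain ⟨F, mF, lF, jF, eF⟩ := pl_trunc mf
  obtain ⟨G, mG, lG, jG, eG⟩ := pl_trunc mg
  have e1 := (ENNReal.orderIsoRpow (1 - t) ht).map_iSup fun k => ∫⁻ x, F k x
  have e2 := (ENNReal.orderIsoRpow t h0).map_iSup fun k => ∫⁻ x, G k x
  simp only [ENNReal.orderIsoRpow_apply] at e1 e2
  rw [eF, eG, e1, e2, ENNReal.iSup_mul]
  refine iSup_le fun k => ?_
  rw [ENNReal.mul_iSup]
  refine iSup_le fun l => pl_fin h0 h1 (mF k) (mG l) (jF k) (jG l) fun x y => le_trans ?_ (H x y)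
  exact mul_le_mul' (ENNReal.rpow_le_rpow (lF k x) ht.le) (ENNReal.rpow_le_rpow (lG l y) h0.le)

/-- the inequality for a measure on a real vector space -/
def PLt (t : ℝ) {V : Type} [MeasurableSpace V] [AddCommGroup V] [Module ℝ V] (m : Measure V) :
    Prop :=
  ∀ f g h : V → ℝ≥0∞, Measurable f → Measurable g → Measurable h →
    (∀ x y, f x ^ (1 - t) * g y ^ t ≤ h ((1 - t) • x + t • y)) →
    (∫⁻ x, f x ∂m) ^ (1 - t) * (∫⁻ x, g x ∂m) ^ t ≤ ∫⁻ x, h x ∂m

theorem PLt.prod {t : ℝ} {V W : Type} [MeasurableSpace V] [AddCommGroup V] [Module ℝ V]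
    [MeasurableSpace W] [AddCommGroup W] [Module ℝ W] {m : Measure V} {m' : Measure W}
    [SFinite m'] (hm : PLt t m) (hm' : PLt t m') : PLt t (m.prod m') := by
  intro f g h mf mg mh H
  rw [lintegral_prod _ mf.aemeasurable, lintegral_prod _ mg.aemeasurable,
    lintegral_prod _ mh.aemeasurable]
  exact hm _ _ _ mf.lintegral_prod_right' mg.lintegral_prod_right' mh.lintegral_prod_right'
    fun x y => hm' _ _ _ (mf.comp measurable_prodMk_left) (mg.comp measurable_prodMk_left)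
      (mh.comp measurable_prodMk_left) fun u v => H (x, u) (y, v)

theorem PLt.equiv {t : ℝ} {V W : Type} [MeasurableSpace V] [AddCommGroup V] [Module ℝ V]
    [MeasurableSpace W] [AddCommGroup W] [Module ℝ W] {m : Measure V} {m' : Measure W}
    {e : V → W} (he : MeasurePreserving e m m')
    (hlin : ∀ x y, e ((1 - t) • x + t • y) = (1 - t) • e x + t • e y) (hm : PLt t m) :
    PLt t m' := by
  intro f g h mf mg mh H
  rw [← he.lintegral_comp mf, ← he.lintegral_comp mg, ← he.lintegral_comp mh]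
  exact hm _ _ _ (mf.comp he.measurable) (mg.comp he.measurable) (mh.comp he.measurable)
    fun x y => (H (e x) (e y)).trans_eq (congrArg h (hlin x y).symm)

theorem pl_pi {t : ℝ} (h0 : 0 < t) (h1 : t < 1) (d : ℕ) :
    PLt t (volume : Measure (Fin d → ℝ)) := by
  induction d with
  | zero =>
    intro f g h _ _ _ H
    rw [Measure.volume_pi_eq_dirac 0]
    simpa using H 0 0
  | succ d ih =>
    have hp := PLt.prod (m := (volume : Measure ℝ))
      (fun _ _ _ mf mg mh H => pl_one h0 h1 mf mg mh H) ih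
    refine PLt.equiv (volume_preserving_piFinSuccAbove (fun _ : Fin (d + 1) => ℝ) 0).symm
      (fun x y => ?_) hp
    apply (MeasurableEquiv.piFinSuccAbove (fun _ : Fin (d + 1) => ℝ) 0).injective
    rw [MeasurableEquiv.apply_symm_apply]
    ext
    · simp [MeasurableEquiv.piFinSuccAbove]
    · simp [MeasurableEquiv.piFinSuccAbove, Fin.tail]

theorem pl_lin {t : ℝ} (h0 : 0 < t) (h1 : t < 1) {f g h : E n → ℝ≥0∞} (mf : Measurable f)
    (mg : Measurable g) (mh : Measurable h)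
    (H : ∀ x y, f x ^ (1 - t) * g y ^ t ≤ h ((1 - t) • x + t • y)) :
    (∫⁻ x, f x) ^ (1 - t) * (∫⁻ x, g x) ^ t ≤ ∫⁻ x, h x := by
  exact PLt.equiv (PiLp.volume_preserving_toLp (Fin n)) (fun x y => by simp) (pl_pi h0 h1 n)
    f g h mf mg mh H

theorem pl {t : ℝ} (h0 : 0 < t) (h1 : t < 1) {f g h : E n → ℝ} (mf : Measurable f)
    (mg : Measurable g) (mh : Measurable h) (f0 : ∀ x, 0 ≤ f x) (g0 : ∀ x, 0 ≤ g x)
    (jf : Integrable f) (jg : Integrable g) (jh : Integrable h)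
    (H : ∀ x y, f x ^ (1 - t) * g y ^ t ≤ h ((1 - t) • x + t • y)) :
    (∫ x, f x) ^ (1 - t) * (∫ x, g x) ^ t ≤ ∫ x, h x := by
  have ht : 0 < 1 - t := sub_pos.2 h1
  have hh : ∀ x, 0 ≤ h x := fun x => by
    have := H x x
    rw [← add_smul, sub_add_cancel, one_smul] at this
    exact (mul_nonneg (Real.rpow_nonneg (f0 x) _) (Real.rpow_nonneg (g0 x) _)).trans this
  have key := pl_lin h0 h1 mf.ennreal_ofReal mg.ennreal_ofReal mh.ennreal_ofReal fun x y => by
    rw [ENNReal.ofReal_rpow_of_nonneg (f0 x) ht.le, ENNReal.ofReal_rpow_of_nonneg (g0 y) h0.le,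
      ← ENNReal.ofReal_mul (Real.rpow_nonneg (f0 x) _)]
    exact ENNReal.ofReal_le_ofReal (H x y)
  rwa [← ofReal_integral_eq_lintegral_ofReal jf (ae_of_all _ f0),
    ← ofReal_integral_eq_lintegral_ofReal jg (ae_of_all _ g0),
    ← ofReal_integral_eq_lintegral_ofReal jh (ae_of_all _ hh),
    ENNReal.ofReal_rpow_of_nonneg (integral_nonneg f0) ht.le,
    ENNReal.ofReal_rpow_of_nonneg (integral_nonneg g0) h0.le,
    ← ENNReal.ofReal_mul (Real.rpow_nonneg (integral_nonneg f0) _),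
    ENNReal.ofReal_le_ofReal_iff (integral_nonneg hh)] at key

theorem pl_half {f g h : E n → ℝ} (mf : Measurable f) (mg : Measurable g) (mh : Measurable h)
    (f0 : ∀ x, 0 ≤ f x) (g0 : ∀ x, 0 ≤ g x) (h0 : ∀ x, 0 ≤ h x)
    (jf : Integrable f) (jg : Integrable g) (jh : Integrable h)
    (H : ∀ x y, f x * g y ≤ h (mid x y) ^ 2) : (∫ x, f x) * (∫ x, g x) ≤ (∫ x, h x) ^ 2 := by
  have e : (1 - 1 / 2 : ℝ) = 1 / 2 := by norm_num
  have key := pl (t := 1 / 2) (by norm_num) (by norm_num) mf mg mh f0 g0 jf jg jh fun x y => by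
    rw [e, ← Real.mul_rpow (f0 x) (g0 y), ← Real.sqrt_eq_rpow, ← smul_add]
    exact Real.sqrt_le_iff.2 ⟨h0 _, H x y⟩
  rw [e, ← Real.mul_rpow (integral_nonneg f0) (integral_nonneg g0), ← Real.sqrt_eq_rpow] at key
  exact (Real.sqrt_le_iff.1 key).2

end Vale.Agent.P245
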