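import Vale.Agent.P245.Br
import Vale.Agent.P245.PL
import Vale.Agent.P245.Gauss

/-! Displacement convexity without the Monge-Ampere equation.

Plan for `dc_gauss` (`ε = s ^ 2`).  Let
`F₀ x = ‖x - η‖² / (2ε) + t (Φ x - ‖x‖²/2) / ε`, `F₁ y = ‖y - η‖² / (2ε) + (1-t) (Ψ y - ‖y‖²/2) / ε`.
For `‖x‖, ‖y‖ ≤ R` and `z = (1-t) x + t y`: `(1-t) F₀ x + t F₁ y ≥ ‖z - η‖² / (2ε)`, with equality at
`y = T x` almost everywhere (`(1-t)‖x-η‖² + t‖y-η‖² = ‖z-η‖² + t(1-t)‖x-y‖²`).
`pl` for `ρ exp (-F₀)`, `ρ exp (-F₁)`, `ρ exp (-‖· - η‖²/(2ε))` (`Good.lc`, `Good.supp`, `integral_mea`)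
gives `I₀^(1-t) I₁^t ≤` right side, `I₀ = ∫ exp (-F₀) dμ`, `I₁ = ∫ exp (-F₁) dμ = ∫ exp (-F₁ (T x)) p dμ`
(`Br.law`).  Hoelder through weighted AM-GM (`Real.geom_mean_le_arith_mean2_weighted` applied to
`exp (-F₀ x) / I₀` and `exp (-F₁ (T x)) p x / I₁`) gives left side `≤ I₀^(1-t) I₁^t`.
Plan for `dc`.  Multiply `dc_gauss` by `H η`, integrate in `η`, swap (Fubini) and use
`integral_gau_scale`: `∫ H_s (x_t) p^t dμ ≤ ∫ H_s dμ` with `H_s z = ∫ H (z + s • g) gau g`.
As `s = 1/(k+1) → 0`, `H_s z → H z` with `0 ≤ H_s ≤ C` (dominated convergence three times). -/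

open MeasureTheory Real Set
open scoped RealInnerProductSpace

namespace Vale.Agent.P245

variable {n : ℕ} {ρ : E n → ℝ} {R : ℝ} {p : E n → ℝ} {T : E n → E n} {Φ Ψ : E n → ℝ} {t : ℝ}

theorem dc_norm (t : ℝ) (x y η : E n) : ‖((1 - t) • x + t • y) - η‖ ^ 2 =
    (1 - t) * ‖x - η‖ ^ 2 + t * ‖y - η‖ ^ 2 - t * (1 - t) * (‖x‖ ^ 2 - 2 * ⟪x, y⟫ + ‖y‖ ^ 2) := by
  have e1 : ((1 - t) • x + t • y) - η = (1 - t) • (x - η) + t • (y - η) := by module
  have e2 : x - y = (x - η) - (y - η) := by abel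
  rw [← norm_sub_sq_real, e1, e2, norm_add_sq_real, norm_sub_sq_real (x - η), norm_smul, norm_smul,
    inner_smul_left, inner_smul_right, mul_pow, mul_pow, Real.norm_eq_abs, Real.norm_eq_abs, sq_abs,
    sq_abs]
  simp only [conj_trivial]
  ring

theorem dc_vol (h : Good ρ R) {φ : E n → ℝ} (hφ : Continuous φ) : Integrable fun x => ρ x * φ x := by
  have := (integrable_withDensity_iff_integrable_smul' h.nice.1.ennreal_ofReal (by simp)).1
    (h.integrable hφ)
  simpa [h.nonneg] using this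

theorem dc_int (h : Good ρ R) (hb : Br ρ R p T Φ Ψ) {φ : E n × E n → ℝ} (hφ : Continuous φ) :
    Integrable (fun x => φ (x, T x)) (mea ρ) := by
  have := h.prob
  obtain ⟨C, hC⟩ :=
    (isCompact_closedBall (0 : E n × E n) R).exists_bound_of_continuousOn hφ.continuousOn
  refine Integrable.of_bound (hφ.measurable.comp (measurable_id.prodMk hb.mT)).aestronglyMeasurable
    C ?_
  filter_upwards [h.ae, hb.sat] with x h1 h2 using
    hC _ (mem_closedBall_zero_iff.2 (norm_prod_le_iff.2 ⟨h1, h2.1⟩))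

theorem dc_gauss (h : Good ρ R) (cp : Continuous p) (p0 : ∀ x, 0 < p x) (hb : Br ρ R p T Φ Ψ)
    (h0 : 0 < t) (h1 : t < 1) {s : ℝ} (hs : 0 < s) (η : E n) :
    ∫ x, exp (-‖((1 - t) • x + t • T x) - η‖ ^ 2 / (2 * s ^ 2)) * p x ^ t ∂mea ρ ≤
      ∫ z, exp (-‖z - η‖ ^ 2 / (2 * s ^ 2)) ∂mea ρ := by
  have := h.prob
  obtain ⟨F, hF⟩ : ∃ F : E n → ℝ,
    F = fun x => -(‖x - η‖ ^ 2 / (2 * s ^ 2) + t * (Φ x - ‖x‖ ^ 2 / 2) / s ^ 2) := ⟨_, rfl⟩
  obtain ⟨G, hG⟩ : ∃ G : E n → ℝ,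
    G = fun y => -(‖y - η‖ ^ 2 / (2 * s ^ 2) + (1 - t) * (Ψ y - ‖y‖ ^ 2 / 2) / s ^ 2) := ⟨_, rfl⟩
  have cF : Continuous F := by have := hb.cΦ; rw [hF]; fun_prop
  have cG : Continuous G := by have := hb.cΨ; rw [hG]; fun_prop
  have hid : ∀ x y, F x * (1 - t) + G y * t = -‖((1 - t) • x + t • y) - η‖ ^ 2 / (2 * s ^ 2) -
      t * (1 - t) * (Φ x + Ψ y - ⟪x, y⟫) / s ^ 2 := fun x y => by
    rw [dc_norm, hF, hG]
    field_simp
    ring
  have h1' : 0 < 1 - t := by linarith
  have hP := pl h0 h1 (f := fun x => ρ x * exp (F x)) (g := fun x => ρ x * exp (G x))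
    (h := fun z => ρ z * exp (-‖z - η‖ ^ 2 / (2 * s ^ 2)))
    (h.nice.1.mul cF.measurable.exp) (h.nice.1.mul cG.measurable.exp)
    (h.nice.1.mul (by fun_prop)) (fun x => mul_nonneg (h.nonneg x) (exp_pos _).le)
    (fun x => mul_nonneg (h.nonneg x) (exp_pos _).le) (dc_vol h (by fun_prop))
    (dc_vol h (by fun_prop)) (dc_vol h (by fun_prop)) fun x y => by
      by_cases hx : R < ‖x‖
      · simp only [h.supp x hx, zero_mul, zero_rpow h1'.ne']
        exact mul_nonneg (h.nonneg _) (exp_pos _).le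
      by_cases hy : R < ‖y‖
      · simp only [h.supp y hy, zero_mul, zero_rpow h0.ne', mul_zero]
        exact mul_nonneg (h.nonneg _) (exp_pos _).le
      rw [mul_rpow (h.nonneg _) (exp_pos _).le, mul_rpow (h.nonneg _) (exp_pos _).le,
        mul_mul_mul_comm, ← exp_mul, ← exp_mul, ← exp_add, hid]
      refine mul_le_mul (h.lc x y t h0 h1) (exp_le_exp.2 (sub_le_self _ ?_)) (exp_pos _).le
        (h.nonneg _)
      have := sub_nonneg.2 (hb.dual x y (not_lt.1 hx) (not_lt.1 hy))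
      positivity
  rw [← integral_mea h.nice.1 h.nonneg, ← integral_mea h.nice.1 h.nonneg,
    ← integral_mea h.nice.1 h.nonneg] at hP
  refine le_trans ?_ hP
  have iF : Integrable (fun x => exp (F x)) (mea ρ) := h.integrable (by fun_prop)
  have iG : Integrable (fun x => exp (G (T x)) * p x) (mea ρ) :=
    dc_int h hb (φ := fun q => exp (G q.2) * p q.1) (by fun_prop)
  have a0 : 0 < ∫ x, exp (F x) ∂mea ρ := integral_exp_pos iF
  have b0 : 0 < ∫ x, exp (G x) ∂mea ρ := integral_exp_pos (h.integrable (by fun_prop))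
  have law := hb.law (fun y => exp (G y)) cG.measurable.exp
  generalize ∫ x, exp (G x) ∂mea ρ = b at *
  obtain ⟨a, ha⟩ : ∃ a, a = ∫ x, exp (F x) ∂mea ρ := ⟨_, rfl⟩
  rw [← ha] at a0 ⊢
  have e : ∫ x, a ^ (1 - t) * b ^ t * ((1 - t) * (exp (F x) / a) + t * (exp (G (T x)) * p x / b))
      ∂mea ρ = a ^ (1 - t) * b ^ t := by
    rw [integral_const_mul, integral_add ((iF.div_const a).const_mul _)
      ((iG.div_const b).const_mul _), integral_const_mul, integral_const_mul, integral_div,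
      integral_div, law, ← ha, div_self a0.ne', div_self b0.ne']
    ring
  rw [← e]
  refine integral_mono_of_nonneg (ae_of_all _ fun x => mul_nonneg (exp_pos _).le
    (rpow_nonneg (p0 x).le _)) ((((iF.div_const a).const_mul _).add
      ((iG.div_const b).const_mul _)).const_mul _) ?_
  filter_upwards [hb.sat] with x hx
  have c1 := geom_mean_le_arith_mean2_weighted h1'.le h0.le (div_pos (exp_pos (F x)) a0).le
    (div_pos (mul_pos (exp_pos (G (T x))) (p0 x)) b0).le (by ring)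
  refine le_trans (le_of_eq ?_) (mul_le_mul_of_nonneg_left c1 (by positivity))
  have c2 := hid x (T x)
  rw [hx.2, sub_self, mul_zero, zero_div, sub_zero] at c2
  rw [← c2, div_rpow (exp_pos _).le a0.le, div_rpow (mul_pos (exp_pos _) (p0 x)).le b0.le,
    mul_rpow (exp_pos _).le (p0 x).le, ← exp_mul, ← exp_mul, exp_add]
  have c3 := rpow_pos_of_pos a0 (1 - t)
  have c4 := rpow_pos_of_pos b0 t
  field_simp

theorem dc_gau0 : ∫ g : E n, gau g = 1 := by simpa using integral_gau (0 : E n)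

theorem dc_igau : Integrable (gau : E n → ℝ) := by simpa using integrable_gau (0 : E n)

theorem dc_swap {μ : Measure (E n)} [SFinite μ] {X : E n → E n} (mX : Measurable X) {w : E n → ℝ}
    (mw : Measurable w) (iw : Integrable w μ) {H : E n → ℝ} (cH : Continuous H) {C : ℝ}
    (bH : ∀ x, 0 ≤ H x ∧ H x ≤ C) {s : ℝ} (hs : 0 < s) :
    Integrable (fun η => H η * ∫ x, exp (-‖X x - η‖ ^ 2 / (2 * s ^ 2)) * w x ∂μ) ∧
      ∫ η, H η * ∫ x, exp (-‖X x - η‖ ^ 2 / (2 * s ^ 2)) * w x ∂μ =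
        s ^ n * cn n * ∫ x, (∫ g, H (X x + s • g) * gau g) * w x ∂μ := by
  have e1 : ∀ z : E n, ∫ η, exp (-‖z - η‖ ^ 2 / (2 * s ^ 2)) = s ^ n * cn n := fun z => by
    simpa [dc_gau0] using integral_gau_scale hs (fun _ => 1) z
  have i1 : ∀ z : E n, Integrable fun η => exp (-‖z - η‖ ^ 2 / (2 * s ^ 2)) := fun z =>
    Integrable.of_integral_ne_zero (by rw [e1]; exact (mul_pos (pow_pos hs n) (cn_pos n)).ne')
  have m1 : Measurable fun q : E n × E n => exp (-‖X q.1 - q.2‖ ^ 2 / (2 * s ^ 2)) * w q.1 := by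
    fun_prop
  have i2 : Integrable (fun q : E n × E n => exp (-‖X q.1 - q.2‖ ^ 2 / (2 * s ^ 2)) * w q.1)
      (μ.prod volume) := by
    refine (integrable_prod_iff m1.aestronglyMeasurable).2
      ⟨ae_of_all _ fun x => (i1 (X x)).mul_const (w x), ?_⟩
    simp only [norm_mul, Real.norm_eq_abs, abs_exp, integral_mul_const, e1]
    exact iw.abs.const_mul _
  have i3 : Integrable (fun q : E n × E n => H q.2 *
      (exp (-‖X q.1 - q.2‖ ^ 2 / (2 * s ^ 2)) * w q.1)) (μ.prod volume) :=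
    i2.bdd_mul (c := C) (cH.measurable.comp measurable_snd).aestronglyMeasurable
      (ae_of_all _ fun q => by rw [Real.norm_of_nonneg (bH _).1]; exact (bH _).2)
  simp only [← integral_const_mul (H _)]
  refine ⟨i3.integral_prod_right, ?_⟩
  rw [← integral_integral_swap (f := fun x η => H η * (exp (-‖X x - η‖ ^ 2 / (2 * s ^ 2)) * w x)) i3,
    ← integral_const_mul]
  refine integral_congr_ae (ae_of_all _ fun x => ?_)
  simp only [← mul_assoc, integral_mul_const, integral_gau_scale hs]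

theorem dc_lim {μ : Measure (E n)} {X : E n → E n} (mX : Measurable X) {w : E n → ℝ}
    (mw : Measurable w) (iw : Integrable w μ) {H : E n → ℝ} (cH : Continuous H) {C : ℝ}
    (bH : ∀ x, 0 ≤ H x ∧ H x ≤ C) :
    Filter.Tendsto (fun k : ℕ => ∫ x, (∫ g, H (X x + (1 / ((k : ℝ) + 1)) • g) * gau g) * w x ∂μ)
      Filter.atTop (nhds (∫ x, H (X x) * w x ∂μ)) := by
  have b1 : ∀ z g : E n, ‖H z * gau g‖ ≤ C * gau g := fun z g => by
    rw [Real.norm_of_nonneg (mul_nonneg (bH _).1 (gau_pos g).le)]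
    exact mul_le_mul_of_nonneg_right (bH _).2 (gau_pos g).le
  refine tendsto_integral_of_dominated_convergence (fun x => C * ‖w x‖) (fun k => ?_)
    (iw.norm.const_mul C) (fun k => ae_of_all _ fun x => ?_) (ae_of_all _ fun x => ?_)
  · have m : Measurable fun q : E n × E n => H (X q.1 + (1 / ((k : ℝ) + 1)) • q.2) * gau q.2 :=
      (cH.measurable.comp (by fun_prop)).mul (continuous_gau.measurable.comp measurable_snd)
    exact (m.stronglyMeasurable.integral_prod_right'.measurable.mul mw).aestronglyMeasurable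
  · rw [norm_mul]
    refine mul_le_mul_of_nonneg_right ?_ (norm_nonneg _)
    refine (norm_integral_le_of_norm_le (dc_igau.const_mul C) (ae_of_all _ fun g => b1 _ g)).trans ?_
    rw [integral_const_mul, dc_gau0, mul_one]
  · refine Filter.Tendsto.mul_const _ ?_
    have e : H (X x) = ∫ g : E n, H (X x) * gau g := by rw [integral_const_mul, dc_gau0, mul_one]
    rw [e]
    refine tendsto_integral_of_dominated_convergence (fun g => C * gau g)
      (fun k => Continuous.aestronglyMeasurable (by fun_prop)) (dc_igau.const_mul C)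
      (fun k => ae_of_all _ fun g => b1 _ g) (ae_of_all _ fun g => Filter.Tendsto.mul_const _ ?_)
    refine (cH.tendsto _).comp ?_
    simpa using ((tendsto_one_div_add_atTop_nhds_zero_nat (𝕜 := ℝ)).smul_const g).const_add (X x)

theorem dc (h : Good ρ R) (cp : Continuous p) (p0 : ∀ x, 0 < p x) (hb : Br ρ R p T Φ Ψ)
    (h0 : 0 < t) (h1 : t < 1) {H : E n → ℝ} (cH : Continuous H) {C : ℝ}
    (bH : ∀ x, 0 ≤ H x ∧ H x ≤ C) :
    ∫ x, H ((1 - t) • x + t • T x) * p x ^ t ∂mea ρ ≤ ∫ z, H z ∂mea ρ := by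
  have := h.prob
  have mT := hb.mT
  have mX : Measurable fun x => (1 - t) • x + t • T x := by fun_prop
  have cw : Continuous fun x => p x ^ t := cp.rpow_const fun x => Or.inr h0.le
  have l1 := dc_lim (μ := mea ρ) mX cw.measurable (h.integrable cw) cH bH
  have l2 := dc_lim (μ := mea ρ) measurable_id measurable_const (integrable_const (1 : ℝ)) cH bH
  simp only [mul_one, id] at l2
  refine le_of_tendsto_of_tendsto' l1 l2 fun k => ?_
  have hs : 0 < 1 / ((k : ℝ) + 1) := by positivity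
  obtain ⟨a1, a2⟩ := dc_swap (μ := mea ρ) mX cw.measurable (h.integrable cw) cH bH hs
  obtain ⟨b1, b2⟩ :=
    dc_swap (μ := mea ρ) measurable_id measurable_const (integrable_const (1 : ℝ)) cH bH hs
  simp only [mul_one, id] at b1 b2
  refine le_of_mul_le_mul_left ?_ (mul_pos (pow_pos hs n) (cn_pos n))
  rw [← a2, ← b2]
  exact integral_mono a1 b1 fun η =>
    mul_le_mul_of_nonneg_left (dc_gauss h cp p0 hb h0 h1 hs η) (bH η).1

end Vale.Agent.P245
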