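import Mathlib

open MeasureTheory
open scoped RealInnerProductSpace

namespace Vale.Agent.P245

/-- `ρ` is log-concave: the set where it is positive is convex and `log ρ` is concave there
(`ConcaveOn` includes the convexity of the set). -/
def LogConcave {n : ℕ} (ρ : EuclideanSpace ℝ (Fin n) → ℝ) : Prop :=
  ConcaveOn ℝ {x | 0 < ρ x} fun x => Real.log (ρ x)

/-- The entropy `∫ g log g dμ - (∫ g dμ) log (∫ g dμ)` (with `0 log 0 = 0`). -/
noncomputable def ent {α : Type} [MeasurableSpace α] (μ : Measure α) (g : α → ℝ) : ℝ :=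
  ∫ x, g x * Real.log (g x) ∂μ - (∫ x, g x ∂μ) * Real.log (∫ x, g x ∂μ)

/-- `μ` is linearly `a`-subgaussian: `E exp (⟪X, θ⟫ ^ 2 / a ^ 2) ≤ 2` for every unit vector `θ`. -/
def Subg {n : ℕ} (μ : Measure (EuclideanSpace ℝ (Fin n))) (a : ℝ) : Prop :=
  ∀ θ : EuclideanSpace ℝ (Fin n), ‖θ‖ = 1 →
    ∫⁻ x, ENNReal.ofReal (Real.exp (⟪x, θ⟫ ^ 2 / a ^ 2)) ∂μ ≤ 2

end Vale.Agent.P245
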