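import Vale.Agent.P245.Basic

/-! From `LS` to convex functions of a smooth test function, and the test functions themselves.

Plan for `lsc_of_ls`.  For `δ > 0` apply `LS` to `g = χ ∘ f + δ`, `v x = (χ' (f x) / g x) • G x`.
On the range of `f`, `χ ≤ Q` (continuity), so `|χ'| ≤ K' = 2 √Q`, and the two tangent inequalities
give `|χ (f y) - χ (f x)| ≤ K' |f y - f x|`; `|f y - f x| ≤ K'' ‖y - x‖` (from `SD`: use the Taylor
bound if `‖y - x‖ ≤ 1`, the sup bound otherwise).  With `a = g x`, `b = g y`: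
`log b - log a ≥ 1 - a / b = (b - a)/a - (b - a)² / (a b)` (`Real.one_sub_inv_le_log_of_pos`), so
`Λ = K' K / δ + (K' K'')² / δ²` works.  `‖v‖² g = χ'² ‖G‖² / g ≤ 4 ω ‖G‖²`.  Let `δ = 1/(k+1) → 0`
(`tendsto_integral_of_dominated_convergence`, `Real.continuous_mul_log`).
Plan for `sd_of_smooth`.  `fderiv ℝ f` is `C¹` with compact support, hence Lipschitz
(`ContDiff.lipschitzWith_of_hasCompactSupport`); apply
`Convex.norm_image_sub_le_of_norm_hasFDerivWithin_le` on `closedBall x ‖y - x‖` to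
`z ↦ f z - fderiv ℝ f x z`; `inner_gradient_left`, `gradient = (toDual ℝ _).symm ∘ fderiv`. -/

open MeasureTheory Real Set
open scoped RealInnerProductSpace

namespace Vale.Agent.P245

variable {n : ℕ} {ρ : E n → ℝ} {R : ℝ}

theorem tighta_log {δ a b p M N : ℝ} (hδ : 0 < δ) (ha : δ ≤ a) (hb : δ ≤ b) (hM : 0 ≤ M)
    (h1 : p - M ≤ b - a) (h2 : (b - a) ^ 2 ≤ N) : log a + p / a - (M / δ + N / δ ^ 2) ≤ log b := by
  have ha0 := hδ.trans_le ha
  have hb0 := hδ.trans_le hb
  have h3 := one_sub_inv_le_log_of_pos (div_pos hb0 ha0)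
  rw [log_div hb0.ne' ha0.ne'] at h3
  have h4 : 1 - (b / a)⁻¹ = (b - a) / a - (b - a) ^ 2 / (a * b) := by
    field_simp
    ring
  have h5 : (p - M) / a ≤ (b - a) / a := div_le_div_of_nonneg_right h1 ha0.le
  have h6 : M / a ≤ M / δ := div_le_div_of_nonneg_left hM hδ ha
  have h7 : (b - a) ^ 2 / (a * b) ≤ N / δ ^ 2 :=
    div_le_div₀ ((sq_nonneg _).trans h2) h2 (by positivity)
      (by rw [sq]; exact mul_le_mul ha hb hδ.le ha0.le)
  rw [sub_div] at h5
  linarith

theorem lsc_of_ls (h : Good ρ R) {A B : ℝ} (hA : 0 ≤ A) (hl : LS (mea ρ) R A B) {f : E n → ℝ}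
    {G : E n → E n} (hf : SD f G) : LSc (mea ρ) f (fun x => ‖G x‖ ^ 2) A B := by
  intro χ χ' ω cχ mχ' mω h0 ht hd hω
  have := h.prob
  obtain ⟨cf, mG, K, hK⟩ := hf
  have K0 : 0 ≤ K := (abs_nonneg _).trans (hK 0).1
  obtain ⟨Q, hQ⟩ := (isCompact_Icc (a := -K) (b := K)).exists_bound_of_continuousOn cχ.continuousOn
  have hQ' : ∀ x, χ (f x) ≤ Q := fun x => (le_abs_self _).trans (hQ _ (abs_le.1 (hK x).1))
  have Q0 : 0 ≤ Q := (h0 _).trans (hQ' 0)
  have h1 : ∀ x, |χ' (f x)| ≤ 1 + Q := fun x => abs_le_of_sq_le_sq (by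
    have := mul_le_mul (hQ' x) (hω (f x)).2 (hω (f x)).1 Q0
    nlinarith [hd (f x), sq_nonneg (1 - Q)]) (by positivity)
  have hG : ∀ x y, |⟪G x, y - x⟫| ≤ K * ‖y - x‖ := fun x y =>
    (abs_real_inner_le_norm _ _).trans (mul_le_mul_of_nonneg_right (hK x).2.1 (norm_nonneg _))
  have h2 : ∀ x y, |f y - f x| ≤ 2 * K * ‖y - x‖ := fun x y => by
    rcases le_total ‖y - x‖ 1 with hr | hr
    · have a1 := abs_add_le (f y - f x - ⟪G x, y - x⟫) ⟪G x, y - x⟫
      rw [sub_add_cancel] at a1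
      have a2 := mul_le_mul_of_nonneg_left hr (mul_nonneg K0 (norm_nonneg (y - x)))
      nlinarith [(hK x).2.2 y, hG x y]
    · nlinarith [abs_sub (f y) (f x), (hK x).1, (hK y).1]
  have h3 : ∀ x y, |χ' (f x) * (f y - f x)| ≤ (1 + Q) * (2 * K * ‖y - x‖) := fun x y => by
    rw [abs_mul]
    exact mul_le_mul (h1 x) (h2 x y) (abs_nonneg _) (by positivity)
  have h4 : ∀ x y, |χ (f y) - χ (f x)| ≤ (1 + Q) * (2 * K * ‖y - x‖) := fun x y => by
    have a1 := h3 y x
    rw [norm_sub_rev] at a1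
    exact abs_le.2 ⟨by linarith [ht (f x) (f y), (abs_le.1 (h3 x y)).1],
      by linarith [ht (f y) (f x), (abs_le.1 a1).1]⟩
  have iω : Integrable (fun x => ω (f x) * ‖G x‖ ^ 2) (mea ρ) :=
    Integrable.of_bound ((mω.comp cf.measurable).mul (mG.norm.pow_const 2)).aestronglyMeasurable
      (1 * K ^ 2) (ae_of_all _ fun x => by
        rw [Real.norm_of_nonneg (mul_nonneg (hω _).1 (sq_nonneg _))]
        exact mul_le_mul (hω _).2 (pow_le_pow_left₀ (norm_nonneg _) (hK x).2.1 2) (sq_nonneg _)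
          zero_le_one)
  have cg : Continuous fun x => χ (f x) := cχ.comp cf
  have key : ∀ δ : ℝ, 0 < δ → ent (mea ρ) (fun x => χ (f x) + δ) ≤
      4 * A * ∫ x, ω (f x) * ‖G x‖ ^ 2 ∂mea ρ + B * ∫ x, (χ (f x) + δ) ∂mea ρ := fun δ hδ => by
    have gδ : ∀ x, δ ≤ χ (f x) + δ := fun x => le_add_of_nonneg_left (h0 _)
    have g0 : ∀ x, 0 < χ (f x) + δ := fun x => hδ.trans_le (gδ x)
    refine (hl (fun x => χ (f x) + δ) (fun x => (χ' (f x) / (χ (f x) + δ)) • G x)
      ((1 + Q) * K / δ + ((1 + Q) * (2 * K)) ^ 2 / δ ^ 2) (cg.add continuous_const) g0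
      (((mχ'.comp cf.measurable).div (cg.measurable.add_const δ)).smul mG)
      ⟨(1 + Q) / δ * K, fun x _ => ?_⟩ fun x y _ _ => ?_).trans ?_
    · rw [norm_smul, Real.norm_eq_abs, abs_div, abs_of_pos (g0 x)]
      exact mul_le_mul (div_le_div₀ (by positivity) (h1 x) hδ (gδ x)) (hK x).2.1 (norm_nonneg _)
        (by positivity)
    · have a1 : |χ' (f x) * (f y - f x - ⟪G x, y - x⟫)| ≤ (1 + Q) * (K * ‖y - x‖ ^ 2) := by
        rw [abs_mul]
        exact mul_le_mul (h1 x) ((hK x).2.2 y) (abs_nonneg _) (by positivity)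
      have a2 := tighta_log (p := χ' (f x) * ⟪G x, y - x⟫) (M := (1 + Q) * (K * ‖y - x‖ ^ 2))
        (N := ((1 + Q) * (2 * K * ‖y - x‖)) ^ 2) hδ (gδ x) (gδ y) (by positivity)
        (by linarith [ht (f x) (f y), (abs_le.1 a1).1])
        (by rw [add_sub_add_right_eq_sub]; exact sq_le_sq' (abs_le.1 (h4 x y)).1 (abs_le.1 (h4 x y)).2)
      refine le_trans (le_of_eq ?_) a2
      rw [real_inner_smul_left]
      ring
    · rw [mul_comm 4 A, mul_assoc, ← integral_const_mul 4]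
      refine add_le_add_left (mul_le_mul_of_nonneg_left (integral_mono_of_nonneg
        (ae_of_all _ fun x => mul_nonneg (sq_nonneg _) (g0 x).le) (iω.const_mul 4)
        (ae_of_all _ fun x => ?_)) hA) _
      have a1 : χ' (f x) ^ 2 / (χ (f x) + δ) ≤ 4 * ω (f x) := by
        rw [div_le_iff₀ (g0 x)]
        nlinarith [hd (f x), mul_nonneg (hω (f x)).1 hδ.le]
      have a2 := (g0 x).ne'
      calc ‖(χ' (f x) / (χ (f x) + δ)) • G x‖ ^ 2 * (χ (f x) + δ)
          = χ' (f x) ^ 2 / (χ (f x) + δ) * ‖G x‖ ^ 2 := by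
            rw [norm_smul, mul_pow, Real.norm_eq_abs, sq_abs]
            field_simp
        _ ≤ 4 * ω (f x) * ‖G x‖ ^ 2 := mul_le_mul_of_nonneg_right a1 (sq_nonneg _)
        _ = _ := mul_assoc _ _ _
  have t0 := tendsto_one_div_add_atTop_nhds_zero_nat (𝕜 := ℝ)
  have t1 : Filter.Tendsto (fun k : ℕ => ∫ x, (χ (f x) + 1 / ((k : ℝ) + 1)) ∂mea ρ) Filter.atTop
      (nhds (∫ x, χ (f x) ∂mea ρ)) := by
    simp only [integral_add (h.integrable cg) (integrable_const _), integral_const, probReal_univ,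
      one_smul]
    simpa using t0.const_add (∫ x, χ (f x) ∂mea ρ)
  obtain ⟨C, hC⟩ := (isCompact_Icc (a := 0) (b := Q + 1)).exists_bound_of_continuousOn
    continuous_mul_log.continuousOn
  have t2 := tendsto_integral_of_dominated_convergence (μ := mea ρ)
    (F := fun (k : ℕ) x => (χ (f x) + 1 / ((k : ℝ) + 1)) * log (χ (f x) + 1 / ((k : ℝ) + 1)))
    (f := fun x => χ (f x) * log (χ (f x))) (fun _ => C)
    (fun k => (continuous_mul_log.comp (cg.add continuous_const)).aestronglyMeasurable)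
    (integrable_const C) (fun k => ae_of_all _ fun x => hC _ ⟨add_nonneg (h0 _) (by positivity),
      add_le_add (hQ' x) (by
        rw [div_le_one (by positivity)]
        exact le_add_of_nonneg_left (Nat.cast_nonneg k))⟩)
    (ae_of_all _ fun x => (continuous_mul_log.tendsto _).comp (by
      simpa using t0.const_add (χ (f x))))
  exact le_of_tendsto_of_tendsto' (t2.sub ((continuous_mul_log.tendsto _).comp t1))
    ((t1.const_mul B).const_add _) fun k => key _ Nat.one_div_pos_of_nat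

theorem sd_of_smooth {f : E n → ℝ} (hf : ContDiff ℝ 2 f) (hc : HasCompactSupport f) :
    SD f (gradient f) := by
  have hd : Differentiable ℝ f := hf.differentiable two_ne_zero
  have h1 : ContDiff ℝ 1 (fderiv ℝ f) := hf.fderiv_right (by norm_num)
  obtain ⟨L, hL⟩ := h1.lipschitzWith_of_hasCompactSupport (hc.fderiv ℝ) one_ne_zero
  obtain ⟨C, hC⟩ := hc.exists_bound_of_continuous hf.continuous
  obtain ⟨C', hC'⟩ := (hc.fderiv ℝ).exists_bound_of_continuous h1.continuous
  have C0 : 0 ≤ C := (norm_nonneg _).trans (hC 0)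
  have C0' : 0 ≤ C' := (norm_nonneg _).trans (hC' 0)
  have L0 : (0 : ℝ) ≤ L := L.2
  refine ⟨hf.continuous, ((InnerProductSpace.toDual ℝ (E n)).symm.continuous.comp
    h1.continuous).measurable, C + C' + L, fun x => ⟨(hC x).trans (by linarith), ?_, fun y => ?_⟩⟩
  · rw [gradient, LinearIsometryEquiv.norm_map]
    linarith [hC' x]
  · have := Convex.norm_image_sub_le_of_norm_hasFDerivWithin_le (𝕜 := ℝ)
      (f := fun z => f z - fderiv ℝ f x z) (f' := fun z => fderiv ℝ f z - fderiv ℝ f x)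
      (s := Metric.closedBall x ‖y - x‖) (C := L * ‖y - x‖) (x := x) (y := y)
      (fun z _ => ((hd z).hasFDerivAt.sub (fderiv ℝ f x).hasFDerivAt).hasFDerivWithinAt)
      (fun z hz => (hL.norm_sub_le z x).trans
        (mul_le_mul_of_nonneg_left (mem_closedBall_iff_norm.1 hz) L0))
      (convex_closedBall _ _) (Metric.mem_closedBall_self (norm_nonneg _))
      (mem_closedBall_iff_norm.2 le_rfl)
    rw [inner_gradient_left, map_sub]
    refine le_trans (le_of_eq (congrArg abs (by ring))) (this.trans ?_)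
    nlinarith [mul_nonneg (add_nonneg C0 C0') (sq_nonneg ‖y - x‖)]

end Vale.Agent.P245
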