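import Vale.Agent.P245.Mark

/-! Removing a small defect.

Plan.  `ent_le_var`: `ent g ≤ ∫ (g log (g / c) - g + c)` for every `c > 0` (`log x ≤ x - 1`).
`ent_ge_half`: if `g ≥ 0` vanishes off a set `S` of measure `≤ 1/2` then `log 2 * ∫ g ≤ ent g`
(integrate `g log (g / c) ≥ g - c` over `S` with `c = 2 ∫ g`).
`exists_median`: `m = sInf {t | 1/2 ≤ μ.real {f ≤ t}}` (or use `cdf (μ.map f)`).
`poinc`: `LSc` with `χ a = (max (a - m) 0)²`, `χ' a = 2 max (a - m) 0`, `ω = indicator (Ioi m) 1`, and the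
mirror image; `log 2 - 1/10 ≥ 1/2`; so `σ² = ∫ (f - m)² ≤ 8 A ∫ w`.
`phi_le`: for `|x| ≤ 2`: if `-1 < x`, `log (1+x) ≤ x` gives `≤ x² (3 + 2x)`; if `x ≤ -1` the left
side is `≤ 1`; for `|x| ≥ 2`: `(1+x)² ≤ 9x²/4 ≤ (x²)²`.
`tight`: if `σ² = 0` or `m² < σ²` use `LSc` with `χ a = a²` and `∫ f² ≤ 2σ² + 2m²` (if `σ² = 0` then
`f = m` a.e. and the entropy is `0`).  Otherwise `ent_le_var` with `c = m²`, `x = (f - m)/m`,
`phi_le`, `max (log (h²/m²)) 0 ≤ max (log (h²/σ²)) 0`, `s * max (log s) 0 ≤ s log s + 1`, and `LSc` with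
`χ a = (a - m)²`: total `≤ 7σ² + 9/2 (4 A W + σ²/10 + σ²) ≤ 120 A W`. -/

open MeasureTheory Real Set Filter Topology ProbabilityTheory

namespace Vale.Agent.P245

variable {α : Type} [MeasurableSpace α] {μ : Measure α} [IsProbabilityMeasure μ] {f g w : α → ℝ}

theorem mul_log_div {t c : ℝ} (hc : 0 < c) : t * log (t / c) = t * log t - t * log c := by
  rcases eq_or_ne t 0 with rfl | ht
  · simp
  · rw [log_div ht hc.ne', mul_sub]

theorem sub_le_mul_log {t c : ℝ} (ht : 0 ≤ t) (hc : 0 < c) : t - c ≤ t * log t - t * log c := by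
  rcases ht.eq_or_lt with rfl | ht
  · simpa using hc.le
  · have h := mul_le_mul_of_nonneg_left (log_le_sub_one_of_pos (div_pos hc ht)) ht.le
    rw [log_div hc.ne' ht.ne', mul_sub, mul_sub, mul_div_cancel₀ _ ht.ne'] at h
    linarith

theorem ent_le_var (hg : BM g) (g0 : ∀ x, 0 ≤ g x) {c : ℝ} (hc : 0 < c) :
    ent μ g ≤ ∫ x, (g x * log (g x / c) - g x + c) ∂μ := by
  have i1 := (bm_mul_log hg).integrable (μ := μ)
  have i2 := hg.integrable (μ := μ)
  simp only [mul_log_div hc]
  rw [integral_add ((i1.sub' (i2.mul_const _)).sub' i2) (integrable_const c),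
    integral_sub (i1.sub' (i2.mul_const _)) i2, integral_sub i1 (i2.mul_const _),
    integral_mul_const, ent]
  simp only [integral_const, probReal_univ, smul_eq_mul, one_mul]
  linarith [sub_le_mul_log (integral_nonneg (μ := μ) (f := g) g0) hc]

theorem ent_ge_half (hg : BM g) (g0 : ∀ x, 0 ≤ g x) {S : Set α} (mS : MeasurableSet S)
    (hS : μ.real S ≤ 1 / 2) (h0 : ∀ x, x ∉ S → g x = 0) : log 2 * ∫ x, g x ∂μ ≤ ent μ g := by
  have i1 := (bm_mul_log hg).integrable (μ := μ)
  have i2 := hg.integrable (μ := μ)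
  rcases (integral_nonneg (μ := μ) (f := g) g0).eq_or_lt with h | h
  · have h1 : ∫ x, g x * log (g x) ∂μ = 0 := by
      refine integral_eq_zero_of_ae ?_
      filter_upwards [(integral_eq_zero_iff_of_nonneg g0 i2).1 h.symm] with x hx
      simp [hx]
    simp [ent, ← h, h1]
  · set m := ∫ x, g x ∂μ with hm
    have i3 : Integrable (S.indicator fun _ => 2 * m) μ := (integrable_const _).indicator mS
    have h1 := integral_mono (i2.sub' i3) (i1.sub' (i2.mul_const (log (2 * m)))) fun x => by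
      by_cases hx : x ∈ S
      · simpa [hx] using sub_le_mul_log (g0 x) (by positivity : 0 < 2 * m)
      · simp [hx, h0 x hx]
    rw [integral_sub i2 i3, integral_sub i1 (i2.mul_const _), integral_mul_const,
      integral_indicator_const _ mS, log_mul two_ne_zero h.ne', smul_eq_mul, ← hm] at h1
    rw [ent, ← hm]
    nlinarith

theorem exists_median (hf : Measurable f) :
    ∃ m, μ.real {x | m < f x} ≤ 1 / 2 ∧ μ.real {x | f x < m} ≤ 1 / 2 := by
  have : IsProbabilityMeasure (μ.map f) := Measure.isProbabilityMeasure_map hf.aemeasurable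
  set F := cdf (μ.map f) with hF
  obtain ⟨a, ha⟩ := eventually_atBot.1 ((tendsto_cdf_atBot (μ.map f)).eventually
    (gt_mem_nhds (by norm_num : (0 : ℝ) < 1 / 2)))
  obtain ⟨b, hb⟩ := ((tendsto_cdf_atTop (μ.map f)).eventually
    (lt_mem_nhds (by norm_num : (1 / 2 : ℝ) < 1))).exists
  have hbd : BddBelow {t | 1 / 2 ≤ F t} := ⟨a, fun t ht => by
    by_contra h
    exact (ha t (not_le.1 h).le).not_ge ht⟩
  refine ⟨sInf {t | 1 / 2 ≤ F t}, ?_, ?_⟩
  · have h1 : 1 / 2 ≤ F (sInf {t | 1 / 2 ≤ F t}) := by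
      refine ge_of_tendsto ((F.right_continuous _).mono Ioi_subset_Ici_self).tendsto ?_
      filter_upwards [self_mem_nhdsWithin] with t ht
      obtain ⟨s, hs, hs'⟩ := exists_lt_of_csInf_lt ⟨b, hb.le⟩ ht
      exact le_trans hs (F.mono hs'.le)
    set m := sInf {t | 1 / 2 ≤ F t}
    rw [hF, cdf_eq_real, map_measureReal_apply hf measurableSet_Iic] at h1
    have h2 := measureReal_add_measureReal_compl (μ := μ) (hf (measurableSet_Iic (a := m)))
    rw [probReal_univ, ← preimage_compl, compl_Iic] at h2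
    change μ.real (f ⁻¹' Ioi m) ≤ _
    linarith
  · set m := sInf {t | 1 / 2 ≤ F t}
    have h1 : Function.leftLim F m ≤ 1 / 2 := by
      refine le_of_tendsto (F.mono.tendsto_leftLim m) ?_
      filter_upwards [self_mem_nhdsWithin] with t ht
      have h2 := notMem_of_lt_csInf ht hbd
      exact (not_le.1 h2).le
    change μ.real (f ⁻¹' Iio m) ≤ _
    rw [← map_measureReal_apply hf measurableSet_Iio, ← measure_cdf (μ.map f), measureReal_def,
      StieltjesFunction.measure_Iio _ (tendsto_cdf_atBot _), sub_zero]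
    exact ENNReal.toReal_le_of_le_ofReal (by norm_num) (ENNReal.ofReal_le_ofReal h1)

theorem BM.comp (hf : BM f) {φ : ℝ → ℝ} (hφ : Continuous φ) : BM fun x => φ (f x) :=
  bm_comp hf.1 hf.2.choose_spec hφ

theorem poinc (hf : BM f) (hw : BM w) (w0 : ∀ x, 0 ≤ w x) {A : ℝ} (hA : 0 ≤ A)
    (h : LSc μ f w A (1 / 10)) : ∃ m, ∫ x, (f x - m) ^ 2 ∂μ ≤ 8 * A * ∫ x, w x ∂μ := by
  obtain ⟨m, h1, h2⟩ := exists_median (μ := μ) hf.1
  have m1 : Measurable fun a : ℝ => if m < a then (1 : ℝ) else 0 :=
    Measurable.ite measurableSet_Ioi measurable_const measurable_const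
  have m2 : Measurable fun a : ℝ => if m < a then (0 : ℝ) else 1 :=
    Measurable.ite measurableSet_Ioi measurable_const measurable_const
  have h3 := h (fun a => max (a - m) 0 ^ 2) (fun a => 2 * max (a - m) 0) _ (by fun_prop)
    (by fun_prop) m1 (fun a => sq_nonneg _) (fun a b => by
      rcases le_total (a - m) 0 with ha | ha
      · simpa [ha] using sq_nonneg _
      · rw [max_eq_left ha]
        nlinarith [sq_nonneg (max (b - m) 0 - (a - m)), mul_le_mul_of_nonneg_left
          (le_max_left (b - m) 0) ha])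
    (fun a => by
      split_ifs with ha
      · linarith
      · simp [sub_nonpos.2 (not_lt.1 ha)])
    fun a => by split_ifs <;> simp
  have h4 := h (fun a => max (m - a) 0 ^ 2) (fun a => -2 * max (m - a) 0) _ (by fun_prop)
    (by fun_prop) m2 (fun a => sq_nonneg _) (fun a b => by
      rcases le_total (m - a) 0 with ha | ha
      · simpa [ha] using sq_nonneg _
      · rw [max_eq_left ha]
        nlinarith [sq_nonneg (max (m - b) 0 - (m - a)), mul_le_mul_of_nonneg_left
          (le_max_left (m - b) 0) ha])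
    (fun a => by
      split_ifs with ha
      · simp [sub_nonpos.2 ha.le]
      · linarith)
    fun a => by split_ifs <;> simp
  have b1 := hf.comp (φ := fun a => max (a - m) 0 ^ 2) (by fun_prop)
  have b2 := hf.comp (φ := fun a => max (m - a) 0 ^ 2) (by fun_prop)
  have h5 := ent_ge_half b1 (fun x => sq_nonneg _) (measurableSet_lt measurable_const hf.1) h1
    fun x hx => by simpa using hx
  have h6 := ent_ge_half b2 (fun x => sq_nonneg _) (measurableSet_lt hf.1 measurable_const) h2
    fun x hx => by simpa using hx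
  have b3 : BM fun x => if m < f x then (1 : ℝ) else 0 :=
    ⟨m1.comp hf.1, 1, fun x => by by_cases hx : m < f x <;> simp [hx]⟩
  have b4 : BM fun x => if m < f x then (0 : ℝ) else 1 :=
    ⟨m2.comp hf.1, 1, fun x => by by_cases hx : m < f x <;> simp [hx]⟩
  have e1 : ∫ x, (f x - m) ^ 2 ∂μ =
      ∫ x, max (f x - m) 0 ^ 2 ∂μ + ∫ x, max (m - f x) 0 ^ 2 ∂μ := by
    rw [← integral_add b1.integrable b2.integrable]
    refine integral_congr_ae (ae_of_all _ fun x => ?_)
    rcases le_total (f x) m with hx | hx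
    · simp only [max_eq_right (sub_nonpos.2 hx), max_eq_left (sub_nonneg.2 hx)]
      ring
    · simp only [max_eq_right (sub_nonpos.2 hx), max_eq_left (sub_nonneg.2 hx)]
      ring
  have e2 : ∫ x, w x ∂μ = ∫ x, (if m < f x then (1 : ℝ) else 0) * w x ∂μ +
      ∫ x, (if m < f x then (0 : ℝ) else 1) * w x ∂μ := by
    rw [← integral_add (b3.mul hw).integrable (b4.mul hw).integrable]
    refine integral_congr_ae (ae_of_all _ fun x => ?_)
    simp only
    split_ifs <;> simp
  refine ⟨m, ?_⟩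
  have p1 : 0 ≤ ∫ x, max (f x - m) 0 ^ 2 ∂μ := integral_nonneg fun x => sq_nonneg _
  have p2 : 0 ≤ ∫ x, max (m - f x) 0 ^ 2 ∂μ := integral_nonneg fun x => sq_nonneg _
  rw [e1, e2]
  nlinarith [log_two_gt_d9]

theorem phi_le (x : ℝ) : (1 + x) ^ 2 * log ((1 + x) ^ 2) - (1 + x) ^ 2 + 1 ≤
    7 * x ^ 2 + 9 / 2 * (x ^ 2 * max (log (x ^ 2)) 0) := by
  have h0 : 0 ≤ x ^ 2 * max (log (x ^ 2)) 0 := mul_nonneg (sq_nonneg _) (le_max_right _ _)
  rcases le_total (x ^ 2) 4 with h | h
  · have h1 := abs_le_of_sq_le_sq' (h.trans_eq (by norm_num : (4 : ℝ) = 2 ^ 2)) (by norm_num)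
    rcases lt_or_ge (-1) x with h2 | h2
    · have h3 : log ((1 + x) ^ 2) ≤ 2 * x := by
        rw [log_pow]
        push_cast
        linarith [log_le_sub_one_of_pos (by linarith : 0 < 1 + x)]
      nlinarith [mul_le_mul_of_nonneg_left h3 (sq_nonneg (1 + x)),
        mul_le_mul_of_nonneg_left h1.2 (sq_nonneg x)]
    · have h3 := mul_log_nonpos (sq_nonneg (1 + x)) (by nlinarith [h1.1])
      nlinarith [sq_nonneg (1 + x)]
  · have h1 : (1 + x) ^ 2 ≤ 9 / 4 * x ^ 2 := by
      rcases le_total 0 x with h2 | h2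
      · have h3 : 2 ≤ x := by nlinarith
        nlinarith
      · have h3 : x ≤ -2 := by nlinarith
        nlinarith
    have h2 : log ((1 + x) ^ 2) ≤ 2 * max (log (x ^ 2)) 0 := by
      rcases (sq_nonneg (1 + x)).eq_or_lt with h3 | h3
      · rw [← h3, log_zero]
        positivity
      · have h4 := log_le_log h3 (by nlinarith : (1 + x) ^ 2 ≤ (x ^ 2) ^ 2)
        rw [log_pow (x ^ 2)] at h4
        push_cast at h4
        linarith [le_max_left (log (x ^ 2)) 0]
    nlinarith [mul_le_mul_of_nonneg_left h2 (sq_nonneg (1 + x)), sq_nonneg (1 + x),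
      mul_le_mul_of_nonneg_right h1 (le_max_right (log (x ^ 2)) 0)]

theorem tight (hf : BM f) (hw : BM w) (w0 : ∀ x, 0 ≤ w x) {A : ℝ} (hA : 0 ≤ A)
    (h : LSc μ f w A (1 / 10)) : ent μ (fun x => f x ^ 2) ≤ 120 * A * ∫ x, w x ∂μ := by
  obtain ⟨m, hm⟩ := poinc hf hw w0 hA h
  have hs : ∀ c, ent μ (fun x => (f x - c) ^ 2) ≤
      4 * A * ∫ x, w x ∂μ + 1 / 10 * ∫ x, (f x - c) ^ 2 ∂μ := fun c => by
    simpa using h (fun a => (a - c) ^ 2) (fun a => 2 * (a - c)) (fun _ => 1) (by fun_prop)
      (by fun_prop) measurable_const (fun a => sq_nonneg _)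
      (fun a b => by nlinarith [sq_nonneg (b - a)]) (fun a => by linarith) fun a => by simp
  have hW : 0 ≤ A * ∫ x, w x ∂μ := mul_nonneg hA (integral_nonneg w0)
  have b1 := hf.comp (φ := fun a => a ^ 2) (by fun_prop)
  have b2 := hf.comp (φ := fun a => (a - m) ^ 2) (by fun_prop)
  have i2 := b2.integrable (μ := μ)
  set s := ∫ x, (f x - m) ^ 2 ∂μ with hs'
  have s0 : 0 ≤ s := integral_nonneg fun x => sq_nonneg _
  rcases le_or_gt (m ^ 2) s with h1 | h1
  · have h2 := integral_mono (μ := μ) b1.integrable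
      ((i2.const_mul 2).fun_add (integrable_const (2 * m ^ 2))) fun x => by
        simp only
        nlinarith [sq_nonneg (f x - 2 * m)]
    rw [integral_add (i2.const_mul 2) (integrable_const _), integral_const_mul] at h2
    have h3 := hs 0
    simp only [integral_const, probReal_univ, smul_eq_mul, one_mul, sub_zero] at h2 h3
    linarith
  · have m0 : 0 < m ^ 2 := s0.trans_lt h1
    have m1 : m ≠ 0 := by
      rintro rfl
      simp at m0
    have i3 := (bm_mul_log b2).integrable (μ := μ)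
    have h2 : ∀ᵐ x ∂μ, (f x - m) ^ 2 * max (log ((f x - m) ^ 2 / m ^ 2)) 0 ≤
        (f x - m) ^ 2 * log ((f x - m) ^ 2) - (f x - m) ^ 2 * log s + s := by
      rcases s0.eq_or_lt with h3 | h3
      · filter_upwards [(integral_eq_zero_iff_of_nonneg (fun x => sq_nonneg _) i2).1 h3.symm]
          with x hx
        simp [hx, s0]
      · refine ae_of_all _ fun x => ?_
        rw [mul_max_of_nonneg _ _ (sq_nonneg _), mul_log_div m0, mul_zero, max_le_iff]
        constructor
        · linarith [mul_le_mul_of_nonneg_left (log_le_log h3 h1.le) (sq_nonneg (f x - m))]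
        · linarith [sub_le_mul_log (sq_nonneg (f x - m)) h3, sq_nonneg (f x - m)]
    have i4 := (i3.sub' (i2.mul_const (log s))).fun_add (integrable_const s)
    have h3 : ∫ x, (f x ^ 2 * log (f x ^ 2 / m ^ 2) - f x ^ 2 + m ^ 2) ∂μ ≤
        ∫ x, (7 * (f x - m) ^ 2 + 9 / 2 *
          ((f x - m) ^ 2 * log ((f x - m) ^ 2) - (f x - m) ^ 2 * log s + s)) ∂μ := by
      refine integral_mono_ae ?_ ((i2.const_mul 7).fun_add (i4.const_mul _)) ?_
      · simp only [mul_log_div m0]
        exact (((bm_mul_log b1).integrable.sub' (b1.integrable.mul_const _)).sub'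
          b1.integrable).fun_add (integrable_const _)
      · filter_upwards [h2] with x hx
        have h4 := mul_le_mul_of_nonneg_left (phi_le ((f x - m) / m)) m0.le
        rw [show 1 + (f x - m) / m = f x / m by field_simp; ring, div_pow, div_pow] at h4
        have e1 : m ^ 2 * (f x ^ 2 / m ^ 2) = f x ^ 2 := by field_simp
        have e2 : m ^ 2 * ((f x - m) ^ 2 / m ^ 2) = (f x - m) ^ 2 := by field_simp
        rw [mul_add, mul_sub, ← mul_assoc, e1, mul_add, mul_left_comm, mul_left_comm _ (9 / 2),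
          ← mul_assoc (m ^ 2), e2] at h4
        linarith
    rw [integral_add (i2.const_mul 7) (i4.const_mul _), integral_const_mul, integral_const_mul,
      integral_add (i3.sub' (i2.mul_const _)) (integrable_const s),
      integral_sub i3 (i2.mul_const _), integral_mul_const] at h3
    have h4 := ent_le_var (μ := μ) b1 (fun x => sq_nonneg _) m0
    have h5 := hs m
    rw [ent] at h5
    simp only [integral_const, probReal_univ, smul_eq_mul, one_mul, ← hs'] at h3 h5
    linarith

end Vale.Agent.P245
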