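import Vale.Agent.P245.Basic

/-! Reduction to bounded, compactly supported densities with `a = 1`.

Plan for `trunc`.  `τ k x = if ‖x‖ ≤ k then min (ρ x) k else 0`, `Z k = ∫ τ k → ∫ ρ = 1` and
`∫ τ k * h → ∫ ρ * h` (`tendsto_integral_of_dominated_convergence`, `ρ` is integrable since `mea ρ`
is a probability measure); `σ k = τ k / Z k`.  Eventually `Z k ≥ 1/2` and `k ≥ 1`.  `lc`: from
`LogConcave` when both values are positive (`Real.rpow_def_of_pos`), `min`, convexity of the ball.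
`mgf`: for `ξ = ‖ξ‖ • θ`, `⟪ξ, x⟫ ≤ ⟪x, θ⟫² + ‖ξ‖²/4`, `σ k ≤ 2 ρ`, and `Subg`
(`ξ = 0` separately; pass to `lintegral` by `integral_eq_lintegral_of_nonneg_ae` or
`ofReal_integral_eq_lintegral_ofReal`).
Plan for `scale`.  `ρ' x = a ^ n * ρ (a • x)`; `Measure.integral_comp_smul`,
`Measure.lintegral_comp_smul` style changes of variables (or `Measure.map_addHaar_smul`):
`(mea ρ').map (a • ·) = mea ρ`. -/

open MeasureTheory Real Set Filter Topology
open scoped RealInnerProductSpace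

namespace Vale.Agent.P245

variable {n : ℕ} {ρ : E n → ℝ}

noncomputable def tr (ρ : E n → ℝ) (k : ℕ) (x : E n) : ℝ := if ‖x‖ ≤ k then min (ρ x) k else 0

theorem tr_meas (hm : Measurable ρ) (k : ℕ) : Measurable (tr ρ k) :=
  Measurable.ite (measurableSet_le measurable_norm measurable_const) (hm.min measurable_const)
    measurable_const

theorem tr_nonneg (h0 : ∀ x, 0 ≤ ρ x) (k : ℕ) (x : E n) : 0 ≤ tr ρ k x := by
  unfold tr
  split_ifs
  · exact le_min (h0 x) (Nat.cast_nonneg k)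
  · exact le_rfl

theorem tr_le (h0 : ∀ x, 0 ≤ ρ x) (k : ℕ) (x : E n) : tr ρ k x ≤ ρ x := by
  unfold tr
  split_ifs
  · exact min_le_left _ _
  · exact h0 x

theorem tr_le_k (k : ℕ) (x : E n) : tr ρ k x ≤ k := by
  unfold tr
  split_ifs
  · exact min_le_right _ _
  · exact Nat.cast_nonneg k

theorem tr_zero {k : ℕ} {x : E n} (hx : (k : ℝ) < ‖x‖) : tr ρ k x = 0 := if_neg (not_le.2 hx)

theorem tr_ev (x : E n) : ∀ᶠ k : ℕ in atTop, tr ρ k x = ρ x := by
  filter_upwards [tendsto_natCast_atTop_atTop.eventually_ge_atTop ‖x‖,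
    tendsto_natCast_atTop_atTop.eventually_ge_atTop (ρ x)] with k h1 h2
  rw [tr, if_pos h1, min_eq_left h2]

theorem tr_lint (hm : Measurable ρ) {g : E n → ENNReal} (hg : Measurable g) :
    ∫⁻ x, g x ∂mea ρ = ∫⁻ x, ENNReal.ofReal (ρ x) * g x :=
  lintegral_withDensity_eq_lintegral_mul _ hm.ennreal_ofReal hg

theorem tr_mul_int (hm : Measurable ρ) (h0 : ∀ x, 0 ≤ ρ x) {g : E n → ℝ} (hg : Measurable g)
    (hg0 : ∀ x, 0 ≤ g x) (h2 : ∫⁻ x, ENNReal.ofReal (g x) ∂mea ρ ≤ 2) :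
    Integrable (fun x => ρ x * g x) ∧ ∫ x, ρ x * g x ≤ 2 := by
  have hp : ∀ x, 0 ≤ ρ x * g x := fun x => mul_nonneg (h0 x) (hg0 x)
  have h3 : ∫⁻ x, ENNReal.ofReal (ρ x * g x) ≤ 2 := by
    rw [tr_lint hm hg.ennreal_ofReal] at h2
    simpa only [ENNReal.ofReal_mul (h0 _)] using h2
  refine ⟨⟨(hm.mul hg).aestronglyMeasurable,
    (hasFiniteIntegral_iff_ofReal (ae_of_all _ hp)).2 (h3.trans_lt (by simp))⟩, ?_⟩
  rw [integral_eq_lintegral_of_nonneg_ae (ae_of_all _ hp) (hm.mul hg).aestronglyMeasurable]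
  exact (ENNReal.toReal_mono (by simp) h3).trans (by simp)

theorem tr_lc (h0 : ∀ x, 0 ≤ ρ x) (hl : LogConcave ρ) (k : ℕ) (x y : E n) (t : ℝ) (ht : 0 < t)
    (ht1 : t < 1) : tr ρ k x ^ (1 - t) * tr ρ k y ^ t ≤ tr ρ k ((1 - t) • x + t • y) := by
  have hs : 0 < 1 - t := sub_pos.2 ht1
  rcases (tr_nonneg h0 k x).eq_or_lt with hx | hx
  · rw [← hx, zero_rpow hs.ne', zero_mul]
    exact tr_nonneg h0 _ _
  rcases (tr_nonneg h0 k y).eq_or_lt with hy | hy
  · rw [← hy, zero_rpow ht.ne', mul_zero]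
    exact tr_nonneg h0 _ _
  have nx : ‖x‖ ≤ k := not_lt.1 fun h => hx.ne' (tr_zero h)
  have ny : ‖y‖ ≤ k := not_lt.1 fun h => hy.ne' (tr_zero h)
  have px : 0 < ρ x := hx.trans_le (tr_le h0 k x)
  have py : 0 < ρ y := hy.trans_le (tr_le h0 k y)
  have pk : (0 : ℝ) < k := hx.trans_le (tr_le_k k x)
  have nz : ‖(1 - t) • x + t • y‖ ≤ k := by
    refine (norm_add_le _ _).trans ?_
    rw [norm_smul, norm_smul, Real.norm_of_nonneg hs.le, Real.norm_of_nonneg ht.le]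
    nlinarith
  have mono : ∀ a b : ℝ, tr ρ k x ≤ a → tr ρ k y ≤ b →
      tr ρ k x ^ (1 - t) * tr ρ k y ^ t ≤ a ^ (1 - t) * b ^ t := fun a b ha hb =>
    mul_le_mul (rpow_le_rpow hx.le ha hs.le) (rpow_le_rpow hy.le hb ht.le)
      (rpow_nonneg hy.le _) (rpow_nonneg (hx.le.trans ha) _)
  have e : tr ρ k ((1 - t) • x + t • y) = min (ρ ((1 - t) • x + t • y)) k := if_pos nz
  rw [e]
  refine le_min ((mono _ _ (tr_le h0 k x) (tr_le h0 k y)).trans ?_)
    ((mono _ _ (tr_le_k k x) (tr_le_k k y)).trans ?_)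
  · have pz : 0 < ρ ((1 - t) • x + t • y) := hl.1 px py hs.le ht.le (by ring)
    have h3 := hl.2 px py hs.le ht.le (by ring)
    simp only [smul_eq_mul] at h3
    rw [rpow_def_of_pos px, rpow_def_of_pos py, ← exp_add, ← exp_log pz]
    exact exp_le_exp.2 (by linarith)
  · rw [← rpow_add pk]
    simp

theorem trunc (hm : Measurable ρ) (h0 : ∀ x, 0 ≤ ρ x) (hl : LogConcave ρ)
    (hp : IsProbabilityMeasure (mea ρ)) (hs : Subg (mea ρ) 1) :
    ∃ σ : ℕ → E n → ℝ, (∀ᶠ k in atTop, Good (σ k) k) ∧ ∀ h : E n → ℝ, BM h →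
      Tendsto (fun k => ∫ x, h x ∂mea (σ k)) atTop (𝓝 (∫ x, h x ∂mea ρ)) := by
  have hone := tr_mul_int hm h0 (g := fun _ => 1) measurable_const (fun _ => zero_le_one)
    (by simp)
  have hi : Integrable ρ := by simpa using hone.1
  have hlim : ∀ h : E n → ℝ, BM h →
      Tendsto (fun k => ∫ x, tr ρ k x * h x) atTop (𝓝 (∫ x, h x ∂mea ρ)) := by
    rintro h ⟨mh, C, hC⟩
    rw [integral_mea hm h0]
    refine tendsto_integral_of_dominated_convergence (fun x => ρ x * C)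
      (fun k => ((tr_meas hm k).mul mh).aestronglyMeasurable) (hi.mul_const C)
      (fun k => ae_of_all _ fun x => ?_) (ae_of_all _ fun x => ?_)
    · rw [Real.norm_eq_abs, abs_mul, abs_of_nonneg (tr_nonneg h0 k x)]
      exact mul_le_mul (tr_le h0 k x) (hC x) (abs_nonneg _) (h0 x)
    · refine tendsto_const_nhds.congr' ?_
      filter_upwards [tr_ev (ρ := ρ) x] with k hk
      rw [hk]
  have hZ : Tendsto (fun k => ∫ x, tr ρ k x) atTop (𝓝 1) := by
    simpa using hlim _ (BM.const 1)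
  have hZ0 : ∀ k, 0 ≤ ∫ x, tr ρ k x := fun k => integral_nonneg (tr_nonneg h0 k)
  have mσ : ∀ k, Measurable fun x => tr ρ k x / ∫ x, tr ρ k x :=
    fun k => (tr_meas hm k).div_const _
  have σ0 : ∀ k x, 0 ≤ tr ρ k x / ∫ x, tr ρ k x :=
    fun k x => div_nonneg (tr_nonneg h0 k x) (hZ0 k)
  refine ⟨fun k x => tr ρ k x / ∫ x, tr ρ k x, ?_, fun h hh => ?_⟩
  · filter_upwards [hZ.eventually (lt_mem_nhds (show (1 / 2 : ℝ) < 1 by norm_num)),
      eventually_ge_atTop 1] with k hk hk1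
    have pk : (1 : ℝ) ≤ k := by exact_mod_cast hk1
    have pZ : 0 < ∫ x, tr ρ k x := by linarith
    have σ2 : ∀ x, tr ρ k x / (∫ x, tr ρ k x) ≤ 2 * tr ρ k x := fun x => by
      rw [div_le_iff₀ pZ]
      nlinarith [tr_nonneg h0 k x]
    have hint : ∫ x, tr ρ k x / (∫ x, tr ρ k x) = 1 := by
      rw [integral_div, div_self pZ.ne']
    refine ⟨⟨mσ k, 2 * k, fun x => ⟨σ0 k x, ?_, fun hx => ?_⟩⟩, by linarith, fun x hx => ?_,
      hint, fun x y t ht ht1 => ?_, fun ξ => ?_⟩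
    · linarith [σ2 x, tr_le_k (ρ := ρ) k x]
    · simp only [tr_zero (ρ := ρ) (show (k : ℝ) < ‖x‖ by linarith), zero_div]
    · rw [tr_zero hx, zero_div]
    · rw [div_rpow (tr_nonneg h0 k x) pZ.le, div_rpow (tr_nonneg h0 k y) pZ.le, div_mul_div_comm,
        ← rpow_add pZ, sub_add_cancel, rpow_one]
      exact div_le_div_of_nonneg_right (tr_lc h0 hl k x y t ht ht1) pZ.le
    · rw [integral_mea (mσ k) (σ0 k)]
      rcases eq_or_ne ξ 0 with rfl | hξ
      · simp only [inner_zero_left, exp_zero, mul_one, hint, norm_zero]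
        norm_num
      have nξ : 0 < ‖ξ‖ := norm_pos_iff.2 hξ
      have hθ : ‖‖ξ‖⁻¹ • ξ‖ = 1 := by
        rw [norm_smul, norm_inv, norm_norm, inv_mul_cancel₀ nξ.ne']
      obtain ⟨i1, i2⟩ := tr_mul_int hm h0 (g := fun x => exp (⟪x, ‖ξ‖⁻¹ • ξ⟫ ^ 2 / 1 ^ 2))
        (by fun_prop) (fun x => (exp_pos _).le) (hs _ hθ)
      have h4 : ∫ x, tr ρ k x / (∫ x, tr ρ k x) * exp ⟪ξ, x⟫ ≤
          ∫ x, 2 * exp (‖ξ‖ ^ 2 / 4) * (ρ x * exp (⟪x, ‖ξ‖⁻¹ • ξ⟫ ^ 2 / 1 ^ 2)) := by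
        refine integral_mono_of_nonneg
          (ae_of_all _ fun x => mul_nonneg (σ0 k x) (exp_pos _).le) (i1.const_mul _)
          (ae_of_all _ fun x => ?_)
        have h5 : ⟪ξ, x⟫ = ‖ξ‖ * ⟪x, ‖ξ‖⁻¹ • ξ⟫ := by
          rw [real_inner_smul_right, real_inner_comm, ← mul_assoc, mul_inv_cancel₀ nξ.ne', one_mul]
        have h6 : exp ⟪ξ, x⟫ ≤ exp (‖ξ‖ ^ 2 / 4) * exp (⟪x, ‖ξ‖⁻¹ • ξ⟫ ^ 2 / 1 ^ 2) := by
          rw [← exp_add, h5]
          exact exp_le_exp.2 (by nlinarith [sq_nonneg (‖ξ‖ / 2 - ⟪x, ‖ξ‖⁻¹ • ξ⟫)])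
        have h7 : tr ρ k x / (∫ x, tr ρ k x) ≤ 2 * ρ x := by linarith [σ2 x, tr_le h0 k x]
        have h8 := mul_le_mul h7 h6 (exp_pos _).le (by linarith [h0 x])
        simp only
        linarith
      rw [integral_const_mul] at h4
      nlinarith [exp_pos (‖ξ‖ ^ 2 / 4)]
  · have h3 := (hlim h hh).div hZ one_ne_zero
    rw [div_one] at h3
    refine h3.congr fun k => ?_
    rw [integral_mea (mσ k) (σ0 k), Pi.div_apply, ← integral_div]
    exact integral_congr_ae (ae_of_all _ fun x => by ring)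

theorem scale (hm : Measurable ρ) (h0 : ∀ x, 0 ≤ ρ x) (hl : LogConcave ρ)
    (hp : IsProbabilityMeasure (mea ρ)) {a : ℝ} (ha : 0 < a) (hs : Subg (mea ρ) a) :
    ∃ ρ' : E n → ℝ, Measurable ρ' ∧ (∀ x, 0 ≤ ρ' x) ∧ LogConcave ρ' ∧
      IsProbabilityMeasure (mea ρ') ∧ Subg (mea ρ') 1 ∧
      ∀ h : E n → ℝ, Measurable h → ∫ x, h x ∂mea ρ = ∫ x, h (a • x) ∂mea ρ' := by
  have pa : 0 < a ^ n := pow_pos ha n
  have ms : Measurable fun x : E n => a • x := measurable_const_smul a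
  have m' : Measurable fun x : E n => a ^ n * ρ (a • x) := (hm.comp ms).const_mul _
  have key : ∀ g : E n → ENNReal, Measurable g →
      ∫⁻ x, g (a • x) ∂mea (fun x => a ^ n * ρ (a • x)) = ∫⁻ x, g x ∂mea ρ := by
    intro g hg
    have hF : Measurable fun x => ENNReal.ofReal (ρ x) * g x := hm.ennreal_ofReal.mul hg
    have h1 := lintegral_map (μ := (volume : Measure (E n))) hF ms
    rw [Measure.map_addHaar_smul _ ha.ne', lintegral_smul_measure, finrank_euclideanSpace_fin,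
      abs_of_pos (inv_pos.2 pa), smul_eq_mul] at h1
    rw [tr_lint m' (g := fun x => g (a • x)) (hg.comp ms), tr_lint hm hg]
    simp only [ENNReal.ofReal_mul pa.le, mul_assoc]
    rw [lintegral_const_mul' _ _ ENNReal.ofReal_ne_top, ← h1, ← mul_assoc,
      ← ENNReal.ofReal_mul pa.le, mul_inv_cancel₀ pa.ne', ENNReal.ofReal_one, one_mul]
  have hmap : (mea fun x => a ^ n * ρ (a • x)).map (fun x : E n => a • x) = mea ρ := by
    refine Measure.ext_of_lintegral _ fun g hg => ?_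
    rw [lintegral_map hg ms, key g hg]
  refine ⟨fun x => a ^ n * ρ (a • x), m', fun x => mul_nonneg pa.le (h0 _), ?_, ?_, ?_, ?_⟩
  · have e : ∀ (x y : E n) (s t : ℝ), a • (s • x + t • y) = s • a • x + t • a • y :=
      fun x y s t => by rw [smul_add, smul_comm a s, smul_comm a t]
    have hpos : ∀ x : E n, 0 < a ^ n * ρ (a • x) → 0 < ρ (a • x) :=
      fun x hx => (mul_pos_iff_of_pos_left pa).1 hx
    refine ⟨fun x hx y hy s t hs ht hst => ?_, fun x hx y hy s t hs ht hst => ?_⟩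
    · have h2 : 0 < ρ (s • a • x + t • a • y) := hl.1 (hpos x hx) (hpos y hy) hs ht hst
      exact mul_pos pa (by rw [e]; exact h2)
    · have h2 : 0 < ρ (s • a • x + t • a • y) := hl.1 (hpos x hx) (hpos y hy) hs ht hst
      have h3 := hl.2 (hpos x hx) (hpos y hy) hs ht hst
      simp only [smul_eq_mul] at h3 ⊢
      rw [e, log_mul pa.ne' (hpos x hx).ne', log_mul pa.ne' (hpos y hy).ne',
        log_mul pa.ne' h2.ne']
      have h4 : s * log (a ^ n) + t * log (a ^ n) = log (a ^ n) := by rw [← add_mul, hst, one_mul]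
      linarith
  · have h2 := key (fun _ => 1) measurable_const
    exact ⟨by simpa using h2⟩
  · intro θ hθ
    have h2 := key (fun x => ENNReal.ofReal (exp (⟪x, θ⟫ ^ 2 / a ^ 2))) (by fun_prop)
    refine le_trans (le_of_eq ?_) (h2.le.trans (hs θ hθ))
    refine lintegral_congr fun x => ?_
    rw [real_inner_smul_left]
    congr 2
    field_simp
  · intro h mh
    rw [← hmap, integral_map ms.aemeasurable mh.aestronglyMeasurable]

end Vale.Agent.P245
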