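import Vale.Agent.P245.Rec
import Vale.Agent.P245.TightA
import Vale.Agent.P245.TightB
import Vale.Agent.P245.Trunc

/-! Assembly. -/

open MeasureTheory Real Set Filter Topology
open scoped RealInnerProductSpace

namespace Vale.Agent.P245

variable {n : ℕ} {ρ f : E n → ℝ} {G : E n → E n}

theorem SD.bm (hf : SD f G) : BM f ∧ BM fun x => ‖G x‖ ^ 2 := by
  obtain ⟨h1, h2, K, hK⟩ := hf
  refine ⟨⟨h1.measurable, K, fun x => (hK x).1⟩, h2.norm.pow_const 2, K ^ 2, fun x => ?_⟩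
  rw [abs_of_nonneg (sq_nonneg _)]
  exact pow_le_pow_left₀ (norm_nonneg _) (hK x).2.1 2

theorem SD.smul (hf : SD f G) {a : ℝ} (ha : 0 < a) :
    SD (fun x => f (a • x)) fun x => a • G (a • x) := by
  obtain ⟨h1, h2, K, hK⟩ := hf
  have hK0 : 0 ≤ K := (abs_nonneg _).trans (hK 0).1
  refine ⟨by fun_prop, by fun_prop, K * (1 + a) ^ 2, fun x => ⟨?_, ?_, fun y => ?_⟩⟩
  · nlinarith [(hK (a • x)).1, mul_nonneg hK0 ha.le, mul_nonneg hK0 (sq_nonneg a)]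
  · rw [norm_smul, Real.norm_of_nonneg ha.le]
    nlinarith [mul_le_mul_of_nonneg_left (hK (a • x)).2.1 ha.le, mul_nonneg hK0 ha.le,
      mul_nonneg hK0 (sq_nonneg a)]
  · have h3 := (hK (a • x)).2.2 (a • y)
    rw [← smul_sub, inner_smul_right, norm_smul, Real.norm_of_nonneg ha.le] at h3
    rw [real_inner_smul_left]
    nlinarith [mul_nonneg hK0 (sq_nonneg ‖y - x‖),
      mul_nonneg (mul_nonneg hK0 ha.le) (sq_nonneg ‖y - x‖)]

theorem Good.final {R : ℝ} (h : Good ρ R) (hn : 1 ≤ n) (hf : SD f G) :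
    ent (mea ρ) (fun x => f x ^ 2) ≤ exp (45 * (1 + √(log n))) * ∫ x, ‖G x‖ ^ 2 ∂mea ρ := by
  have := h.prob
  obtain ⟨A, hA, hA', hl⟩ := h.ls hn
  refine (tight hf.bm.1 hf.bm.2 (fun x => sq_nonneg _) hA.le (lsc_of_ls h hA.le hl hf)).trans
    (mul_le_mul_of_nonneg_right ?_ (integral_nonneg fun x => sq_nonneg _))
  have h8 : (120 : ℝ) ≤ exp 5 := by
    rw [show (5 : ℝ) = (5 : ℕ) by norm_num, ← exp_one_pow]
    exact le_trans (by norm_num) (pow_le_pow_left₀ (by norm_num) exp_one_gt_d9.le 5)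
  refine (mul_le_mul h8 hA' hA.le (exp_pos _).le).trans ?_
  rw [← exp_add, exp_le_exp]
  linarith [sqrt_nonneg (log n)]

theorem final_one (hn : 1 ≤ n) (hm : Measurable ρ) (h0 : ∀ x, 0 ≤ ρ x) (hl : LogConcave ρ)
    (hp : IsProbabilityMeasure (mea ρ)) (hs : Subg (mea ρ) 1) (hf : SD f G) :
    ent (mea ρ) (fun x => f x ^ 2) ≤ exp (45 * (1 + √(log n))) * ∫ x, ‖G x‖ ^ 2 ∂mea ρ := by
  obtain ⟨σ, h1, h2⟩ := trunc hm h0 hl hp hs
  have b1 : BM fun x => f x ^ 2 := by simpa [sq] using hf.bm.1.mul hf.bm.1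
  have t1 := h2 _ b1
  refine le_of_tendsto_of_tendsto ((h2 _ (bm_mul_log b1)).sub
    ((continuous_mul_log.tendsto _).comp t1)) ((h2 _ hf.bm.2).const_mul _) ?_
  filter_upwards [h1] with k hk using hk.final hn hf

theorem final (hn : 1 ≤ n) (hm : Measurable ρ) (h0 : ∀ x, 0 ≤ ρ x) (hl : LogConcave ρ)
    (hp : IsProbabilityMeasure (mea ρ)) {a : ℝ} (ha : 0 < a) (hs : Subg (mea ρ) a) (hf : SD f G) :
    ent (mea ρ) (fun x => f x ^ 2) ≤
      exp (45 * (1 + √(log n))) * a ^ 2 * ∫ x, ‖G x‖ ^ 2 ∂mea ρ := by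
  obtain ⟨ρ', g1, g2, g3, g4, g5, g6⟩ := scale hm h0 hl hp ha hs
  have h1 := final_one hn g1 g2 g3 g4 g5 (hf.smul ha)
  have b1 : BM fun x => f x ^ 2 := by simpa [sq] using hf.bm.1.mul hf.bm.1
  rw [ent, g6 _ (bm_mul_log b1).1, g6 _ b1.1, g6 _ hf.bm.2.1, mul_assoc, ← integral_const_mul]
  simpa [ent, norm_smul, mul_pow] using h1

end Vale.Agent.P245
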