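import Vale.Agent.P245.Basic

/-! The two-block Gibbs sampler: bookkeeping.

Plan.  Measurability by `StronglyMeasurable.integral_prod_left'` / `_right'` and `Ker.meas`;
positivity by `integral_pos_iff_support_of_nonneg`; `|gg F| ≤ C * gg 1` if `|F| ≤ C`, and
`c * gg 1 ≤ gg F` if `c ≤ F`; Fubini `integral_integral_swap` for bounded measurable functions on
the product of two probability spaces (`Integrable.of_bound`); `integral_finsetSum`. -/

open MeasureTheory Real Set

namespace Vale.Agent.P245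

variable {Ω U : Type} [MeasurableSpace Ω] [MeasurableSpace U] {P : Measure Ω} {μ : Measure U}
  [IsProbabilityMeasure P] [IsProbabilityMeasure μ] {k : Ω → U → ℝ} {F G : Ω → ℝ}

omit [IsProbabilityMeasure μ] in
theorem Ker.bm_prod (hk : Ker μ k) : BM fun p : Ω × U => k p.1 p.2 := by
  obtain ⟨C, hC⟩ := hk.bdd
  exact ⟨hk.meas, C, fun p => by rw [abs_of_pos (hk.pos _ _)]; exact hC _ _⟩

theorem BM.mark_comp {α β : Type} [MeasurableSpace α] [MeasurableSpace β] {f : β → ℝ} (hf : BM f)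
    {g : α → β} (hg : Measurable g) : BM fun x => f (g x) := by
  obtain ⟨hm, C, hC⟩ := hf
  exact ⟨hm.comp hg, C, fun x => hC _⟩

theorem mark_int_le {α : Type} [MeasurableSpace α] (ν : Measure α) [IsProbabilityMeasure ν]
    {f : α → ℝ} {C : ℝ} (h : ∀ x, |f x| ≤ C) : |∫ x, f x ∂ν| ≤ C := by
  simpa using norm_integral_le_of_norm_le_const (μ := ν) (f := f) (C := C) (ae_of_all _ h)

theorem Ker.bm_left (hk : Ker μ k) (y : U) : BM fun w => k w y :=
  hk.bm_prod.mark_comp (g := fun w => (w, y)) measurable_prodMk_right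

theorem Ker.bm_right (hk : Ker μ k) (w : Ω) : BM fun y => k w y :=
  hk.bm_prod.mark_comp (g := fun y => (w, y)) measurable_prodMk_left

theorem Ker.gg_bm (hk : Ker μ k) (hF : BM F) : BM (gg P k F) := by
  obtain ⟨hm, C, hC⟩ := (hF.mark_comp (measurable_fst (α := Ω) (β := U))).mul hk.bm_prod
  exact ⟨(hm.stronglyMeasurable.integral_prod_left' (μ := P)).measurable, C,
    fun y => mark_int_le P fun w => hC (w, y)⟩

theorem Ker.gg_pos (hk : Ker μ k) (hF : PB F) (y : U) : 0 < gg P k F y := by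
  have h : ∀ w, 0 < F w * k w y := fun w => mul_pos (hF.pos w) (hk.pos w y)
  refine (integral_pos_iff_support_of_nonneg (fun w => (h w).le)
    (hF.bm.mul (hk.bm_left y)).integrable).2 ?_
  rw [show (Function.support fun w => F w * k w y) = univ from
    eq_univ_of_forall fun w => (h w).ne']
  simp

theorem PB.mark_one {α : Type} [MeasurableSpace α] : PB fun _ : α => (1 : ℝ) :=
  ⟨measurable_const, 1, 1, one_pos, fun _ => ⟨le_rfl, le_rfl⟩⟩

theorem Ker.r_pos (hk : Ker μ k) (y : U) : 0 < gg P k (fun _ => 1) y := hk.gg_pos PB.mark_one y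

theorem Ker.ratio_le (hk : Ker μ k) (hF : BM F) {C : ℝ} (h : ∀ w, F w ≤ C) (y : U) :
    gg P k F y / gg P k (fun _ => 1) y ≤ C := by
  rw [div_le_iff₀ (hk.r_pos y), gg, gg, ← integral_const_mul]
  refine integral_mono (hF.mul (hk.bm_left y)).integrable
    ((BM.const C).mul ((BM.const 1).mul (hk.bm_left y))).integrable fun w => ?_
  beta_reduce
  rw [one_mul]
  exact mul_le_mul_of_nonneg_right (h w) (hk.pos w y).le

theorem Ker.le_ratio (hk : Ker μ k) (hF : BM F) {C : ℝ} (h : ∀ w, C ≤ F w) (y : U) :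
    C ≤ gg P k F y / gg P k (fun _ => 1) y := by
  rw [le_div_iff₀ (hk.r_pos y), gg, gg, ← integral_const_mul]
  refine integral_mono ((BM.const C).mul ((BM.const 1).mul (hk.bm_left y))).integrable
    (hF.mul (hk.bm_left y)).integrable fun w => ?_
  beta_reduce
  rw [one_mul]
  exact mul_le_mul_of_nonneg_right (h w) (hk.pos w y).le

theorem Ker.ratio_bm (hk : Ker μ k) (hF : BM F) :
    BM fun y => gg P k F y / gg P k (fun _ => 1) y := by
  obtain ⟨C, hC⟩ := hF.2
  exact ⟨(hk.gg_bm hF).1.div (hk.gg_bm (BM.const 1)).1, C, fun y => abs_le.2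
    ⟨hk.le_ratio hF (fun w => (abs_le.1 (hC w)).1) y,
      hk.ratio_le hF (fun w => (abs_le.1 (hC w)).2) y⟩⟩

theorem Ker.ratio_pb (hk : Ker μ k) (hF : PB F) :
    PB fun y => gg P k F y / gg P k (fun _ => 1) y := by
  obtain ⟨c, C, hc, hC⟩ := hF.2
  exact ⟨(hk.ratio_bm hF.bm).1, c, C, hc, fun y =>
    ⟨hk.le_ratio hF.bm (fun w => (hC w).1) y, hk.ratio_le hF.bm (fun w => (hC w).2) y⟩⟩

theorem Ker.int_bm (hk : Ker μ k) {h : U → ℝ} (hh : BM h) : BM fun w => ∫ y, k w y * h y ∂μ := by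
  obtain ⟨hm, C, hC⟩ := hk.bm_prod.mul (hh.mark_comp (measurable_snd (α := Ω) (β := U)))
  exact ⟨(hm.stronglyMeasurable.integral_prod_right' (ν := μ)).measurable, C,
    fun w => mark_int_le μ fun y => hC (w, y)⟩

theorem Ker.fubini (hk : Ker μ k) (hF : BM F) {h : U → ℝ} (hh : BM h) :
    ∫ w, F w * ∫ y, k w y * h y ∂μ ∂P = ∫ y, gg P k F y * h y ∂μ := by
  have h1 := integral_integral_swap (μ := P) (ν := μ) (f := fun w y => F w * k w y * h y)
    (((hF.mark_comp (measurable_fst (α := Ω) (β := U))).mul hk.bm_prod).mul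
      (hh.mark_comp (measurable_snd (α := Ω) (β := U)))).integrable
  simp only [gg, ← integral_const_mul, ← integral_mul_const, ← mul_assoc]
  exact h1

theorem Ker.gg_mass (hk : Ker μ k) (hF : BM F) : ∫ y, gg P k F y ∂μ = ∫ w, F w ∂P := by
  have h := hk.fubini (P := P) hF (BM.const 1)
  simp only [mul_one, hk.one] at h
  exact h.symm

theorem Ker.Pk_bm (hk : Ker μ k) (hF : BM F) : BM (Pk P μ k F) := hk.int_bm (hk.ratio_bm hF)

theorem Ker.Pk_pb (hk : Ker μ k) (hF : PB F) : PB (Pk P μ k F) := by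
  obtain ⟨hm, c, C, hc, hC⟩ := hk.ratio_pb (P := P) hF
  refine ⟨(hk.Pk_bm hF.bm).1, c, C, hc, fun w => ?_⟩
  have h0 := ((hk.bm_right w).mul (hk.ratio_bm (P := P) hF.bm)).integrable (μ := μ)
  have h1 : ∀ a : ℝ, ∫ y, k w y * a ∂μ = a := fun a => by rw [integral_mul_const, hk.one, one_mul]
  constructor
  · rw [← h1 c]
    exact integral_mono ((hk.bm_right w).mul (BM.const c)).integrable h0 fun y =>
      mul_le_mul_of_nonneg_left (hC y).1 (hk.pos w y).le
  · rw [← h1 C]
    exact integral_mono h0 ((hk.bm_right w).mul (BM.const C)).integrable fun y =>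
      mul_le_mul_of_nonneg_left (hC y).2 (hk.pos w y).le

theorem Ker.inner_Pk (hk : Ker μ k) (hF : BM F) (hG : BM G) :
    ∫ w, F w * Pk P μ k G w ∂P = ∫ y, gg P k F y * gg P k G y / gg P k (fun _ => 1) y ∂μ := by
  simp only [mul_div_assoc]
  exact hk.fubini hF (hk.ratio_bm hG)

theorem Ker.Pk_mass (hk : Ker μ k) (hF : BM F) : ∫ w, Pk P μ k F w ∂P = ∫ w, F w ∂P := by
  have h := hk.inner_Pk (P := P) (BM.const 1) hF
  simp only [one_mul, mul_div_cancel_left₀ _ (hk.r_pos _).ne'] at h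
  rw [h, hk.gg_mass hF]

theorem Ker.Pk_one (hk : Ker μ k) : (Pk P μ k fun _ => 1) = fun _ => 1 := by
  funext w
  simp only [Pk, div_self (hk.r_pos _).ne', mul_one, hk.one]

theorem Ker.gg_sum (hk : Ker μ k) {Z : Type} [Fintype Z] (c : Z → ℝ) {F : Z → Ω → ℝ}
    (hF : ∀ z, BM (F z)) (y : U) :
    gg P k (fun w => ∑ z, c z * F z w) y = ∑ z, c z * gg P k (F z) y := by
  simp only [gg, Finset.sum_mul, mul_assoc, ← integral_const_mul]
  exact integral_finsetSum _ fun z _ => ((BM.const _).mul ((hF z).mul (hk.bm_left y))).integrable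

theorem Ker.Pk_sum (hk : Ker μ k) {Z : Type} [Fintype Z] (c : Z → ℝ) {F : Z → Ω → ℝ}
    (hF : ∀ z, BM (F z)) :
    (Pk P μ k fun w => ∑ z, c z * F z w) = fun w => ∑ z, c z * Pk P μ k (F z) w := by
  funext w
  simp only [Pk, hk.gg_sum c hF, ← integral_const_mul]
  rw [← integral_finsetSum _ fun z _ =>
    ((BM.const _).mul ((hk.bm_right w).mul (hk.ratio_bm (hF z)))).integrable]
  refine integral_congr_ae (ae_of_all _ fun y => ?_)
  simp only [Finset.sum_div, Finset.mul_sum]
  exact Finset.sum_congr rfl fun z _ => by ring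

theorem bm_mul_log {α : Type} [MeasurableSpace α] {g : α → ℝ} (hg : BM g) :
    BM fun x => g x * log (g x) := by
  obtain ⟨hm, C, hC⟩ := hg
  exact bm_comp hm (r := C) hC continuous_mul_log

/-- `∫ r log r ≥ 0` for the density `r = gg 1` -/
theorem Ker.el_r (hk : Ker μ k) : 0 ≤ el μ (gg P k fun _ => 1) := by
  have hr := hk.gg_bm (P := P) (BM.const 1)
  have h1 : ∫ y, (gg P k (fun _ => 1) y - 1) ∂μ = 0 := by
    rw [integral_sub hr.integrable (integrable_const _), hk.gg_mass (BM.const 1)]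
    simp
  rw [← h1, el]
  refine integral_mono (hr.sub (BM.const 1)).integrable (bm_mul_log hr).integrable fun y => ?_
  have h2 := hk.r_pos (P := P) y
  have h3 := mul_le_mul_of_nonneg_left (one_sub_inv_le_log_of_pos h2) h2.le
  rwa [mul_sub, mul_one, mul_inv_cancel₀ h2.ne'] at h3

end Vale.Agent.P245
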