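import Vale.Agent.P245.PLE
import Vale.Agent.P245.Mark

/-! The log-Sobolev inequality for `μ` as an entropy contraction of the Gibbs sampler.

Plan.  `g = gg P k F` is continuous (`continuous_of_dominated`) and positive.  For fixed `y` let
`κ w = F w * k w y / g y` (`PB`, mass one), `Xm = mid X Y`,
`v y = toLp fun i => ∫ κ * (Xm - y) i` (measurable; bounded for `‖y‖ ≤ R` since `‖Xm‖ ≤ r`), so that
`⟪v y, ξ⟫ = ∫ κ ⟪Xm - y, ξ⟫`.
* `g y' / g y = ∫ κ exp (⟪Xm - y, y' - y⟫ - ‖y' - y‖²/2)`, so `jensen_exp` gives the hypothesis of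
  `LS` with `Λ = 1/2`.
* `ple` with `u = y`, `v = v y`, `log κ = log F + log k - log g`, `log_k`, `log_q` give
  `‖v y‖² / 2 ≤ ∫ κ log F - log (g y) + L / 2`, i.e.
  `‖v y‖² g y ≤ 2 (gg (F log F) y - g y log (g y)) + L g y`; integrate with `gg_mass`. -/

open MeasureTheory Real Set
open scoped RealInnerProductSpace

namespace Vale.Agent.P245

variable {n : ℕ} {ρ : E n → ℝ} {R : ℝ}

theorem continuous_mid : Continuous fun p : E n × E n => mid p.1 p.2 := by
  unfold mid
  fun_prop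

theorem Cpl.bm_mid {q : E n → ℝ} (c : Cpl q) {φ : E n → ℝ} (hφ : Continuous φ) :
    BM fun w => φ (mid (c.X w) (c.Y w)) :=
  c.bm (hφ.comp continuous_mid)

theorem Cpl.meas_mid {q : E n → ℝ} (c : Cpl q) : Measurable fun w => mid (c.X w) (c.Y w) :=
  continuous_mid.measurable.comp (c.mX.prodMk c.mY)

theorem Cpl.norm_mid {q : E n → ℝ} (c : Cpl q) (w : E n) : ‖mid (c.X w) (c.Y w)‖ ≤ c.r := by
  rw [mid, norm_smul, Real.norm_of_nonneg (by norm_num)]
  linarith [norm_add_le (c.X w) (c.Y w), c.bS _ (c.memX w), c.bT _ (c.memY w)]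

theorem PB.mul {α : Type} [MeasurableSpace α] {f g : α → ℝ} (hf : PB f) (hg : PB g) :
    PB fun x => f x * g x := by
  obtain ⟨hm, c, C, hc, hC⟩ := hf
  obtain ⟨hm', c', C', hc', hC'⟩ := hg
  exact ⟨hm.mul hm', c * c', C * C', mul_pos hc hc', fun x =>
    ⟨mul_le_mul (hC x).1 (hC' x).1 hc'.le (hc.le.trans (hC x).1),
      mul_le_mul (hC x).2 (hC' x).2 (hc'.le.trans (hC' x).1) ((hc.le.trans (hC x).1).trans (hC x).2)⟩⟩

theorem PB.const {α : Type} [MeasurableSpace α] {a : ℝ} (ha : 0 < a) : PB fun _ : α => a :=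
  ⟨measurable_const, a, a, ha, fun _ => ⟨le_rfl, le_rfl⟩⟩

theorem Cpl.gg_cont (h : Good ρ R) (c : Cpl (sm ρ)) {F : E n → ℝ} (hF : BM F) :
    Continuous (gg c.P c.k F) := by
  have := c.prob
  obtain ⟨C, hC⟩ := (c.ker h).bdd
  obtain ⟨mF, C', hC'⟩ := hF
  refine continuous_of_dominated (bound := fun _ => C' * C)
    (fun y => (mF.mul ((c.ker h).meas.comp measurable_prodMk_right)).aestronglyMeasurable)
    (fun y => ae_of_all _ fun w => ?_) (integrable_const _) (ae_of_all _ fun w => ?_)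
  · rw [norm_mul, Real.norm_eq_abs, Real.norm_of_nonneg ((c.ker h).pos w y).le]
    exact mul_le_mul (hC' w) (hC w y) ((c.ker h).pos w y).le ((abs_nonneg _).trans (hC' w))
  · unfold Cpl.k
    fun_prop

theorem Cpl.k_shift (c : Cpl (sm ρ)) (w y y' : E n) : c.k w y' =
    c.k w y * exp (⟪y' - y, mid (c.X w) (c.Y w) - y⟫ - ‖y' - y‖ ^ 2 / 2) := by
  rw [Cpl.k, Cpl.k, gau, gau, div_mul_eq_mul_div, div_mul_eq_mul_div, ← exp_add]
  congr 3
  rw [show mid (c.X w) (c.Y w) - y' = (mid (c.X w) (c.Y w) - y) - (y' - y) by abel,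
    norm_sub_sq_real, real_inner_comm]
  ring

theorem Cpl.h1 (h : Good ρ R) (c : Cpl (sm ρ)) {A B : ℝ} (hA : 0 ≤ A) (hl : LS (mea ρ) R A B)
    {F : E n → ℝ} (hF : PB F) :
    ent (mea ρ) (gg c.P c.k F) ≤
      A * (2 * (el c.P F - el (mea ρ) (gg c.P c.k F)) + c.L * ∫ w, F w ∂c.P) +
        B * ∫ w, F w ∂c.P := by
  have := c.prob
  have := h.prob
  have hk := c.ker h
  set g := gg c.P c.k F with hg
  have cg : Continuous g := c.gg_cont h hF.bm
  have g0 : ∀ y, 0 < g y := hk.gg_pos hF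
  set m : E n → E n := fun w => mid (c.X w) (c.Y w) with hm
  set κ : E n → E n → ℝ := fun y w => F w * c.k w y * (g y)⁻¹ with hκ
  have κ0 : ∀ y, PB (κ y) := fun y => (hF.mul (c.k_pb h y)).mul (PB.const (inv_pos.2 (g0 y)))
  have κ1 : ∀ y, ∫ w, κ y w ∂c.P = 1 := fun y => by
    rw [hκ, integral_mul_const]
    exact mul_inv_cancel₀ (g0 y).ne'
  set v : E n → E n := fun y => ∫ w, κ y w • (m w - y) ∂c.P with hv
  have mv : Measurable v := by
    refine (StronglyMeasurable.integral_prod_left' (μ := c.P)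
      (f := fun p : E n × E n => κ p.2 p.1 • (m p.1 - p.2)) (Measurable.stronglyMeasurable ?_)).measurable
    exact (((hF.1.comp measurable_fst).mul hk.meas).mul (cg.measurable.comp measurable_snd).inv).smul
      ((c.meas_mid.comp measurable_fst).sub measurable_snd)
  have nv : ∀ y w, ‖κ y w • (m w - y)‖ ≤ κ y w * (c.r + ‖y‖) := fun y w => by
    rw [norm_smul, Real.norm_of_nonneg ((κ0 y).pos w).le]
    exact mul_le_mul_of_nonneg_left ((norm_sub_le _ _).trans (by linarith [c.norm_mid w]))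
      ((κ0 y).pos w).le
  have iv : ∀ y, Integrable (fun w => κ y w • (m w - y)) c.P := fun y =>
    ((κ0 y).bm.integrable.mul_const _).mono'
      ((κ0 y).1.smul (c.meas_mid.sub_const y)).aestronglyMeasurable (ae_of_all _ (nv y))
  have bv : ∀ y, ‖y‖ ≤ R → ‖v y‖ ≤ c.r + R := fun y hy => by
    refine (norm_integral_le_of_norm_le ((κ0 y).bm.integrable.mul_const _)
      (ae_of_all _ (nv y))).trans ?_
    rw [integral_mul_const, κ1]
    linarith
  have ev : ∀ y ξ, ∫ w, κ y w * ⟪ξ, m w - y⟫ ∂c.P = ⟪ξ, v y⟫ := fun y ξ => by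
    rw [hv, ← integral_inner (iv y)]
    simp only [inner_smul_right]
  have bi : ∀ y ξ, BM fun w => ⟪ξ, m w - y⟫ := fun y ξ =>
    c.bm_mid (φ := fun x => ⟪ξ, x - y⟫) (by fun_prop)
  have h1 := hl g v (1 / 2) cg g0 mv ⟨_, bv⟩ (fun y y' _ _ => by
    have b1 := (bi y (y' - y)).sub (BM.const (‖y' - y‖ ^ 2 / 2))
    have h2 := jensen_exp (ae_of_all _ fun w => ((κ0 y).pos w).le) (κ1 y)
      ((κ0 y).bm.mul b1).integrable ((κ0 y).bm.mul b1.exp.bm).integrable
    have h3 : ∫ w, κ y w * exp (⟪y' - y, m w - y⟫ - ‖y' - y‖ ^ 2 / 2) ∂c.P = g y' * (g y)⁻¹ := by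
      rw [hg, gg, ← integral_mul_const]
      refine integral_congr_ae (ae_of_all _ fun w => ?_)
      simp only [hκ, hm, c.k_shift w y y', hg]
      ring
    simp only [mul_sub] at h2
    rw [integral_sub ((κ0 y).bm.mul (bi _ _)).integrable ((κ0 y).bm.integrable.mul_const _), ev,
      integral_mul_const, κ1, h3, ← le_log_iff_exp_le (mul_pos (g0 _) (inv_pos.2 (g0 _))),
      log_mul (g0 _).ne' (inv_pos.2 (g0 _)).ne', log_inv, real_inner_comm] at h2
    linarith)
  have bF : BM fun w => F w * log (F w) := bm_mul_log hF.bm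
  have h2 : ∀ y, ‖v y‖ ^ 2 * g y ≤
      2 * (gg c.P c.k (fun w => F w * log (F w)) y - g y * log (g y)) + c.L * g y := fun y => by
    have h3 := c.ple h.sm_cont h.sm_pos (κ0 y) (κ1 y) y (v y)
    have i1 := ((κ0 y).bm.mul (bi y (v y))).integrable (μ := c.P)
    have i2 := ((κ0 y).bm.mul hF.log).integrable (μ := c.P)
    have i3 := (κ0 y).bm.integrable (μ := c.P)
    have h4 : ∫ w, (κ y w * ⟪v y, m w - y⟫ - κ y w * log (F w) +
        κ y w * (log (cn n) + log (g y) - c.L / 2)) ∂c.P ≤ ‖v y‖ ^ 2 / 2 + log (cn n) := by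
      refine le_trans (integral_mono ((i1.sub i2).add (i3.mul_const _)) ?_ fun w => ?_) h3
      · refine ((κ0 y).bm.mul ((((bi y (v y)).sub (c.bm_mid (φ := fun x => ‖x - y‖ ^ 2 / 2)
          (by fun_prop))).sub (κ0 y).log).sub (c.bm (φ := fun p =>
            (log (c.a * sm ρ p.1) + log (c.b * sm ρ p.2)) / 2) ?_))).integrable
        have := h.sm_cont
        refine (Continuous.add (Continuous.log (by fun_prop) fun p => ?_)
          (Continuous.log (by fun_prop) fun p => ?_)).div_const _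
        · exact (mul_pos c.ha (h.sm_pos _)).ne'
        · exact (mul_pos c.hb (h.sm_pos _)).ne'
      · have h5 : log (κ y w) = log (F w) + log (c.k w y) - log (g y) := by
          rw [hκ, log_mul (mul_pos (hF.pos w) (hk.pos w y)).ne' (inv_pos.2 (g0 y)).ne',
            log_mul (hF.pos w).ne' (hk.pos w y).ne', log_inv]
          ring
        have h6 := c.log_k h w y
        have h7 := c.log_q h w
        simp only
        rw [← mul_sub, ← mul_add]
        refine mul_le_mul_of_nonneg_left ?_ ((κ0 y).pos w).le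
        simp only [hm]
        linarith
    have h5 : ∫ w, κ y w * log (F w) ∂c.P = gg c.P c.k (fun w => F w * log (F w)) y * (g y)⁻¹ := by
      rw [gg, ← integral_mul_const]
      refine integral_congr_ae (ae_of_all _ fun w => ?_)
      simp only [hκ]
      ring
    rw [integral_add (i1.sub' i2) (i3.mul_const _), integral_sub i1 i2, ev, integral_mul_const, κ1,
      h5, real_inner_self_eq_norm_sq] at h4
    have h6 := mul_le_mul_of_nonneg_right h4 (g0 y).le
    have h7 : gg c.P c.k (fun w => F w * log (F w)) y * (g y)⁻¹ * g y =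
        gg c.P c.k (fun w => F w * log (F w)) y := inv_mul_cancel_right₀ (g0 y).ne' _
    nlinarith
  have bg : BM g := hk.gg_bm hF.bm
  have h3 : ∫ y, ‖v y‖ ^ 2 * g y ∂mea ρ ≤
      2 * (el c.P F - el (mea ρ) g) + c.L * ∫ w, F w ∂c.P := by
    have i1 := (hk.gg_bm (P := c.P) bF).integrable (μ := mea ρ)
    have i2 := (bm_mul_log bg).integrable (μ := mea ρ)
    have i3 := bg.integrable (μ := mea ρ)
    refine (integral_mono_of_nonneg (ae_of_all _ fun y => mul_nonneg (sq_nonneg _) (g0 y).le)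
      (((i1.sub i2).const_mul 2).add (i3.const_mul c.L)) (ae_of_all _ h2)).trans (le_of_eq ?_)
    simp only [Pi.add_apply, Pi.sub_apply]
    rw [integral_add ((i1.sub' i2).const_mul 2) (i3.const_mul c.L), integral_const_mul,
      integral_const_mul, integral_sub i1 i2, hk.gg_mass bF, hg, hk.gg_mass hF.bm]
    rfl
  rw [hg, hk.gg_mass hF.bm] at h1
  linarith [mul_le_mul_of_nonneg_left h3 hA]

end Vale.Agent.P245
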