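import Vale.Agent.P245.Mark

/-! The Gibbs sampler as an operator: variance and entropy steps.

Plan.  `dir_nonneg`: for each `y`, `0 ≤ ∫ (F - c)² k dP` with `c = gg F y / gg 1 y` gives
`(gg F y)² / gg 1 y ≤ gg (F²) y`; integrate (`gg_mass`).
`iter_lower`: `Pk` is symmetric and nonnegative (`inner_Pk`), hence so are its powers
(`⟨G, Pk^(j+2) G⟩ = ⟨Pk G, Pk^j (Pk G)⟩`); with `a j = ⟨F, Pk^j F⟩` and `G = F - Pk F`,
`a j - 2 a (j+1) + a (j+2) = ⟨G, Pk^j G⟩ ≥ 0` (linearity from `Pk_sum` or directly), so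
`a j - a (j+1) ≤ a 0 - a 1`.
`ent_step`: tangent line of `x log x` at `m = Pk F w`: `m log m + (log m + 1) (h - m) ≤ h log h`
with `h = gg F / gg 1`, integrate against `k w ·`, then over `P` (`fubini` with `F = 1`). -/

open MeasureTheory Real Set

namespace Vale.Agent.P245

variable {Ω U : Type} [MeasurableSpace Ω] [MeasurableSpace U] {P : Measure Ω} {μ : Measure U}
  [IsProbabilityMeasure P] [IsProbabilityMeasure μ] {k : Ω → U → ℝ} {F : Ω → ℝ}

/-- the Dirichlet form `⟨F, (1 - Pk) F⟩` -/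
noncomputable def dir (P : Measure Ω) (μ : Measure U) (k : Ω → U → ℝ) (F : Ω → ℝ) : ℝ :=
  ∫ w, F w ^ 2 ∂P - ∫ y, gg P k F y ^ 2 / gg P k (fun _ => 1) y ∂μ

theorem Ker.iter_bm (hk : Ker μ k) (hF : BM F) (j : ℕ) : BM ((Pk P μ k)^[j] F) := by
  induction j with
  | zero => exact hF
  | succ j ih =>
    rw [Function.iterate_succ_apply']
    exact hk.Pk_bm ih

theorem Ker.iter_pb (hk : Ker μ k) (hF : PB F) (j : ℕ) : PB ((Pk P μ k)^[j] F) := by
  induction j with
  | zero => exact hF
  | succ j ih =>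
    rw [Function.iterate_succ_apply']
    exact hk.Pk_pb ih

theorem Ker.iter_mass (hk : Ker μ k) (hF : BM F) (j : ℕ) :
    ∫ w, (Pk P μ k)^[j] F w ∂P = ∫ w, F w ∂P := by
  induction j with
  | zero => rfl
  | succ j ih => rw [Function.iterate_succ_apply', hk.Pk_mass (hk.iter_bm hF j), ih]

theorem Ker.iter_one (hk : Ker μ k) (j : ℕ) : ((Pk P μ k)^[j] fun _ => 1) = fun _ => 1 := by
  exact Function.iterate_fixed hk.Pk_one j

theorem Ker.iter_sum (hk : Ker μ k) {Z : Type} [Fintype Z] (c : Z → ℝ) {F : Z → Ω → ℝ}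
    (hF : ∀ z, BM (F z)) (j : ℕ) : ((Pk P μ k)^[j] fun w => ∑ z, c z * F z w) =
      fun w => ∑ z, c z * (Pk P μ k)^[j] (F z) w := by
  induction j with
  | zero => rfl
  | succ j ih =>
    rw [Function.iterate_succ_apply', ih, hk.Pk_sum c fun z => hk.iter_bm (hF z) j]
    simp only [Function.iterate_succ_apply']

theorem Ker.dir_nonneg (hk : Ker μ k) (hF : BM F) : 0 ≤ dir P μ k F := by
  have hF2 : BM fun w => F w ^ 2 := by simpa only [sq] using hF.mul hF
  rw [dir, sub_nonneg, ← hk.gg_mass hF2]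
  have hi : BM fun y => gg P k F y ^ 2 / gg P k (fun _ => 1) y := by
    simpa only [sq, mul_div_assoc] using (hk.gg_bm hF).mul (hk.ratio_bm (P := P) hF)
  refine integral_mono hi.integrable (hk.gg_bm hF2).integrable fun y => ?_
  have hr := hk.r_pos (P := P) y
  set c := gg P k F y / gg P k (fun _ => 1) y with hc
  have i2 : Integrable (fun w => F w ^ 2 * k w y) P := (hF2.mul (hk.bm_left y)).integrable
  have i1 : Integrable (fun w => 2 * c * (F w * k w y)) P :=
    (hF.mul (hk.bm_left y)).integrable.const_mul _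
  have i0 : Integrable (fun w => c ^ 2 * (1 * k w y)) P :=
    ((BM.const 1).mul (hk.bm_left y)).integrable.const_mul _
  have h : ∫ w, 2 * c * (F w * k w y) ∂P ≤ ∫ w, F w ^ 2 * k w y + c ^ 2 * (1 * k w y) ∂P :=
    integral_mono i1 (i2.add i0) fun w => by
      have := mul_nonneg (sq_nonneg (F w - c)) (hk.pos w y).le
      simp only
      linarith
  rw [integral_add i2 i0, integral_const_mul, integral_const_mul] at h
  have e1 : gg P k F y = c * gg P k (fun _ => 1) y := by rw [hc, div_mul_cancel₀ _ hr.ne']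
  have e2 : gg P k F y ^ 2 / gg P k (fun _ => 1) y = c * gg P k F y := by
    rw [hc]
    ring
  have h' : 2 * c * gg P k F y ≤ gg P k (fun w => F w ^ 2) y + c ^ 2 * gg P k (fun _ => 1) y := h
  simp only
  rw [e2]
  rw [e1] at h' ⊢
  linarith

theorem Ker.op_symm (hk : Ker μ k) {G : Ω → ℝ} (hF : BM F) (hG : BM G) :
    ∫ w, Pk P μ k F w * G w ∂P = ∫ w, F w * Pk P μ k G w ∂P := by
  rw [hk.inner_Pk hF hG]
  simp only [mul_comm (Pk P μ k F _), mul_comm (gg P k F _)]
  exact hk.inner_Pk hG hF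

theorem Ker.op_nonneg (hk : Ker μ k) (j : ℕ) :
    ∀ G : Ω → ℝ, BM G → 0 ≤ ∫ w, G w * (Pk P μ k)^[j] G w ∂P := by
  induction j using Nat.twoStepInduction with
  | zero => exact fun G _ => integral_nonneg fun w => mul_self_nonneg _
  | one =>
    intro G hG
    rw [Function.iterate_one, hk.inner_Pk hG hG]
    exact integral_nonneg fun y => div_nonneg (mul_self_nonneg _) (hk.r_pos y).le
  | more j ih _ =>
    intro G hG
    rw [Function.iterate_succ_apply', Function.iterate_succ_apply,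
      ← hk.op_symm hG (hk.iter_bm (hk.Pk_bm hG) j)]
    exact ih _ (hk.Pk_bm hG)

theorem Ker.op_conv (hk : Ker μ k) (hF : BM F) (j : ℕ) :
    (∫ w, F w * (Pk P μ k)^[j + 1] F w ∂P) - ∫ w, F w * (Pk P μ k)^[j + 2] F w ∂P ≤
      (∫ w, F w * (Pk P μ k)^[j] F w ∂P) - ∫ w, F w * (Pk P μ k)^[j + 1] F w ∂P := by
  have hT := hk.Pk_bm (P := P) hF
  have h0 := hk.op_nonneg (P := P) j _ (hF.sub hT)
  have h1 := hk.iter_sum (P := P) (Z := Fin 2) ![1, -1] (F := ![F, Pk P μ k F])
    (Fin.forall_fin_two.2 ⟨hF, hT⟩) j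
  simp only [Fin.sum_univ_two, Matrix.cons_val_zero, Matrix.cons_val_one, one_mul, neg_mul,
    ← sub_eq_add_neg] at h1
  rw [h1, ← Function.iterate_succ_apply] at h0
  have b0 := hk.iter_bm (P := P) hF j
  have b1 := hk.iter_bm (P := P) hF (j + 1)
  simp only [sub_mul, mul_sub] at h0
  rw [integral_sub ((hF.mul b0).sub (hT.mul b0)).integrable ((hF.mul b1).sub (hT.mul b1)).integrable,
    integral_sub (hF.mul b0).integrable (hT.mul b0).integrable,
    integral_sub (hF.mul b1).integrable (hT.mul b1).integrable, hk.op_symm hF b0, hk.op_symm hF b1,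
    ← Function.iterate_succ_apply' (Pk P μ k), ← Function.iterate_succ_apply' (Pk P μ k)] at h0
  linarith

theorem Ker.iter_lower (hk : Ker μ k) (hF : BM F) (j : ℕ) :
    ∫ w, F w ^ 2 ∂P - j * dir P μ k F ≤ ∫ w, F w * (Pk P μ k)^[j] F w ∂P := by
  have e0 : ∫ w, F w * (Pk P μ k)^[0] F w ∂P = ∫ w, F w ^ 2 ∂P := by simp only [sq]; rfl
  have hd : ∀ i : ℕ, (∫ w, F w * (Pk P μ k)^[i] F w ∂P) - ∫ w, F w * (Pk P μ k)^[i + 1] F w ∂P ≤
      dir P μ k F := by
    intro i
    induction i with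
    | zero =>
      rw [e0, zero_add, Function.iterate_one, hk.inner_Pk hF hF, dir]
      simp only [sq, le_refl]
    | succ i ih => exact (hk.op_conv hF i).trans ih
  induction j with
  | zero => rw [e0, Nat.cast_zero, zero_mul, sub_zero]
  | succ j ih =>
    have := hd j
    push_cast
    linarith

theorem Ker.ent_step (hk : Ker μ k) (hF : PB F) :
    Integrable (fun y => gg P k F y * log (gg P k (fun _ => 1) y)) μ ∧
    el P (Pk P μ k F) ≤ el μ (gg P k F) - ∫ y, gg P k F y * log (gg P k (fun _ => 1) y) ∂μ := by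
  have hh := hk.ratio_pb (P := P) hF
  have hr := hk.r_pos (P := P)
  have hg := hk.gg_pos (P := P) hF
  have hi : BM fun y => gg P k F y * log (gg P k (fun _ => 1) y) := by
    have h := hh.bm.mul (bm_mul_log (hk.gg_bm (P := P) (BM.const 1)))
    refine (congrArg BM (funext fun y => ?_)).mp h
    rw [← mul_assoc, div_mul_cancel₀ _ (hr y).ne']
  refine ⟨hi.integrable, ?_⟩
  set h : U → ℝ := fun y => gg P k F y / gg P k (fun _ => 1) y with hdef
  have hl := bm_mul_log hh.bm
  have e : el μ (gg P k F) - ∫ y, gg P k F y * log (gg P k (fun _ => 1) y) ∂μ =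
      ∫ w, 1 * ∫ y, k w y * (h y * log (h y)) ∂μ ∂P := by
    rw [hk.fubini (BM.const 1) hl, el,
      ← integral_sub (bm_mul_log (hk.gg_bm hF.bm)).integrable hi.integrable]
    refine integral_congr_ae (ae_of_all _ fun y => ?_)
    simp only [hdef]
    rw [log_div (hg y).ne' (hr y).ne', ← mul_assoc, mul_div_cancel₀ _ (hr y).ne', mul_sub]
  rw [e, el]
  refine integral_mono (bm_mul_log (hk.Pk_bm hF.bm)).integrable
    ((BM.const 1).mul (hk.int_bm hl)).integrable fun w => ?_
  have hm : 0 < Pk P μ k F w := (hk.Pk_pb hF).pos w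
  have em : ∫ y, k w y * h y ∂μ = Pk P μ k F w := rfl
  simp only [one_mul]
  generalize Pk P μ k F w = m at hm em
  have i1 : Integrable (fun y => (log m + 1) * (k w y * h y)) μ :=
    ((hk.bm_right w).mul hh.bm).integrable.const_mul _
  have i0 : Integrable (fun y => m * k w y) μ := (hk.bm_right w).integrable.const_mul _
  have h1 : ∫ y, (log m + 1) * (k w y * h y) - m * k w y ∂μ ≤ ∫ y, k w y * (h y * log (h y)) ∂μ := by
    refine integral_mono (i1.sub i0) ((hk.bm_right w).mul hl).integrable fun y => ?_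
    have hy := hh.pos y
    have h2 := mul_le_mul_of_nonneg_left (log_le_sub_one_of_pos (div_pos hm hy)) hy.le
    rw [log_div hm.ne' hy.ne', mul_sub, mul_sub, mul_div_cancel₀ _ hy.ne'] at h2
    have h3 := mul_le_mul_of_nonneg_left h2 (hk.pos w y).le
    simp only
    linarith
  rw [integral_sub i1 i0, integral_const_mul, integral_const_mul, em, hk.one] at h1
  linarith

end Vale.Agent.P245
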