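import Vale.Agent.P245.H1
import Vale.Agent.P245.Op

/-! The displacement is almost a function of the hidden point.

Plan.  Fix `y`, `r = gg 1 y`, `κ w = k w y / r`, `x₀ = E_κ X`, `y₀ = E_κ Y` (coordinatewise),
`Xm = mid X Y`.  With `u = (Y - X)/4`:
`4 Var_κ u ≤ 4 E_κ ‖u - (y₀ - x₀)/4‖² = E_κ ‖Xm - mid x₀ y₀‖² - E_κ ⟪X - x₀, Y - y₀⟫`, where
`E_κ ‖Xm - mid x₀ y₀‖² ≤ E_κ ‖Xm - y‖²` and `E_κ ⟪X - x₀, Y - y₀⟫ = E_κ ⟪X - x₀, Y⟫`
(coordinatewise this is: `∑ i, (E u_i² - (E u_i)²)`, expand).  `fa`, `log κ = log k - log r`,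
`log_k`, `log_q` give `h2_pt`.  Integrate over `μ`: `gg_mass`, `el_r`. -/

open MeasureTheory Real Set
open scoped RealInnerProductSpace

namespace Vale.Agent.P245

variable {n : ℕ} {ρ : E n → ℝ} {R : ℝ}

theorem Cpl.h2_pt (h : Good ρ R) (c : Cpl (sm ρ)) (y : E n) :
    4 * ∑ i, (gg c.P c.k (fun w => c.u i w ^ 2) y -
        gg c.P c.k (c.u i) y ^ 2 / gg c.P c.k (fun _ => 1) y) ≤
      c.L * gg c.P c.k (fun _ => 1) y -
        2 * (gg c.P c.k (fun _ => 1) y * log (gg c.P c.k (fun _ => 1) y)) := by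
  have := c.prob
  have := h.prob
  have hk := c.ker h
  set r := gg c.P c.k (fun _ => 1) y with hr
  have r0 : 0 < r := hk.r_pos y
  set κ : E n → ℝ := fun w => c.k w y * r⁻¹ with hκ
  have κ0 : PB κ := (c.k_pb h y).mul (PB.const (inv_pos.2 r0))
  have eg : ∀ F : E n → ℝ, gg c.P c.k F y = r * ∫ w, κ w * F w ∂c.P := fun F => by
    rw [gg, ← integral_const_mul]
    refine integral_congr_ae (ae_of_all _ fun w => ?_)
    simp only [hκ]
    field_simp
  have κ1 : ∫ w, κ w ∂c.P = 1 := by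
    have h1 := eg fun _ => 1
    simp only [mul_one, ← hr] at h1
    exact (mul_eq_left₀ r0.ne').1 h1.symm
  set a : Fin n → ℝ := fun i => ∫ w, κ w * c.X w i ∂c.P with ha
  set b : Fin n → ℝ := fun i => ∫ w, κ w * c.Y w i ∂c.P with hb
  have iX : ∀ i, Integrable (fun w => κ w * c.X w i) c.P := fun i =>
    (κ0.bm.mul (c.bm (φ := fun p => p.1 i) (by fun_prop))).integrable
  have iY : ∀ i, Integrable (fun w => κ w * c.Y w i) c.P := fun i =>
    (κ0.bm.mul (c.bm (φ := fun p => p.2 i) (by fun_prop))).integrable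
  have iu : ∀ i, Integrable (fun w => κ w * c.u i w ^ 2) c.P := fun i => by
    simpa [sq] using (κ0.bm.mul ((c.u_bm i).mul (c.u_bm i))).integrable
  have i0 := κ0.bm.integrable (μ := c.P)
  have eu : ∀ i, ∫ w, κ w * c.u i w ∂c.P = (b i - a i) / 4 := fun i => by
    rw [ha, hb, ← integral_sub (iY i) (iX i), ← integral_div]
    refine integral_congr_ae (ae_of_all _ fun w => ?_)
    simp only [Cpl.u]
    ring
  have h3 := c.fa h.sm_cont h.sm_pos κ0 κ1 (x₀ := WithLp.toLp 2 a) fun i => rfl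
  have ii : ∀ i, Integrable (fun w => 4 * (κ w * c.u i w ^ 2) - y i * (κ w * c.X w i) +
      (a i - y i) * (κ w * c.Y w i) + κ w * y i ^ 2) c.P := fun i =>
    ((((iu i).const_mul _).sub ((iX i).const_mul _)).add ((iY i).const_mul _)).add (i0.mul_const _)
  have h4 : ∫ w, (∑ i, (4 * (κ w * c.u i w ^ 2) - y i * (κ w * c.X w i) +
      (a i - y i) * (κ w * c.Y w i) + κ w * y i ^ 2) +
      κ w * (2 * log (cn n) + 2 * log r - c.L)) ∂c.P ≤ 2 * log (cn n) := by
    refine le_trans (integral_mono ((integrable_finsetSum _ fun i _ => ii i).add (i0.mul_const _))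
      ?_ fun w => ?_) h3
    · refine (κ0.bm.mul (((c.bm (φ := fun p => -⟪p.1 - WithLp.toLp 2 a, p.2⟫) (by fun_prop)).sub
        ((BM.const 2).mul κ0.log)).sub (c.bm (φ := fun p =>
          log (c.a * sm ρ p.1) + log (c.b * sm ρ p.2)) ?_))).integrable
      have := h.sm_cont
      refine Continuous.add (Continuous.log (by fun_prop) fun p => ?_)
        (Continuous.log (by fun_prop) fun p => ?_)
      · exact (mul_pos c.ha (h.sm_pos _)).ne'
      · exact (mul_pos c.hb (h.sm_pos _)).ne'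
    · have h5 : log (κ w) = log (c.k w y) - log r := by
        rw [hκ, log_mul (hk.pos w y).ne' (inv_pos.2 r0).ne', log_inv]
        ring
      have h6 := c.log_k h w y
      have h7 := c.log_q h w
      have h8 : ∑ i, (4 * (κ w * c.u i w ^ 2) - y i * (κ w * c.X w i) +
          (a i - y i) * (κ w * c.Y w i) + κ w * y i ^ 2) =
          κ w * (‖mid (c.X w) (c.Y w) - y‖ ^ 2 - ⟪c.X w - WithLp.toLp 2 a, c.Y w⟫) := by
        rw [EuclideanSpace.real_norm_sq_eq, PiLp.inner_apply, ← Finset.sum_sub_distrib,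
          Finset.mul_sum]
        refine Finset.sum_congr rfl fun i _ => ?_
        simp [Cpl.u, mid]
        ring
      simp only
      rw [h8, ← mul_add]
      exact mul_le_mul_of_nonneg_left (by linarith) (κ0.pos w).le
  rw [integral_add (integrable_finsetSum _ fun i _ => ii i) (i0.mul_const _),
    integral_finsetSum _ fun i _ => ii i, integral_mul_const, κ1] at h4
  have h5 : 4 * ∑ i, (gg c.P c.k (fun w => c.u i w ^ 2) y - gg c.P c.k (c.u i) y ^ 2 / r) ≤
      r * ∑ i, ∫ w, (4 * (κ w * c.u i w ^ 2) - y i * (κ w * c.X w i) +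
        (a i - y i) * (κ w * c.Y w i) + κ w * y i ^ 2) ∂c.P := by
    rw [Finset.mul_sum, Finset.mul_sum]
    refine Finset.sum_le_sum fun i _ => ?_
    rw [integral_add ((((iu i).const_mul _).sub' ((iX i).const_mul _)).fun_add ((iY i).const_mul _))
      (i0.mul_const _), integral_add (((iu i).const_mul _).sub' ((iX i).const_mul _))
      ((iY i).const_mul _), integral_sub ((iu i).const_mul _) ((iX i).const_mul _),
      integral_const_mul, integral_const_mul, integral_const_mul, integral_mul_const, κ1, eg, eg,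
      eu, show (r * ((b i - a i) / 4)) ^ 2 / r = r * ((b i - a i) / 4) ^ 2 by field_simp]
    change _ ≤ r * (_ - y i * a i + (a i - y i) * b i + _)
    nlinarith [mul_nonneg r0.le (sq_nonneg (y i - (a i + b i) / 2))]
  nlinarith [mul_le_mul_of_nonneg_left h4 r0.le]

theorem Cpl.h2 (h : Good ρ R) (c : Cpl (sm ρ)) :
    ∑ i, dir c.P (mea ρ) c.k (c.u i) ≤ c.L / 4 := by
  have := c.prob
  have := h.prob
  have hk := c.ker h
  have b2 : ∀ i, BM fun w => c.u i w ^ 2 := fun i => by
    simpa [sq] using (c.u_bm i).mul (c.u_bm i)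
  have i1 : ∀ i, Integrable (gg c.P c.k fun w => c.u i w ^ 2) (mea ρ) := fun i =>
    (hk.gg_bm (b2 i)).integrable
  have i2 : ∀ i, Integrable (fun y => gg c.P c.k (c.u i) y ^ 2 / gg c.P c.k (fun _ => 1) y)
      (mea ρ) := fun i => by
    simpa [sq, mul_div_assoc] using
      ((hk.gg_bm (P := c.P) (c.u_bm i)).mul (hk.ratio_bm (P := c.P) (c.u_bm i))).integrable
  have b1 := hk.gg_bm (P := c.P) (BM.const 1)
  have h1 := integral_mono (μ := mea ρ)
    ((integrable_finsetSum Finset.univ fun i _ => (i1 i).sub' (i2 i)).const_mul 4)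
    ((b1.integrable.const_mul c.L).sub' ((bm_mul_log b1).integrable.const_mul 2)) (c.h2_pt h)
  rw [integral_const_mul, integral_finsetSum _ fun i _ => (i1 i).sub' (i2 i),
    integral_sub (b1.integrable.const_mul c.L) ((bm_mul_log b1).integrable.const_mul 2),
    integral_const_mul, integral_const_mul, hk.gg_mass (BM.const 1)] at h1
  have h2 := hk.el_r (P := c.P)
  have h3 : ∑ i, dir c.P (mea ρ) c.k (c.u i) = ∑ i, ∫ y, (gg c.P c.k (fun w => c.u i w ^ 2) y -
      gg c.P c.k (c.u i) y ^ 2 / gg c.P c.k (fun _ => 1) y) ∂mea ρ :=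
    Finset.sum_congr rfl fun i _ => by rw [dir, integral_sub (i1 i) (i2 i), hk.gg_mass (b2 i)]
  simp only [integral_const, probReal_univ, smul_eq_mul, mul_one] at h1
  rw [el] at h2
  linarith

end Vale.Agent.P245
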