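import Vale.Agent.P245.Basic

/-! From concentration to an infimum-convolution inequality.

Plan.  `exp_half`: with `M = exp (c/2)`, `μ {exp (φ/2) ≥ 2^k M} ≤ 4^(-k)` (take `s = c + 2 k log 2`)
and pointwise `exp (φ/2) ≤ M (1 + ∑_{k < N} 2^k 1{exp (φ/2) ≥ 2^k M})` as soon as
`exp (φ/2) ≤ 2^N M` (induction on `N`; `φ` is bounded), so the integral is `≤ 3 M`.
`tau`: let `α s = μ.real {φ / A ≥ s}`, `β t = μ.real {-ψ / A ≥ t}`; `CI` on the sets intersected
with `K` (`D = A (s + t)`) gives `α s * β t ≤ exp (B / A - s - t)`.  Let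
`M = ⨆ s, α s * exp s` (bounded as `φ` is bounded, positive).  Then `α s ≤ exp (log M - s)` and
`β t ≤ exp (B / A - log M - t)`; apply `exp_half` twice. -/

open MeasureTheory Real Set

namespace Vale.Agent.P245

variable {n : ℕ}

theorem tau_dyadic (u : ℝ) (N : ℕ) :
    min u (2 ^ N) ≤ 1 + ∑ k ∈ Finset.range N, if (2 : ℝ) ^ k ≤ u then (2 : ℝ) ^ k else 0 := by
  induction N with
  | zero => simp
  | succ N ih =>
    rw [Finset.sum_range_succ, pow_succ]
    split_ifs with c
    · rw [min_eq_right c] at ih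
      linarith [min_le_right u (2 ^ N * 2)]
    · rw [min_eq_left (not_le.1 c).le] at ih
      linarith [min_le_left u (2 ^ N * 2)]

theorem exp_half {α : Type} [MeasurableSpace α] {μ : Measure α} [IsProbabilityMeasure μ]
    {φ : α → ℝ} (hφ : BM φ) {c : ℝ} (h : ∀ s, μ.real {x | s ≤ φ x} ≤ exp (c - s)) :
    ∫ x, exp (φ x / 2) ∂μ ≤ 4 * exp (c / 2) := by
  obtain ⟨C, hC⟩ := hφ.2
  obtain ⟨N, hN⟩ := pow_unbounded_of_one_lt (exp ((C - c) / 2)) (one_lt_two (α := ℝ))
  have e : ∀ k : ℕ, exp (k * log 2) = 2 ^ k := fun k => by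
    rw [exp_nat_mul, exp_log two_pos]
  set S : ℕ → Set α := fun k => {x | c + 2 * (k * log 2) ≤ φ x} with hS
  have mS : ∀ k, MeasurableSet (S k) := fun k => measurableSet_le measurable_const hφ.1
  have h1 : ∀ x, exp (φ x / 2) ≤
      exp (c / 2) * (1 + ∑ k ∈ Finset.range N, (S k).indicator (fun _ => (2 : ℝ) ^ k) x) := by
    intro x
    rw [show φ x / 2 = c / 2 + (φ x - c) / 2 by ring, exp_add]
    refine mul_le_mul_of_nonneg_left ?_ (exp_pos _).le
    have h2 := tau_dyadic (exp ((φ x - c) / 2)) N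
    rw [min_eq_left ((exp_le_exp.2 (by linarith [(abs_le.1 (hC x)).2])).trans hN.le)] at h2
    refine h2.trans (add_le_add le_rfl (Finset.sum_le_sum fun k _ => ?_))
    split_ifs with c'
    · rw [indicator_of_mem]
      rw [← e, exp_le_exp] at c'
      change c + 2 * (k * log 2) ≤ φ x
      linarith
    · exact indicator_nonneg (fun _ _ => by positivity) _
  have i1 : ∀ k ∈ Finset.range N, Integrable ((S k).indicator fun _ => (2 : ℝ) ^ k) μ :=
    fun k _ => (integrable_const _).indicator (mS k)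
  have i2 := integrable_finsetSum _ i1
  have i3 : BM fun x => φ x / 2 := by
    simpa only [div_eq_mul_inv] using hφ.mul (BM.const 2⁻¹)
  refine (integral_mono i3.exp.bm.integrable
    (((integrable_const _).add i2).const_mul _) h1).trans ?_
  simp only [Pi.add_apply]
  rw [integral_const_mul, mul_comm, integral_add (integrable_const _) i2,
    integral_finsetSum _ i1]
  refine mul_le_mul_of_nonneg_right ?_ (exp_pos _).le
  have h3 : ∑ k ∈ Finset.range N, ∫ x, (S k).indicator (fun _ => (2 : ℝ) ^ k) x ∂μ ≤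
      ∑ k ∈ Finset.range N, (1 / 2 : ℝ) ^ k := Finset.sum_le_sum fun k _ => by
    rw [integral_indicator_const _ (mS k), smul_eq_mul]
    refine (mul_le_mul_of_nonneg_right (h _) (by positivity)).trans (le_of_eq ?_)
    rw [← e, ← exp_add, one_div, inv_pow, ← e, ← exp_neg]
    congr 1
    ring
  have h4 := sum_geometric_two_le N
  simp only [integral_const, probReal_univ, smul_eq_mul, mul_one]
  linarith

theorem tau {μ : Measure (E n)} [IsProbabilityMeasure μ] {A B : ℝ} (hA : 0 < A) (h : CI μ A B)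
    {K : Set (E n)} (mK : MeasurableSet K) (hK : ∀ᵐ x ∂μ, x ∈ K) {φ ψ : E n → ℝ} (hφ : BM φ)
    (hψ : BM ψ) (H : ∀ x ∈ K, ∀ y ∈ K, φ x - ψ y ≤ ‖x - y‖ ^ 2) :
    (∫ x, exp (φ x / (2 * A)) ∂μ) * (∫ y, exp (-ψ y / (2 * A)) ∂μ) ≤ 16 * exp (B / (2 * A)) := by
  obtain ⟨C, hC⟩ := hφ.2
  have b1 : BM fun x => φ x / A := by
    simpa only [div_eq_mul_inv] using hφ.mul (BM.const A⁻¹)
  have b2 : BM fun x => -ψ x / A := by
    simpa only [div_eq_mul_inv, neg_mul, mul_neg] using hψ.mul (BM.const (-A⁻¹))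
  have hi : ∀ S : Set (E n), μ.real (S ∩ K) = μ.real S := fun S =>
    measureReal_congr (by filter_upwards [hK] with x hx using propext (and_iff_left hx))
  have h1 : ∀ s t, μ.real {x | s ≤ φ x / A} * μ.real {y | t ≤ -ψ y / A} ≤
      exp (B / A - s - t) := fun s t => by
    rw [← hi, ← hi {y | t ≤ -ψ y / A},
      show B / A - s - t = (B - A * (s + t)) / A by field_simp; ring]
    refine h _ _ ((measurableSet_le measurable_const b1.1).inter mK)
      ((measurableSet_le measurable_const b2.1).inter mK) _ fun x hx y hy => ?_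
    have h2 := (le_div_iff₀ hA).1 hx.1
    have h3 := (le_div_iff₀ hA).1 hy.1
    linarith [H x hx.2 y hy.2]
  have h2 : BddAbove (range fun s => μ.real {x | s ≤ φ x / A} * exp s) := by
    refine ⟨exp (C / A), ?_⟩
    rintro _ ⟨s, rfl⟩
    by_cases c : s ≤ C / A
    · exact (mul_le_mul_of_nonneg_right measureReal_le_one (exp_pos _).le).trans
        (by rw [one_mul]; exact exp_le_exp.2 c)
    · have : {x | s ≤ φ x / A} = ∅ := eq_empty_of_forall_notMem fun x hx =>
        c (le_trans hx (div_le_div_of_nonneg_right (abs_le.1 (hC x)).2 hA.le))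
      simp only [this, measureReal_empty, zero_mul]
      exact (exp_pos _).le
  set M := ⨆ s, μ.real {x | s ≤ φ x / A} * exp s with hM
  have h3 : ∀ s, μ.real {x | s ≤ φ x / A} * exp s ≤ M := fun s => le_ciSup h2 s
  have h4 : 0 < M := by
    refine lt_of_lt_of_le ?_ (h3 (-C / A))
    have : {x | -C / A ≤ φ x / A} = univ := eq_univ_of_forall fun x =>
      div_le_div_of_nonneg_right (abs_le.1 (hC x)).1 hA.le
    rw [this, probReal_univ, one_mul]
    exact exp_pos _
  have h5 := exp_half (μ := μ) b1 (c := log M) fun s => by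
    rw [exp_sub, exp_log h4, le_div_iff₀ (exp_pos _)]
    exact h3 s
  have h6 := exp_half (μ := μ) b2 (c := B / A - log M) fun t => by
    rw [sub_right_comm, exp_sub, exp_log h4, le_div_iff₀ h4]
    rcases (measureReal_nonneg (μ := μ) (s := {y | t ≤ -ψ y / A})).eq_or_lt with c | c
    · rw [← c, zero_mul]
      exact (exp_pos _).le
    · rw [← le_div_iff₀' c]
      refine ciSup_le fun s => ?_
      rw [le_div_iff₀ c, mul_right_comm, ← le_div_iff₀ (exp_pos _), ← exp_sub, sub_right_comm]
      exact h1 s t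
  simp only [div_div, mul_comm A 2] at h5 h6
  refine (mul_le_mul h5 h6 (integral_nonneg fun _ => (exp_pos _).le) (by positivity)).trans
    (le_of_eq ?_)
  rw [mul_mul_mul_comm, ← exp_add]
  congr 1
  · norm_num
  · congr 1
    field_simp
    ring

end Vale.Agent.P245
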