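import Vale.Agent.P245.DC
import Vale.Agent.P245.Tau

/-! Concentration with defect gives a defective log-Sobolev inequality (HWI route).

Plan.  Write `μ = mea ρ`, `D = ∫ p log p dμ`, `x_t = (1-t) x + t T x`.
* `transport_le`: `tau` on `K = closedBall 0 R` with `φ = ‖x‖² - 2 Φ x`, `ψ = 2 Ψ y - ‖y‖²` (cut off
  outside `K` by an indicator to be `BM`); `‖x - T x‖² = φ x - ψ (T x)` a.e.; `jensen_exp` with
  `κ = p`, `a = φ / (2A) - log p`, and with `κ = 1`, `a = -ψ / (2A)`; `Br.law`; `16 ≤ exp 3`.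
* `ent_le`: `dc` with `H = min p (sup of p on K)`, `∫ H dμ = 1`, `H x_t = p x_t` a.e.;
  `p x_t * p x ^ t = p x * exp (log p x_t - log p x + t log p x)`; `jensen_exp` with `κ = p` gives
  `∫ p (log p x_t - log p x) + t D ≤ 0`; the hypothesis on `v` with `y = x_t`
  (`y - x = t (T x - x)`) gives `D ≤ ∫ ⟪v, x - T x⟫ p + |Λ| t (2R)²`; let `t → 0`.
* `Good.hwi`: normalise `p = g / ∫ g`; `⟪v, d⟫ ≤ M ‖v‖²/2 + ‖d‖²/(2M)`; `D ≥ 0`
  (`p log p ≥ p - 1`); `A / M ≤ 1/2`. -/

open MeasureTheory Real Set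
open scoped RealInnerProductSpace

namespace Vale.Agent.P245

variable {n : ℕ} {ρ : E n → ℝ} {R : ℝ} {p : E n → ℝ} {T : E n → E n} {Φ Ψ : E n → ℝ}

theorem hwi_int (h : Good ρ R) {V : Type} [NormedAddCommGroup V] [ProperSpace V] [MeasurableSpace V]
    [BorelSpace V] {X : E n → V} (mX : Measurable X) {r : ℝ} (hX : ∀ᵐ x ∂mea ρ, ‖X x‖ ≤ r)
    {φ : V → ℝ} (hφ : Continuous φ) : Integrable (fun x => φ (X x)) (mea ρ) := by
  have := h.prob
  obtain ⟨C, hC⟩ := (isCompact_closedBall (0 : V) r).exists_bound_of_continuousOn hφ.continuousOn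
  refine Integrable.of_bound (hφ.measurable.comp mX).aestronglyMeasurable C ?_
  filter_upwards [hX] with x hx using hC _ (by simpa using hx)

theorem hwi_int2 (h : Good ρ R) (hb : Br ρ R p T Φ Ψ) {φ : E n × E n → ℝ} (hφ : Continuous φ) :
    Integrable (fun x => φ (x, T x)) (mea ρ) := by
  refine hwi_int h (measurable_id.prodMk hb.mT) (r := R) ?_ hφ
  filter_upwards [h.ae, hb.sat] with x h1 h2 using norm_prod_le_iff.2 ⟨h1, h2.1⟩

theorem hwi_int3 (h : Good ρ R) (hb : Br ρ R p T Φ Ψ) {v : E n → E n} {C : ℝ} (mv : Measurable v)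
    (bv : ∀ x, ‖x‖ ≤ R → ‖v x‖ ≤ C) {φ : (E n × E n) × E n → ℝ} (hφ : Continuous φ) :
    Integrable (fun x => φ ((x, T x), v x)) (mea ρ) := by
  refine hwi_int h ((measurable_id.prodMk hb.mT).prodMk mv) (r := max R C) ?_ hφ
  filter_upwards [h.ae, hb.sat] with x h1 h2 using norm_prod_le_iff.2
    ⟨(norm_prod_le_iff.2 ⟨h1, h2.1⟩).trans (le_max_left _ _), (bv x h1).trans (le_max_right _ _)⟩

theorem hwi_bm (R : ℝ) {φ : E n → ℝ} (hφ : Continuous φ) :
    BM ((Metric.closedBall (0 : E n) R).indicator φ) := by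
  obtain ⟨C, hC⟩ := (isCompact_closedBall (0 : E n) R).exists_bound_of_continuousOn hφ.continuousOn
  refine ⟨hφ.measurable.indicator Metric.isClosed_closedBall.measurableSet, |C|, fun x => ?_⟩
  by_cases hx : x ∈ Metric.closedBall (0 : E n) R
  · rw [indicator_of_mem hx]; exact (hC x hx).trans (le_abs_self _)
  · rw [indicator_of_notMem hx, abs_zero]; exact abs_nonneg _

theorem transport_le (h : Good ρ R) (cp : Continuous p) (p0 : ∀ x, 0 < p x)
    (p1 : ∫ x, p x ∂mea ρ = 1) (hb : Br ρ R p T Φ Ψ) {A B : ℝ} (hA : 0 < A)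
    (hc : CI (mea ρ) A B) :
    ∫ x, ‖x - T x‖ ^ 2 * p x ∂mea ρ ≤ 2 * A * el (mea ρ) p + B + 6 * A := by
  have := h.prob
  obtain ⟨φ, hφ⟩ : ∃ φ : E n → ℝ, φ = fun x => ‖x‖ ^ 2 - 2 * Φ x := ⟨_, rfl⟩
  obtain ⟨ψ, hψ⟩ : ∃ ψ : E n → ℝ, ψ = fun y => 2 * Ψ y - ‖y‖ ^ 2 := ⟨_, rfl⟩
  have cφ : Continuous φ := by have := hb.cΦ; rw [hφ]; fun_prop
  have cψ : Continuous ψ := by have := hb.cΨ; rw [hψ]; fun_prop
  have cl : Continuous fun x => log (p x) := cp.log fun x => (p0 x).ne'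
  have hK : ∀ᵐ x ∂mea ρ, x ∈ Metric.closedBall (0 : E n) R := by simpa using h.ae
  have h1 := tau hA hc Metric.isClosed_closedBall.measurableSet hK (hwi_bm R cφ) (hwi_bm R cψ)
    fun x hx y hy => by
      rw [indicator_of_mem hx, indicator_of_mem hy, norm_sub_sq_real, hφ, hψ]
      linarith [hb.dual x y (by simpa using hx) (by simpa using hy)]
  have e1 : ∫ x, exp ((Metric.closedBall (0 : E n) R).indicator φ x / (2 * A)) ∂mea ρ =
      ∫ x, p x * exp (φ x / (2 * A) - log (p x)) ∂mea ρ := by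
    refine integral_congr_ae ?_
    filter_upwards [hK] with x hx
    rw [indicator_of_mem hx, exp_sub, exp_log (p0 x), mul_div_cancel₀ _ (p0 x).ne']
  have e2 : ∫ x, exp (-(Metric.closedBall (0 : E n) R).indicator ψ x / (2 * A)) ∂mea ρ =
      ∫ x, 1 * exp (-ψ x / (2 * A)) ∂mea ρ := by
    refine integral_congr_ae ?_
    filter_upwards [hK] with x hx
    rw [indicator_of_mem hx, one_mul]
  have j1 := jensen_exp (μ := mea ρ) (κ := p) (a := fun x => φ x / (2 * A) - log (p x))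
    (ae_of_all _ fun x => (p0 x).le) p1 (h.integrable (by fun_prop)) (h.integrable (by fun_prop))
  have j2 := jensen_exp (μ := mea ρ) (κ := fun _ => 1) (a := fun x => -ψ x / (2 * A))
    (ae_of_all _ fun _ => zero_le_one) (by simp) (h.integrable (by fun_prop))
    (h.integrable (by fun_prop))
  rw [e1, e2] at h1
  have h2 := (mul_le_mul j1 j2 (exp_pos _).le ((exp_pos _).le.trans j1)).trans h1
  have h3 : (16 : ℝ) ≤ exp 3 := by
    have a1 : exp 3 = exp 1 ^ 3 := by rw [← exp_nat_mul]; norm_num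
    rw [a1]
    exact le_trans (by norm_num) (pow_le_pow_left₀ (by norm_num) exp_one_gt_d9.le 3)
  have h4 := h2.trans (mul_le_mul_of_nonneg_right h3 (exp_pos _).le)
  rw [← exp_add, ← exp_add, exp_le_exp] at h4
  have e3 : ∫ x, p x * (φ x / (2 * A) - log (p x)) ∂mea ρ =
      (∫ x, φ x * p x ∂mea ρ) / (2 * A) - el (mea ρ) p := by
    rw [el, ← integral_div, ← integral_sub (h.integrable (by fun_prop)) (h.integrable (by fun_prop))]
    exact integral_congr_ae (ae_of_all _ fun x => by ring)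
  have e4 : ∫ x, 1 * (-ψ x / (2 * A)) ∂mea ρ = -(∫ x, ψ (T x) * p x ∂mea ρ) / (2 * A) := by
    rw [hb.law ψ cψ.measurable, ← integral_neg, ← integral_div]
    exact integral_congr_ae (ae_of_all _ fun x => by ring)
  have e5 : ∫ x, ‖x - T x‖ ^ 2 * p x ∂mea ρ =
      (∫ x, φ x * p x ∂mea ρ) - ∫ x, ψ (T x) * p x ∂mea ρ := by
    rw [← integral_sub (h.integrable (by fun_prop))
      (hwi_int2 h hb (φ := fun q => ψ q.2 * p q.1) (by fun_prop))]
    refine integral_congr_ae ?_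
    filter_upwards [hb.sat] with x hx
    rw [norm_sub_sq_real, ← hx.2, hφ, hψ]
    ring
  rw [e3, e4] at h4
  rw [e5]
  have h5 := mul_le_mul_of_nonneg_left h4 (by positivity : 0 ≤ 2 * A)
  have hA' := hA.ne'
  field_simp at h5
  linarith

theorem ent_le (h : Good ρ R) (cp : Continuous p) (p0 : ∀ x, 0 < p x)
    (p1 : ∫ x, p x ∂mea ρ = 1) (hb : Br ρ R p T Φ Ψ) {v : E n → E n} {Λ C : ℝ} (mv : Measurable v)
    (bv : ∀ x, ‖x‖ ≤ R → ‖v x‖ ≤ C)
    (hv : ∀ x y, ‖x‖ ≤ R → ‖y‖ ≤ R → log (p x) + ⟪v x, y - x⟫ - Λ * ‖y - x‖ ^ 2 ≤ log (p y)) :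
    el (mea ρ) p ≤ ∫ x, ⟪v x, x - T x⟫ * p x ∂mea ρ := by
  have := h.prob
  have cl : Continuous fun x => log (p x) := cp.log fun x => (p0 x).ne'
  obtain ⟨C', hC'⟩ :=
    (isCompact_closedBall (0 : E n) R).exists_bound_of_continuousOn cp.continuousOn
  have hm : ∀ x, ‖x‖ ≤ R → min (p x) C' = p x := fun x hx =>
    min_eq_left ((le_abs_self _).trans (hC' x (by simpa using hx)))
  have hC0 : 0 ≤ C' := (norm_nonneg _).trans (hC' 0 (by simpa using h.pos.le))
  have key : ∀ t : ℝ, 0 < t → t < 1 →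
      el (mea ρ) p ≤ ∫ x, ⟪v x, x - T x⟫ * p x ∂mea ρ + t * (|Λ| * (2 * R) ^ 2) := by
    intro t h0 h1
    have hx : ∀ᵐ x ∂mea ρ, ‖(1 - t) • x + t • T x‖ ≤ R := by
      filter_upwards [h.ae, hb.sat] with x a1 a2
      refine (norm_add_le _ _).trans ?_
      rw [norm_smul, norm_smul, Real.norm_of_nonneg h0.le, Real.norm_of_nonneg (by linarith)]
      nlinarith [a2.1]
    have d := dc h cp p0 hb h0 h1 (H := fun z => min (p z) C') (by fun_prop) (C := C')
      fun x => ⟨le_min (p0 x).le hC0, min_le_right _ _⟩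
    have e1 : ∫ z, min (p z) C' ∂mea ρ = 1 := by
      rw [← p1]
      refine integral_congr_ae ?_
      filter_upwards [h.ae] with x a1 using hm x a1
    have e2 : ∫ x, min (p ((1 - t) • x + t • T x)) C' * p x ^ t ∂mea ρ =
        ∫ x, p x * exp (log (p ((1 - t) • x + t • T x)) - log (p x) + t * log (p x)) ∂mea ρ := by
      refine integral_congr_ae ?_
      filter_upwards [hx] with x a1
      rw [hm _ a1, exp_add, exp_sub, exp_log (p0 _), exp_log (p0 _), rpow_def_of_pos (p0 x),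
        mul_comm t, ← mul_assoc, mul_div_cancel₀ _ (p0 x).ne']
    have i1 := hwi_int2 h hb (φ := fun q => p q.1 *
      (log (p ((1 - t) • q.1 + t • q.2)) - log (p q.1) + t * log (p q.1)))
      (by fun_prop (disch := exact fun _ => (p0 _).ne'))
    have j := jensen_exp (μ := mea ρ) (κ := p)
      (a := fun x => log (p ((1 - t) • x + t • T x)) - log (p x) + t * log (p x))
      (ae_of_all _ fun x => (p0 x).le) p1 i1 (hwi_int2 h hb (φ := fun q => p q.1 *
        exp (log (p ((1 - t) • q.1 + t • q.2)) - log (p q.1) + t * log (p q.1)))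
        (by fun_prop (disch := exact fun _ => (p0 _).ne')))
    rw [e1, e2] at d
    have j2 := exp_le_one_iff.1 (j.trans d)
    have i2 : Integrable (fun x => ⟪v x, x - T x⟫ * p x) (mea ρ) :=
      hwi_int3 h hb mv bv (φ := fun q => ⟪q.2, q.1.1 - q.1.2⟫ * p q.1.1) (by fun_prop)
    have i3 : Integrable (fun x => p x * log (p x)) (mea ρ) := h.integrable (by fun_prop)
    have i4 : Integrable (fun x => t * (|Λ| * (2 * R) ^ 2) * p x) (mea ρ) :=
      h.integrable (by fun_prop)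
    have i5 : Integrable (fun x => ⟪v x, x - T x⟫ * p x + t * (|Λ| * (2 * R) ^ 2) * p x) (mea ρ) :=
      i2.add i4
    have j3 : ∫ x, t * (p x * log (p x) - (⟪v x, x - T x⟫ * p x + t * (|Λ| * (2 * R) ^ 2) * p x))
        ∂mea ρ ≤ 0 := by
      refine le_trans (integral_mono_ae ((i3.sub (i2.add i4)).const_mul t) i1 ?_) j2
      filter_upwards [h.ae, hb.sat, hx] with x a1 a2 a3
      have b1 := hv x _ a1 a3
      have b2 : (1 - t) • x + t • T x - x = (-t) • (x - T x) := by module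
      rw [b2, inner_smul_right, norm_smul, mul_pow, Real.norm_eq_abs, sq_abs, neg_sq] at b1
      have b3 : ‖x - T x‖ ^ 2 ≤ (2 * R) ^ 2 :=
        pow_le_pow_left₀ (norm_nonneg _) ((norm_sub_le _ _).trans (by linarith [a2.1])) 2
      have b4 : Λ * ‖x - T x‖ ^ 2 ≤ |Λ| * (2 * R) ^ 2 :=
        mul_le_mul (le_abs_self _) b3 (sq_nonneg _) (abs_nonneg _)
      have b5 := mul_le_mul_of_nonneg_left b4 (sq_nonneg t)
      have b6 : t * (log (p x) - (⟪v x, x - T x⟫ + t * (|Λ| * (2 * R) ^ 2))) ≤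
          log (p ((1 - t) • x + t • T x)) - log (p x) + t * log (p x) := by linarith
      have b7 := mul_le_mul_of_nonneg_left b6 (p0 x).le
      linarith
    rw [integral_const_mul, integral_sub i3 i5, integral_add i2 i4, integral_const_mul, p1,
      mul_one] at j3
    have := nonpos_of_mul_nonpos_right j3 h0
    rw [el]
    linarith
  refine le_of_forall_pos_le_add fun ε hε => ?_
  have hL : 0 ≤ |Λ| * (2 * R) ^ 2 := by positivity
  refine (key (min (1 / 2) (ε / (|Λ| * (2 * R) ^ 2 + 1))) (by positivity)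
    ((min_le_left _ _).trans_lt (by norm_num))).trans (add_le_add le_rfl ?_)
  refine (mul_le_mul_of_nonneg_right (min_le_right _ _) hL).trans ?_
  rw [div_mul_eq_mul_div, div_le_iff₀ (by positivity)]
  nlinarith

theorem Good.hwi (h : Good ρ R) {A B M : ℝ} (hA : 0 < A) (hM : 2 * A ≤ M) (hc : CI (mea ρ) A B) :
    LS (mea ρ) R M ((B + 6 * A) / M) := by
  intro g v Λ cg g0 mv ⟨C, bv⟩ hv
  have := h.prob
  have hM0 : 0 < M := by linarith
  obtain ⟨Z, hZ⟩ : ∃ Z, Z = ∫ x, g x ∂mea ρ := ⟨_, rfl⟩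
  have Z0 : 0 < Z := by
    rw [hZ, integral_pos_iff_support_of_nonneg (fun x => (g0 x).le) (h.integrable cg),
      Function.support_eq_univ fun x => (g0 x).ne']
    simp
  have cp : Continuous fun x => g x / Z := by fun_prop
  have p0 : ∀ x, 0 < g x / Z := fun x => div_pos (g0 x) Z0
  have p1 : ∫ x, g x / Z ∂mea ρ = 1 := by rw [integral_div, ← hZ, div_self Z0.ne']
  have cl : Continuous fun x => log (g x) := cg.log fun x => (g0 x).ne'
  have cl' : Continuous fun x => log (g x / Z) := cp.log fun x => (p0 x).ne'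
  obtain ⟨T, Φ, Ψ, hb⟩ := exists_br h cp p0 p1
  have h1 := transport_le h cp p0 p1 hb hA hc
  have h2 := ent_le h cp p0 p1 hb (Λ := Λ) mv bv fun x y hx hy => by
    rw [log_div (g0 x).ne' Z0.ne', log_div (g0 y).ne' Z0.ne']
    linarith [hv x y hx hy]
  have e1 : ent (mea ρ) g = Z * el (mea ρ) fun x => g x / Z := by
    rw [ent, el, ← hZ, ← integral_const_mul]
    nth_rewrite 1 [hZ]
    rw [← integral_mul_const, ← integral_sub (h.integrable (by fun_prop))
      (h.integrable (by fun_prop))]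
    refine integral_congr_ae (ae_of_all _ fun x => ?_)
    simp only [log_div (g0 x).ne' Z0.ne']
    field_simp
  have h3 : 0 ≤ el (mea ρ) fun x => g x / Z := by
    have a1 : ∫ x, (g x / Z - 1) ∂mea ρ = 0 := by
      rw [integral_sub (h.integrable cp) (integrable_const _), p1]; simp
    rw [← a1, el]
    exact integral_mono (h.integrable (by fun_prop)) (h.integrable (by fun_prop))
      fun x => self_sub_one_le_mul_log (p0 x).le
  have i1 := hwi_int3 h hb mv bv (φ := fun q => ‖q.2‖ ^ 2 * g q.1.1) (by fun_prop)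
  have i2 := hwi_int2 h hb (φ := fun q => ‖q.1 - q.2‖ ^ 2 * (g q.1 / Z)) (by fun_prop)
  have h4 : ∫ x, ⟪v x, x - T x⟫ * (g x / Z) ∂mea ρ ≤
      M / (2 * Z) * ∫ x, ‖v x‖ ^ 2 * g x ∂mea ρ +
        1 / (2 * M) * ∫ x, ‖x - T x‖ ^ 2 * (g x / Z) ∂mea ρ := by
    rw [← integral_const_mul, ← integral_const_mul,
      ← integral_add (i1.const_mul _) (i2.const_mul _)]
    refine integral_mono (hwi_int3 h hb mv bv
      (φ := fun q => ⟪q.2, q.1.1 - q.1.2⟫ * (g q.1.1 / Z)) (by fun_prop))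
      ((i1.const_mul _).add (i2.const_mul _)) fun x => ?_
    have a1 : ⟪v x, x - T x⟫ ≤ M / 2 * ‖v x‖ ^ 2 + 1 / (2 * M) * ‖x - T x‖ ^ 2 := by
      refine (real_inner_le_norm _ _).trans ?_
      have a2 : M / 2 * ‖v x‖ ^ 2 + 1 / (2 * M) * ‖x - T x‖ ^ 2 - ‖v x‖ * ‖x - T x‖ =
          (M * ‖v x‖ - ‖x - T x‖) ^ 2 / (2 * M) := by field_simp; ring
      have a3 : 0 ≤ (M * ‖v x‖ - ‖x - T x‖) ^ 2 / (2 * M) := by positivity
      linarith
    refine (mul_le_mul_of_nonneg_right a1 (p0 x).le).trans (le_of_eq ?_)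
    simp only
    field_simp
  rw [e1, ← hZ]
  generalize (el (mea ρ) fun x => g x / Z) = D at *
  generalize ∫ x, ‖v x‖ ^ 2 * g x ∂mea ρ = I at *
  have h5 := h2.trans (h4.trans (add_le_add le_rfl
    (mul_le_mul_of_nonneg_left h1 (by positivity : 0 ≤ 1 / (2 * M)))))
  have h6 : 1 / (2 * M) * (2 * A * D) ≤ D / 2 := by
    rw [one_div, inv_mul_le_iff₀ (by positivity)]
    nlinarith
  have h7 : D ≤ M / Z * I + (B + 6 * A) / M := by
    have a1 : M / (2 * Z) * I = M / Z * I / 2 := by field_simp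
    have a2 : 1 / (2 * M) * (2 * A * D + B + 6 * A) =
        1 / (2 * M) * (2 * A * D) + (B + 6 * A) / M / 2 := by field_simp; ring
    linarith
  refine (mul_le_mul_of_nonneg_left h7 Z0.le).trans (le_of_eq ?_)
  field_simp

end Vale.Agent.P245
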