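import Vale.Agent.P245.Chain
import Vale.Agent.P245.H1
import Vale.Agent.P245.H2
import Vale.Agent.P245.Br

/-! A defective log-Sobolev inequality for `μ` gives concentration for `μ * γ`, with the same
defect up to a constant. -/

open MeasureTheory Real Set
open scoped RealInnerProductSpace

namespace Vale.Agent.P245

variable {n : ℕ} {ρ : E n → ℝ} {R : ℝ}

theorem Cpl.sq_le (h : Good ρ R) (c : Cpl (sm ρ)) {A B : ℝ} (hA : 0 ≤ A)
    (hl : LS (mea ρ) R A B) :
    3 / 16 * ∑ i, ∫ w, c.u i w ^ 2 ∂c.P ≤ (5 * A + 1) * c.L + B + 2 := by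
  have := c.prob
  have := h.prob
  choose C hC using fun i => (c.u_bm i).2
  have hu : ∀ i w, |c.u i w| ≤ ∑ j, |C j| := fun i w =>
    ((hC i w).trans (le_abs_self _)).trans
      (Finset.single_le_sum (f := fun j => |C j|) (fun j _ => abs_nonneg _) (Finset.mem_univ i))
  have mu : ∀ i, Measurable (c.u i) := fun i => (c.u_bm i).1
  obtain ⟨M, γ, f, ζ, hc⟩ := exists_chan (Fin n) (∑ j, |C j|)
  have h1 := chain (c.ker h) hc mu hu hA (fun F hF => c.h1 h hA hl hF) (N := ⌊16 * A⌋₊ + 1)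
    (Nat.le_add_left _ _)
  have h2 := c.h2 h
  have h3 := hc.dz_le (P := c.P) mu hu (c.h3 h)
  have h4 := hc.j0_le (P := c.P) mu hu
  have h5 := c.L_nonneg h
  have h6 : log 4 ≤ 2 := by
    rw [show (4 : ℝ) = 2 ^ 2 by norm_num, log_pow]
    push_cast
    linarith [log_two_lt_d9]
  have hN1 : 16 * A ≤ ((⌊16 * A⌋₊ + 1 : ℕ) : ℝ) := by
    push_cast
    exact (Nat.lt_floor_add_one _).le
  have hN2 : ((⌊16 * A⌋₊ + 1 : ℕ) : ℝ) ≤ 16 * A + 1 := by
    push_cast
    linarith [Nat.floor_le (by positivity : 0 ≤ 16 * A)]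
  have hN3 : (0 : ℝ) < ((⌊16 * A⌋₊ + 1 : ℕ) : ℝ) := by positivity
  have hR : 0 ≤ ∑ i, ∫ w, c.u i w ^ 2 ∂c.P :=
    Finset.sum_nonneg fun i _ => integral_nonneg fun w => sq_nonneg _
  set N : ℝ := ((⌊16 * A⌋₊ + 1 : ℕ) : ℝ)
  set R2 := ∑ i, ∫ w, c.u i w ^ 2 ∂c.P
  set J := ∑ z, γ z * el c.P (fun w => f z fun i => c.u i w)
  have h7 : A * (2 * J / N) ≤ R2 / 8 := by
    rw [← mul_div_assoc, div_le_iff₀ hN3]
    nlinarith [mul_le_mul_of_nonneg_left h4 hA, mul_le_mul_of_nonneg_left hN1 hR]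
  have h8 : N * ∑ i, dir c.P (mea ρ) c.k (c.u i) ≤ (16 * A + 1) * (c.L / 4) :=
    (mul_le_mul_of_nonneg_left h2 hN3.le).trans (mul_le_mul_of_nonneg_right hN2 (by positivity))
  nlinarith

theorem Good.main (h : Good ρ R) {A B : ℝ} (hA : 0 ≤ A) (hB : 0 ≤ B) (hl : LS (mea ρ) R A B) :
    CIb (mea (sm ρ)) (86 * (5 * A + 1)) (86 * (B + 2)) := by
  intro S T mS mT r bS bT D hD
  have q0 : ∀ x, 0 ≤ sm ρ x := fun x => (h.sm_pos x).le
  rw [mea_real h.sm_cont.measurable q0 mS, mea_real h.sm_cont.measurable q0 mT]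
  rcases (integral_nonneg (μ := volume.restrict S) (f := sm ρ) q0).eq_or_lt with hS | hS
  · rw [← hS, zero_mul]
    positivity
  rcases (integral_nonneg (μ := volume.restrict T) (f := sm ρ) q0).eq_or_lt with hT | hT
  · rw [← hT, mul_zero]
    positivity
  obtain ⟨c, rfl, rfl, ha, hb⟩ := exists_cpl h.sm_cont h.sm_pos mS mT bS bT hS hT
  have := c.prob
  have h1 := c.sq_le h hA hl
  have h2 := c.L_nonneg h
  have h3 : D ≤ 16 * ∑ i, ∫ w, c.u i w ^ 2 ∂c.P := by
    have i1 : ∀ i, Integrable (fun w => c.u i w ^ 2) c.P := fun i => by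
      simpa [sq] using ((c.u_bm i).mul (c.u_bm i)).integrable
    rw [← integral_finsetSum _ fun i _ => i1 i, ← integral_const_mul]
    have h4 : ∫ _w, D ∂c.P ≤ ∫ w, 16 * ∑ i, c.u i w ^ 2 ∂c.P := by
      refine integral_mono (integrable_const D)
        ((integrable_finsetSum _ fun i _ => i1 i).const_mul _) fun w => ?_
      refine (hD _ (c.memX w) _ (c.memY w)).trans (le_of_eq ?_)
      rw [EuclideanSpace.real_norm_sq_eq, Finset.mul_sum]
      refine Finset.sum_congr rfl fun i _ => ?_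
      simp only [Cpl.u, PiLp.sub_apply]
      ring
    simpa using h4
  have h5 : (∫ x in c.S, sm ρ x) * ∫ x in c.T, sm ρ x = exp (-c.L) := by
    rw [Cpl.L, ha, hb, log_inv, log_inv, neg_add, neg_neg, neg_neg, exp_add, exp_log hS, exp_log hT]
  rw [h5, exp_le_exp, le_div_iff₀ (by positivity)]
  nlinarith [mul_nonneg hA h2]

end Vale.Agent.P245
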