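import Vale.Agent.P245.CplJ
import Vale.Agent.P245.BSd

/-! Two entropy inequalities along the optimal coupling.

Plan for `ple`.  `e₋ x = Φ x / 2 - ‖x‖²/4`, `e₊ y = Ψ y / 2 - ‖y‖²/4`; on `S × T`,
`e₋ x + e₊ y ≥ -‖x-y‖²/4` (`dual`), with equality at `(X, Y)` a.e. (`sat`).  Let
`φ x = -‖x-u‖²/2 + ⟪v, x-u⟫ - e₋ x`, `φ' y = -‖y-u‖²/2 + ⟪v, y-u⟫ - e₊ y`,
`h z = exp (-‖z-u‖²/2 + ⟪v, z-u⟫)`.  `pl_half` for `indicator S (exp φ)`, `indicator T (exp φ')`, `h`
and `integral_gauss` give `(∫_S exp φ) (∫_T exp φ') ≤ (cn exp (‖v‖²/2))²`; bound both factors below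
by `jensenX`, `jensenY` and use `φ X + φ' Y = 2 log h (mid X Y)` a.e.
Plan for `fa`.  `bs` for `f x' = indicator S (exp (-Φ)) (x' + x₀)` and
`g = indicator T (exp (-Ψ y + ⟪x₀, y⟫))` gives `β`; `jensenX` with `φ x = -Φ x + ⟪x - x₀, β⟫`
(translate by `integral_add_right_eq_self`; `∫ κ ⟪X - x₀, β⟫ = 0` from the coordinates),
`jensenY` with `φ y = -Ψ y + ⟪x₀, y⟫`, `sat`, `cn_sq`. -/

open MeasureTheory Real Set
open scoped RealInnerProductSpace

namespace Vale.Agent.P245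

variable {n : ℕ} {q κ : E n → ℝ}

theorem nice_ind {S : Set (E n)} (mS : MeasurableSet S) {r : ℝ} (bS : ∀ x ∈ S, ‖x‖ ≤ r)
    {φ : E n → ℝ} (cφ : Continuous φ) : Nice (S.indicator fun x => exp (φ x)) := by
  obtain ⟨C, hC⟩ := (isCompact_closedBall (0 : E n) r).exists_bound_of_continuousOn
    cφ.rexp.continuousOn
  refine ⟨cφ.rexp.measurable.indicator mS, |C| + |r|, fun x => ?_⟩
  by_cases hx : x ∈ S
  · rw [indicator_of_mem hx]
    have h1 := hC x (by simpa using bS x hx)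
    rw [Real.norm_of_nonneg (exp_pos _).le] at h1
    exact ⟨(exp_pos _).le, by linarith [le_abs_self C, abs_nonneg r], fun h => by
      linarith [bS x hx, le_abs_self r, abs_nonneg C]⟩
  · rw [indicator_of_notMem hx]
    exact ⟨le_rfl, by positivity, fun _ => rfl⟩

theorem Nice.nonneg {V : Type} [Norm V] [MeasurableSpace V] {f : V → ℝ} (h : Nice f) (x : V) :
    0 ≤ f x := (h.2.choose_spec x).1

theorem mid_id (x y u v : E n) : -‖x - u‖ ^ 2 / 2 + ⟪v, x - u⟫ + ‖x‖ ^ 2 / 4 +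
    (-‖y - u‖ ^ 2 / 2 + ⟪v, y - u⟫ + ‖y‖ ^ 2 / 4) - ⟪x, y⟫ / 2 =
    2 * (-‖mid x y - u‖ ^ 2 / 2 + ⟪v, mid x y - u⟫) := by
  simp only [mid, norm_sub_sq_real, norm_smul, mul_pow, norm_add_sq_real, inner_sub_right,
    inner_add_left, inner_add_right, real_inner_smul_left, real_inner_smul_right, Real.norm_eq_abs,
    sq_abs]
  ring

theorem Cpl.intX (c : Cpl q) (cq : Continuous q) (q0 : ∀ x, 0 < q x) (hκ : PB κ) {φ : E n → ℝ}
    (cφ : Continuous φ) :
    Integrable (fun w => κ w * (φ (c.X w) - log (κ w) - log (c.a * q (c.X w)))) c.P := by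
  have := c.prob
  exact (hκ.bm.mul (((c.bm (φ := fun p => φ p.1) (by fun_prop)).sub hκ.log).sub
    (c.bm (φ := fun p => log (c.a * q p.1)) (Continuous.log (by fun_prop) fun p =>
      (mul_pos c.ha (q0 _)).ne')))).integrable

theorem Cpl.intY (c : Cpl q) (cq : Continuous q) (q0 : ∀ x, 0 < q x) (hκ : PB κ) {φ : E n → ℝ}
    (cφ : Continuous φ) :
    Integrable (fun w => κ w * (φ (c.Y w) - log (κ w) - log (c.b * q (c.Y w)))) c.P := by
  have := c.prob
  exact (hκ.bm.mul (((c.bm (φ := fun p => φ p.2) (by fun_prop)).sub hκ.log).sub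
    (c.bm (φ := fun p => log (c.b * q p.2)) (Continuous.log (by fun_prop) fun p =>
      (mul_pos c.hb (q0 _)).ne')))).integrable

/-- both Jensen bounds at once -/
theorem Cpl.jensen (c : Cpl q) (cq : Continuous q) (q0 : ∀ x, 0 < q x) (hκ : PB κ)
    (h1 : ∫ w, κ w ∂c.P = 1) {φ ψ : E n → ℝ} (cφ : Continuous φ) (cψ : Continuous ψ) {K : ℝ}
    (hK : (∫ x in c.S, exp (φ x)) * ∫ y in c.T, exp (ψ y) ≤ exp K) :
    ∫ w, (κ w * (φ (c.X w) - log (κ w) - log (c.a * q (c.X w))) +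
      κ w * (ψ (c.Y w) - log (κ w) - log (c.b * q (c.Y w)))) ∂c.P ≤ K := by
  rw [integral_add (c.intX cq q0 hκ cφ) (c.intY cq q0 hκ cψ), ← exp_le_exp, exp_add]
  exact (mul_le_mul (c.jensenX cq q0 hκ h1 cφ) (c.jensenY cq q0 hκ h1 cψ) (exp_pos _).le
    (integral_nonneg fun x => (exp_pos _).le)).trans hK

theorem Cpl.ple (c : Cpl q) (cq : Continuous q) (q0 : ∀ x, 0 < q x) (hκ : PB κ)
    (h1 : ∫ w, κ w ∂c.P = 1) (u v : E n) :
    ∫ w, κ w * (⟪v, mid (c.X w) (c.Y w) - u⟫ - ‖mid (c.X w) (c.Y w) - u‖ ^ 2 / 2 - log (κ w) -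
      (log (c.a * q (c.X w)) + log (c.b * q (c.Y w))) / 2) ∂c.P ≤ ‖v‖ ^ 2 / 2 + log (cn n) := by
  have c1 := c.cΦ
  have c2 := c.cΨ
  have cφ : Continuous fun x : E n => -‖x - u‖ ^ 2 / 2 + ⟪v, x - u⟫ + ‖x‖ ^ 2 / 4 - c.Φ x / 2 := by
    fun_prop
  have cψ : Continuous fun x : E n => -‖x - u‖ ^ 2 / 2 + ⟪v, x - u⟫ + ‖x‖ ^ 2 / 4 - c.Ψ x / 2 := by
    fun_prop
  have n1 := nice_ind c.mS c.bS cφ
  have n2 := nice_ind c.mT c.bT cψ
  have h2 := pl_half n1.1 n2.1 (h := fun z => exp (-‖z - u‖ ^ 2 / 2 + ⟪v, z - u⟫)) (by fun_prop)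
    n1.nonneg n2.nonneg (fun _ => (exp_pos _).le) n1.integrable n2.integrable
    (integrable_gauss u v) fun x y => by
      by_cases hx : x ∈ c.S
      · by_cases hy : y ∈ c.T
        · rw [indicator_of_mem hx, indicator_of_mem hy, ← exp_add, sq (exp _), ← exp_add,
            exp_le_exp]
          linarith [mid_id x y u v, c.dual x hx y hy]
        · rw [indicator_of_notMem hy, mul_zero]
          positivity
      · rw [indicator_of_notMem hx, zero_mul]
        positivity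
  rw [integral_indicator c.mS, integral_indicator c.mT, integral_gauss,
    ← exp_log (cn_pos n), ← exp_add, sq (exp _), ← exp_add] at h2
  have h3 := c.jensen cq q0 hκ h1 cφ cψ h2
  rw [← mul_le_mul_iff_right₀ two_pos, ← integral_const_mul]
  refine le_trans (le_of_eq (integral_congr_ae ?_)) (h3.trans (le_of_eq (by ring)))
  filter_upwards [c.sat] with w hw
  linear_combination κ w * (hw / 2 - mid_id (c.X w) (c.Y w) u v)

theorem Cpl.fa (c : Cpl q) (cq : Continuous q) (q0 : ∀ x, 0 < q x) (hκ : PB κ)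
    (h1 : ∫ w, κ w ∂c.P = 1) {x₀ : E n} (h0 : ∀ i, ∫ w, κ w * c.X w i ∂c.P = x₀ i) :
    ∫ w, κ w * (-⟪c.X w - x₀, c.Y w⟫ - 2 * log (κ w) -
      (log (c.a * q (c.X w)) + log (c.b * q (c.Y w)))) ∂c.P ≤ 2 * log (cn n) := by
  have := c.prob
  have c1 := c.cΦ
  have c2 := c.cΨ
  have mS : MeasurableSet {x | x + x₀ ∈ c.S} := (measurable_add_const x₀) c.mS
  have cψ : Continuous fun y : E n => -c.Ψ y + ⟪x₀, y⟫ := by fun_prop
  have n1 := nice_ind mS (r := c.r + ‖x₀‖) (φ := fun x => -c.Φ (x + x₀)) (fun x hx => by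
    have h2 := norm_sub_le (x + x₀) x₀
    rw [add_sub_cancel_right] at h2
    linarith [c.bS _ hx]) (by fun_prop)
  have n2 := nice_ind c.mT c.bT cψ
  obtain ⟨β, h2⟩ := bs n1 n2 fun x y => by
    by_cases hx : x ∈ {x | x + x₀ ∈ c.S}
    · by_cases hy : y ∈ c.T
      · rw [indicator_of_mem hx, indicator_of_mem hy, ← exp_add, exp_le_exp]
        linarith [c.dual _ hx y hy, inner_add_left (𝕜 := ℝ) x x₀ y]
      · rw [indicator_of_notMem hy, mul_zero]
        positivity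
    · rw [indicator_of_notMem hx, zero_mul]
      positivity
  have cφ : Continuous fun x : E n => -c.Φ x + ⟪x - x₀, β⟫ := by fun_prop
  have e : ∫ x, {x | x + x₀ ∈ c.S}.indicator (fun x => exp (-c.Φ (x + x₀))) x * exp ⟪x, β⟫ =
      ∫ x in c.S, exp (-c.Φ x + ⟪x - x₀, β⟫) := by
    rw [← integral_indicator c.mS, ← integral_add_right_eq_self (c.S.indicator _) x₀]
    refine integral_congr_ae (ae_of_all _ fun x => ?_)
    by_cases hx : x + x₀ ∈ c.S <;> simp [indicator, hx, exp_add]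
  rw [e, integral_indicator c.mT, ← cn_sq, ← exp_log (cn_pos n), sq, ← exp_add] at h2
  have h3 := c.jensen cq q0 hκ h1 cφ cψ h2
  have iX : ∀ i, Integrable (fun w => κ w * c.X w i) c.P := fun i =>
    (hκ.bm.mul (c.bm (φ := fun p => p.1 i) (by fun_prop))).integrable
  have i0 := hκ.bm.integrable (μ := c.P)
  have h4 : ∫ w, κ w * ⟪c.X w - x₀, β⟫ ∂c.P = 0 := by
    have e2 : ∀ w, κ w * ⟪c.X w - x₀, β⟫ = ∑ i, (β i * (κ w * c.X w i) - κ w * (β i * x₀ i)) :=
      fun w => by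
        rw [PiLp.inner_apply, Finset.mul_sum]
        refine Finset.sum_congr rfl fun i _ => ?_
        simp
        ring
    simp only [e2]
    rw [integral_finsetSum _ fun i _ => ((iX i).const_mul _).sub' (i0.mul_const _)]
    refine Finset.sum_eq_zero fun i _ => ?_
    rw [integral_sub ((iX i).const_mul _) (i0.mul_const _), integral_const_mul, integral_mul_const,
      h0, h1]
    ring
  have i4 : Integrable (fun w => κ w * ⟪c.X w - x₀, β⟫) c.P :=
    (hκ.bm.mul (c.bm (φ := fun p => ⟪p.1 - x₀, β⟫) (by fun_prop))).integrable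
  have h5 := integral_sub ((c.intX cq q0 hκ cφ).fun_add (c.intY cq q0 hκ cψ)) i4
  rw [h4, sub_zero] at h5
  refine le_trans (le_of_eq (integral_congr_ae ?_)) ((h5.le.trans h3).trans (le_of_eq (by ring)))
  filter_upwards [c.sat] with w hw
  rw [inner_sub_left (c.X w) x₀ (c.Y w)]
  linear_combination κ w * hw

end Vale.Agent.P245
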