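import Vale.Agent.P245.Main
import Vale.Agent.P245.Back
import Vale.Agent.P245.HWI
import Vale.Agent.P245.Base

/-! The recursion on the defect. -/

open MeasureTheory Real Set

namespace Vale.Agent.P245

variable {n : ℕ} {ρ : E n → ℝ} {R : ℝ}

theorem Good.round (h : Good ρ R) {A y : ℝ} (hA : 1 ≤ A) (hy : 0 ≤ y)
    (hc : CI (mea ρ) A (y * A)) :
    CI (mea ρ) (13100 * A) ((y / A + 1) * (13100 * A)) := by
  have := h.prob
  have hA0 : 0 < A := by linarith
  have h1 := h.hwi hA0 le_rfl hc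
  have e : (y * A + 6 * A) / (2 * A) = y / 2 + 3 := by
    field_simp
    ring
  rw [e] at h1
  have h2 := h.back (by positivity) (h.main (by positivity) (by positivity) h1)
  refine h2.mono (by positivity) (by linarith) ?_
  have e2 : (y / A + 1) * (13100 * A) = 13100 * y + 13100 * A := by
    field_simp
  rw [e2]
  linarith

theorem Good.iter (h : Good ρ R) (j : ℕ) :
    CI (mea ρ) (16 * 13100 ^ j) (((2 * n + 3) * exp (-(j : ℝ) ^ 2 / 2) + 2) * (16 * 13100 ^ j)) := by
  have := h.prob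
  induction j with
  | zero => exact h.base.mono (by norm_num) (by norm_num) (by simp; linarith)
  | succ j ih =>
    have h1 : exp ((j : ℝ) + 1) ≤ 16 * 13100 ^ j := by
      have h2 : exp 1 ≤ 3 := by linarith [exp_one_lt_d9]
      rw [exp_add, ← exp_one_pow, mul_comm]
      gcongr <;> linarith
    have h3 : (16 : ℝ) ≤ 16 * 13100 ^ j := by
      linarith [one_le_pow₀ (n := j) (by norm_num : (1 : ℝ) ≤ 13100)]
    have h4 := h.round (by linarith) (by positivity) ih
    have e : (13100 : ℝ) * (16 * 13100 ^ j) = 16 * 13100 ^ (j + 1) := by ring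
    rw [e] at h4
    refine h4.mono (by positivity) le_rfl (mul_le_mul_of_nonneg_right ?_ (by positivity))
    have h5 : exp (-(j : ℝ) ^ 2 / 2) ≤ exp (-((j + 1 : ℕ) : ℝ) ^ 2 / 2) * (16 * 13100 ^ j) := by
      refine le_trans ?_ (mul_le_mul_of_nonneg_left h1 (exp_pos _).le)
      rw [← exp_add, exp_le_exp]
      push_cast
      linarith
    have h6 : ((2 * n + 3) * exp (-(j : ℝ) ^ 2 / 2) + 2) / (16 * 13100 ^ j) ≤
        (2 * n + 3) * exp (-((j + 1 : ℕ) : ℝ) ^ 2 / 2) + 1 := by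
      rw [div_le_iff₀ (by positivity)]
      nlinarith [mul_le_mul_of_nonneg_left h5 (by positivity : (0 : ℝ) ≤ 2 * n + 3)]
    linarith

theorem Good.ls (h : Good ρ R) (hn : 1 ≤ n) :
    ∃ A, 0 < A ∧ A ≤ exp (40 * (1 + √(log n))) ∧ LS (mea ρ) R A (1 / 10) := by
  have := h.prob
  have hn' : (1 : ℝ) ≤ n := by exact_mod_cast hn
  have hl : 0 ≤ log (n : ℝ) := log_nonneg hn'
  set j := ⌈√(2 * log (2 * n + 3))⌉₊ with hj
  have h0 : 0 ≤ 2 * log (2 * n + 3 : ℝ) := by
    linarith [log_nonneg (by linarith : (1 : ℝ) ≤ 2 * n + 3)]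
  have h1 : (2 * n + 3) * exp (-(j : ℝ) ^ 2 / 2) ≤ 1 := by
    have h2 : 2 * log (2 * n + 3 : ℝ) ≤ (j : ℝ) ^ 2 := by
      rw [← sq_sqrt h0]
      exact pow_le_pow_left₀ (sqrt_nonneg _) (Nat.le_ceil _) 2
    rw [← exp_log (by positivity : (0 : ℝ) < 2 * n + 3), ← exp_add, exp_le_one_iff]
    linarith
  have h3 : (j : ℝ) ≤ 3 + 2 * √(log n) := by
    have h4 : log (2 * n + 3 : ℝ) ≤ 2 + log n := by
      have h5 : exp 1 * exp 1 * n ≥ 2 * n + 3 := by
        have h6 : (5 : ℝ) ≤ exp 1 * exp 1 := by nlinarith [exp_one_gt_d9]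
        nlinarith
      rw [log_le_iff_le_exp (by positivity), exp_add, exp_log (by positivity),
        show exp (2 : ℝ) = exp 1 * exp 1 by rw [← exp_add]; norm_num]
      linarith
    have h6 : √(2 * log (2 * n + 3)) ≤ 2 + 2 * √(log n) := by
      rw [sqrt_le_left (by positivity)]
      nlinarith [sq_sqrt hl, sqrt_nonneg (log n)]
    linarith [(Nat.ceil_lt_add_one (sqrt_nonneg (2 * log (2 * n + 3 : ℝ)))).le]
  have hc : CI (mea ρ) (16 * 13100 ^ j) (3 * (16 * 13100 ^ j)) :=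
    (h.iter j).mono (by positivity) le_rfl
      (mul_le_mul_of_nonneg_right (by linarith) (by positivity))
  have h7 := h.hwi (M := 90 * (16 * 13100 ^ j)) (by positivity)
    (by nlinarith [pow_pos (by norm_num : (0 : ℝ) < 13100) j]) hc
  have e : ((3 : ℝ) * (16 * 13100 ^ j) + 6 * (16 * 13100 ^ j)) / (90 * (16 * 13100 ^ j)) =
      1 / 10 := by
    field_simp
    norm_num
  rw [e] at h7
  refine ⟨_, by positivity, ?_, h7⟩
  have h8 : (13100 : ℝ) ≤ exp 10 := by
    rw [show (10 : ℝ) = (10 : ℕ) by norm_num, ← exp_one_pow]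
    exact le_trans (by norm_num) (pow_le_pow_left₀ (by norm_num) exp_one_gt_d9.le 10)
  calc (90 : ℝ) * (16 * 13100 ^ j) ≤ 13100 ^ (j + 1) := by
        rw [pow_succ]
        nlinarith [pow_pos (by norm_num : (0 : ℝ) < 13100) j]
    _ ≤ exp 10 ^ (j + 1) := pow_le_pow_left₀ (by norm_num) h8 _
    _ ≤ _ := by
        rw [← exp_nat_mul, exp_le_exp]
        push_cast
        linarith [sqrt_nonneg (log n)]

end Vale.Agent.P245
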