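import Vale.Agent.P245.Gauss
import Vale.Agent.P245.PL

/-! The density `sm ρ` of `μ * γ`.

Plan.  Continuity: `continuous_of_dominated` with the bound `gau_le`.  `sm_lc`: `pl_half` for
`u ↦ ρ u * gau (x - u)`, `u ↦ ρ u * gau (y - u)`, `u ↦ ρ u * gau (mid x y - u)` (`integral_mea`,
`Good.mid_lc`, parallelogram identity `‖x-u‖² + ‖y-u'‖² = 2 ‖mid x y - mid u u'‖² + ‖..‖²/2`).
`sm_sc`: `gau (mid x y - u) ^ 2 = gau (x-u) gau (y-u) exp (‖x-y‖²/4)` and Cauchy-Schwarz (for
instance `2 √(A B) ≤ λ A + B / λ` with `λ` chosen from the two integrals).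
Fubini: `integral_integral_swap`, integrability by `integrable_prod_iff'` and
`integral_gau`, `integral_gau_exp`. -/

open MeasureTheory Real Set
open scoped RealInnerProductSpace

namespace Vale.Agent.P245

variable {n : ℕ} {ρ : E n → ℝ} {R : ℝ}

theorem Good.mid_lc (h : Good ρ R) (x y : E n) : ρ x * ρ y ≤ ρ (mid x y) ^ 2 := by
  have h1 := h.lc x y (1 / 2) (by norm_num) (by norm_num)
  have e : (1 - 1 / 2 : ℝ) = 1 / 2 := by norm_num
  rw [e, ← smul_add, ← sqrt_eq_rpow, ← sqrt_eq_rpow] at h1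
  have h2 := pow_le_pow_left₀ (by positivity) h1 2
  rwa [mul_pow, sq_sqrt (h.nonneg x), sq_sqrt (h.nonneg y)] at h2

theorem sm_gau_mid (a b : E n) : gau (mid a b) ^ 2 = gau a * gau b * exp (‖a - b‖ ^ 2 / 4) := by
  have h1 : ‖mid a b‖ ^ 2 = ‖a + b‖ ^ 2 / 4 := by
    rw [mid, norm_smul, mul_pow, Real.norm_of_nonneg (by norm_num)]
    ring
  have h2 := parallelogram_law_with_norm ℝ a b
  have h3 : exp (-‖mid a b‖ ^ 2 / 2) ^ 2 =
      exp (-‖a‖ ^ 2 / 2) * exp (-‖b‖ ^ 2 / 2) * exp (‖a - b‖ ^ 2 / 4) := by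
    rw [sq, ← exp_add, ← exp_add, ← exp_add, h1]
    congr 1
    nlinarith
  rw [gau, gau, gau, div_pow, h3]
  ring

theorem sm_mid_sub (x y u v : E n) : mid x y - mid u v = mid (x - u) (y - v) := by
  simp only [mid, ← smul_sub]
  congr 1
  abel

theorem sm_mid_self (u : E n) : mid u u = u := by
  rw [mid, ← two_smul ℝ u, smul_smul]
  norm_num

theorem Good.sm_int_gau (h : Good ρ R) (x : E n) : Integrable (fun u => gau (x - u)) (mea ρ) :=
  h.integrable (by fun_prop)

theorem Good.sm_pos (h : Good ρ R) (x : E n) : 0 < sm ρ x := by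
  have := h.prob
  rw [sm, integral_pos_iff_support_of_nonneg (fun u => (gau_pos _).le) (h.sm_int_gau x),
    Function.support_eq_univ fun u => (gau_pos _).ne']
  simp

theorem Good.sm_cont (h : Good ρ R) : Continuous (sm ρ) := by
  have := h.prob
  refine continuous_of_dominated (bound := fun _ => (cn n)⁻¹)
    (fun x => (h.sm_int_gau x).aestronglyMeasurable) (fun x => ae_of_all _ fun u => ?_)
    (integrable_const _) (ae_of_all _ fun u => by fun_prop)
  rw [Real.norm_of_nonneg (gau_pos _).le]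
  exact gau_le _

theorem Good.sm_lc (h : Good ρ R) (x y : E n) : sm ρ x * sm ρ y ≤ sm ρ (mid x y) ^ 2 := by
  have hm : ∀ z : E n, Measurable fun u => ρ u * gau (z - u) := fun z =>
    h.nice.1.mul (Continuous.measurable (by fun_prop))
  have h0 : ∀ z u : E n, 0 ≤ ρ u * gau (z - u) := fun z u =>
    mul_nonneg (h.nonneg u) (gau_pos _).le
  have hi : ∀ z : E n, Integrable fun u => ρ u * gau (z - u) := fun z =>
    h.nice.integrable.mul_bdd (c := (cn n)⁻¹) (Continuous.aestronglyMeasurable (by fun_prop))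
      (ae_of_all _ fun u => by
        rw [Real.norm_of_nonneg (gau_pos _).le]
        exact gau_le _)
  simp only [sm, integral_mea h.nice.1 h.nonneg]
  refine pl_half (hm x) (hm y) (hm _) (h0 x) (h0 y) (h0 _) (hi x) (hi y) (hi _) fun u v => ?_
  have h1 : gau (x - u) * gau (y - v) ≤ gau (mid x y - mid u v) ^ 2 := by
    rw [sm_mid_sub, sm_gau_mid]
    exact le_mul_of_one_le_right (mul_pos (gau_pos _) (gau_pos _)).le
      (one_le_exp (by positivity))
  rw [mul_pow, mul_mul_mul_comm]
  exact mul_le_mul (h.mid_lc u v) h1 (mul_pos (gau_pos _) (gau_pos _)).le (sq_nonneg _)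

theorem Good.sm_sc (h : Good ρ R) (x y : E n) :
    sm ρ (mid x y) ^ 2 ≤ sm ρ x * sm ρ y * exp (‖x - y‖ ^ 2 / 4) := by
  have hA := h.sm_pos x
  have hM := h.sm_pos (mid x y)
  set e := exp (‖x - y‖ ^ 2 / 4) with he
  obtain ⟨l, hl, hl'⟩ : ∃ l, 0 < l ∧ l * sm ρ x = sm ρ (mid x y) :=
    ⟨_, div_pos hM hA, div_mul_cancel₀ _ hA.ne'⟩
  have h1 : ∫ u, 2 * l * gau (mid x y - u) ∂mea ρ ≤
      ∫ u, (l ^ 2 * gau (x - u) + e * gau (y - u)) ∂mea ρ := by
    refine integral_mono ((h.sm_int_gau _).const_mul _)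
      (((h.sm_int_gau _).const_mul _).add ((h.sm_int_gau _).const_mul _)) fun u => ?_
    have h2 := sm_gau_mid (x - u) (y - u)
    rw [← sm_mid_sub, sm_mid_self, sub_sub_sub_cancel_right, ← he] at h2
    have ha := gau_pos (x - u)
    refine le_of_mul_le_mul_left ?_ ha
    nlinarith [sq_nonneg (l * gau (x - u) - gau (mid x y - u))]
  rw [integral_add ((h.sm_int_gau _).const_mul _) ((h.sm_int_gau _).const_mul _),
    integral_const_mul, integral_const_mul, integral_const_mul] at h1
  change 2 * l * sm ρ (mid x y) ≤ l ^ 2 * sm ρ x + e * sm ρ y at h1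
  have h3 := mul_le_mul_of_nonneg_left h1 hA.le
  rw [← hl'] at h3 ⊢
  nlinarith

/-- the convolution of a piece of `μ` with `γ` has the mass of the piece -/
theorem Good.sm_piece (h : Good ρ R) (S : Set (E n)) :
    Integrable (fun x => ∫ u in S, gau (x - u) ∂mea ρ) ∧
      ∫ x, ∫ u in S, gau (x - u) ∂mea ρ = (mea ρ).real S := by
  have := h.prob
  have hi : Integrable (Function.uncurry fun x u : E n => gau (x - u))
      (volume.prod ((mea ρ).restrict S)) := by
    refine (integrable_prod_iff' (Continuous.aestronglyMeasurable (by fun_prop))).2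
      ⟨ae_of_all _ fun u => integrable_gau u, ?_⟩
    simp only [Function.uncurry, Real.norm_of_nonneg (gau_pos _).le, integral_gau]
    exact integrable_const _
  refine ⟨hi.integral_prod_left, ?_⟩
  rw [integral_integral_swap hi]
  simp [integral_gau]

theorem Good.sm_integrable (h : Good ρ R) : Integrable (sm ρ) := by
  have h1 := (h.sm_piece univ).1
  rw [Measure.restrict_univ] at h1
  exact h1

theorem Good.sm_int (h : Good ρ R) : ∫ x, sm ρ x = 1 := by
  have := h.prob
  have h1 := (h.sm_piece univ).2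
  rw [Measure.restrict_univ, probReal_univ] at h1
  exact h1

theorem Good.sm_mgf (h : Good ρ R) (ξ : E n) : Integrable (fun x => exp ⟪ξ, x⟫ * sm ρ x) ∧
    ∫ x, exp ⟪ξ, x⟫ * sm ρ x ≤ 4 * exp (3 / 4 * ‖ξ‖ ^ 2) := by
  have := h.prob
  have hi : Integrable (Function.uncurry fun x u : E n => gau (x - u) * exp ⟪ξ, x⟫)
      (volume.prod (mea ρ)) := by
    refine (integrable_prod_iff' (Continuous.aestronglyMeasurable (by fun_prop))).2
      ⟨ae_of_all _ fun u => Integrable.of_integral_ne_zero ?_, ?_⟩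
    · simp only [Function.uncurry, integral_gau_exp]
      positivity
    · simp only [Function.uncurry, Real.norm_of_nonneg (mul_pos (gau_pos _) (exp_pos _)).le,
        integral_gau_exp]
      exact h.integrable (by fun_prop)
  have e : (fun x => exp ⟪ξ, x⟫ * sm ρ x) =
      fun x => ∫ u, gau (x - u) * exp ⟪ξ, x⟫ ∂mea ρ := by
    funext x
    rw [integral_mul_const, mul_comm, sm]
  rw [e]
  refine ⟨hi.integral_prod_left, ?_⟩
  rw [integral_integral_swap hi]
  simp only [integral_gau_exp, integral_const_mul]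
  refine (mul_le_mul_of_nonneg_left (h.mgf ξ) (exp_pos _).le).trans (le_of_eq ?_)
  rw [mul_left_comm, ← exp_add]
  congr 2
  ring

end Vale.Agent.P245
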